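import Vale.Agent.Lib.P171b.Stage

open MeasureTheory Set Filter Topology
open scoped ENNReal

namespace Vale.Agent.Lib.P171b

/-! ### Budget bookkeeping -/

lemma same_add_nonneg {n : ℕ} (x : Fin n → E3) : 0 ≤ (n : ℝ) + 2 * sameE (1 / 2) 0 x := by
  have := sameE_nonneg (1 / 2) 0 x
  positivity

lemma Adm_kacP {R : ℝ} (hR : 4 ≤ R) : Adm (kacP R) 8 := by
  intro n x
  have hRpos : 0 < R := by linarith
  have h1 := kac_upper hRpos (by norm_num : (0 : ℝ) < 1 / 2) 0 x
  have hV := VR_pos hRpos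
  have h2 : (0 : ℝ) ≤ n / VR R := by positivity
  have h3 : (1 + 2 * (1 / 2) / R) ^ 3 ≤ 2 := by
    have h4 : 2 * (1 / 2) / R ≤ 1 / 4 := by
      rw [div_le_iff₀ hRpos]
      linarith
    have h5 : 0 ≤ 2 * (1 / 2) / R := by positivity
    calc (1 + 2 * (1 / 2) / R) ^ 3 ≤ (1 + 1 / 4) ^ 3 :=
          pow_le_pow_left₀ (by linarith) (by linarith) 3
      _ ≤ 2 := by norm_num
  have h6 : (1 + 2 * (1 / 2) / R) ^ 3 / (1 / 2) ^ 3 ≤ 16 := by
    rw [div_le_iff₀ (by norm_num)]
    linarith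
  have h7 := mul_le_mul_of_nonneg_right h6 (same_add_nonneg x)
  linarith

lemma Adm_add {w u : ℝ → ℝ} {C D : ℝ} (h1 : Adm w C) (h2 : Adm u D) :
    Adm (fun r => w r + u r) (C + D) := by
  intro n x
  have e : radK (fun r => w r + u r) = fun p q => radK w p q + radK u p q := rfl
  rw [e, pairE_add]
  have := h1 n x
  have := h2 n x
  linarith

lemma Adm_smul {w : ℝ → ℝ} {c C : ℝ} (hc : 0 ≤ c) (h : Adm w C) :
    Adm (fun r => c * w r) (c * C) := by
  intro n x
  have e : radK (fun r => c * w r) = fun p q => c * radK w p q := rfl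
  rw [e, pairE_smul, mul_assoc]
  exact mul_le_mul_of_nonneg_left (h n x) hc

lemma Adm_mono {w : ℝ → ℝ} {C D : ℝ} (h : Adm w C) (hCD : C ≤ D) : Adm w D := by
  intro n x
  exact (h n x).trans (mul_le_mul_of_nonneg_right hCD (same_add_nonneg x))

/-- Admissibility passes to pointwise limits. -/
lemma Adm_of_tendsto {ι : Type*} {F : Filter ι} [F.NeBot] {w : ι → ℝ → ℝ} {W : ℝ → ℝ} {C : ℝ}
    (h : ∀ᶠ i in F, Adm (w i) C) (hlim : ∀ r, Tendsto (fun i => w i r) F (𝓝 (W r))) : Adm W C := by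
  intro n x
  have h1 : Tendsto (fun i => pairE (radK (w i)) x) F (𝓝 (pairE (radK W) x)) := by
    unfold pairE radK
    exact tendsto_finsetSum _ (fun a _ => tendsto_finsetSum _ (fun b _ => hlim _))
  refine le_of_tendsto h1 ?_
  filter_upwards [h] with i hi
  exact hi n x

/-- The ideal gas. -/
lemma ZZ_ideal {L : ℝ} (hL : 0 ≤ L) :
    ZZ (cube L) 0 (fun _ _ => 0) = ENNReal.ofReal (Real.exp (L ^ 3)) := by
  have hX : 0 ≤ L ^ 3 := by positivity
  have hs := NormedSpace.expSeries_div_hasSum_exp (L ^ 3 : ℝ)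
  rw [← Real.exp_eq_exp_ℝ] at hs
  rw [← hs.tsum_eq, ENNReal.ofReal_tsum_of_nonneg (fun n => by positivity) hs.summable]
  unfold ZZ GrL
  refine tsum_congr (fun n => ?_)
  have h1 : ∀ x : Fin n → E3, HB 0 (fun _ _ => (0 : ℝ)) (List.ofFn x) = 1 := by
    intro x
    rw [HB_ofFn]
    simp [pairE]
  simp only [h1]
  rw [lintegral_pw_const, volume_cube hL, one_mul, ← ENNReal.ofReal_pow hX]
  rw [ENNReal.ofReal_div_of_pos (by positivity), ENNReal.ofReal_natCast, div_eq_mul_inv, mul_comm]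

/-- The base potential: core only. -/
lemma Good_zero {A : ℝ} (hA : 0 < A) : Good A (fun _ => 0) := by
  refine ⟨hA, fun _ => le_rfl, measurable_const, fun n x => ?_⟩
  have e : pairE (radK (fun _ => (0 : ℝ))) x = 0 := by
    simp [pairE, radK]
  rw [e]
  have := same_add_nonneg x
  positivity

lemma PP_zero_le {A : ℝ} (hA : 0 < A) : PP A (fun _ => 0) 0 ≤ 1 := by
  refine ciSup_le (fun L => ?_)
  have hL := L.2
  have hp : 0 < (L.1 + 1) ^ 3 := by positivity
  rw [inv_mul_le_iff₀ hp, mul_one]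
  have h1 : ZZ (cube L.1) 0 (KK A (fun _ => 0)) ≤ ZZ (cube L.1) 0 (fun _ _ => 0) := by
    refine ZZ_le_of_forall (measurableSet_cube _) (fun n x _ => ?_)
    have h2 : pairE (fun _ _ => (0 : ℝ)) x = 0 := by simp [pairE]
    rw [h2]
    have h3 : 0 ≤ pairE (KK A (fun _ => 0)) x := by
      rw [pairE_KK]
      have e : pairE (radK (fun _ => (0 : ℝ))) x = 0 := by simp [pairE, radK]
      rw [e, sub_zero]
      exact core_nonneg hA.le x
    simp only [zero_mul]
    linarith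
  rw [ZZ_ideal hL.le] at h1
  have hne := (Good_zero hA).ne_top hL.le 0
  have h2 := ENNReal.toReal_mono ENNReal.ofReal_ne_top h1
  rw [ENNReal.toReal_ofReal (Real.exp_pos _).le] at h2
  have hpos := lt_of_lt_of_le one_pos (toReal_ZZ_ge_one hne)
  have h3 := Real.log_le_log hpos h2
  rw [Real.log_exp] at h3
  refine h3.trans ?_
  exact pow_le_pow_left₀ hL.le (by linarith) 3

lemma PP_zero_ge {A μ : ℝ} (hA : 0 < A) : μ / 8 ≤ PP A (fun _ => 0) μ := by
  have hG := Good_zero hA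
  have h1 := lZ_le_PP hG one_pos μ
  have h2 := Zn_le (cube 1) μ (KK A (fun _ => 0)) 1
  have h3 : Zn (cube 1) (KK A (fun _ => 0)) 1 = 1 := by
    unfold Zn
    have h4 : ∀ x : Fin 1 → E3, ENNReal.ofReal (Real.exp (-pairE (KK A (fun _ => 0)) x)) = 1 := by
      intro x
      have : pairE (KK A (fun _ => 0)) x = 0 := by
        unfold pairE
        simp
      rw [this]
      simp
    simp only [h4]
    rw [lintegral_pw_const, volume_cube zero_le_one]
    simp
  rw [h3, mul_one] at h2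
  have hne := hG.ne_top zero_le_one μ
  have h5 := ENNReal.toReal_mono hne h2
  rw [ENNReal.toReal_ofReal (Real.exp_pos _).le] at h5
  have h6 := Real.log_le_log (Real.exp_pos _) h5
  rw [Real.log_exp] at h6
  have h7 : μ * ((1 : ℕ) : ℝ) ≤ lZ 1 μ (KK A (fun _ => 0)) := h6
  have h8 : (1 + 1 : ℝ) ^ 3 = 8 := by norm_num
  rw [h8] at h1
  simp only [Nat.cast_one, mul_one] at h7
  linarith

/-- The initial quasi-kink. -/
lemma base_kink {A : ℝ} (hA : 0 < A) :
    (1 / 16 : ℝ) * 32 ≤ D2 (PP A (fun _ => 0)) 0 32 := by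
  unfold D2
  have h1 := PP_zero_le hA
  have h2 := PP_zero_ge hA (μ := 32)
  have h3 := PP_nonneg (Good_zero hA) (0 - 32)
  have e : (0 : ℝ) + 32 = 32 := by norm_num
  rw [e]
  have e2 : (32 : ℝ) / 8 = 4 := by norm_num
  rw [e2] at h2
  have e3 : (1 / 16 : ℝ) * 32 = 2 := by norm_num
  rw [e3]
  have h4 : 2 * PP A (fun _ => 0) 0 ≤ 2 := by linarith
  have h5 : (4 : ℝ) + 0 ≤ PP A (fun _ => 0) 32 + PP A (fun _ => 0) (0 - 32) := add_le_add h2 h3
  linarith

end Vale.Agent.Lib.P171b
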