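import Mathlib

open MeasureTheory Set
open scoped ENNReal

namespace Vale.Agent.Lib.P171b

variable {E : Type*} [MeasurableSpace E]

/-- Power of a measure. -/
noncomputable abbrev pw (ν : Measure E) (n : ℕ) : Measure (Fin n → E) :=
  Measure.pi (fun _ : Fin n => ν)

/-- Measurability of a function on lists, tested on all tuples. -/
def LMeas (H : List E → ℝ≥0∞) : Prop :=
  ∀ n, Measurable (fun x : Fin n → E => H (List.ofFn x))

/-- Invariance of a function on lists under permutations. -/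
def LPerm {α : Type*} (H : List E → α) : Prop :=
  ∀ l l', List.Perm l l' → H l = H l'

lemma measurable_cons_pair (n : ℕ) :
    Measurable (fun q : E × (Fin n → E) => (Fin.cons q.1 q.2 : Fin (n + 1) → E)) := by
  refine measurable_pi_lambda _ (fun i => ?_)
  refine Fin.cases ?_ (fun j => ?_) i
  · simpa using measurable_fst
  · simp only [Fin.cons_succ]; fun_prop

lemma measurable_append_pair (a b : ℕ) :
    Measurable (fun q : (Fin a → E) × (Fin b → E) =>
      (Fin.append q.1 q.2 : Fin (a + b) → E)) := by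
  refine measurable_pi_lambda _ (fun i => ?_)
  refine Fin.addCases (fun j => ?_) (fun j => ?_) i
  · simp only [Fin.append_left]; fun_prop
  · simp only [Fin.append_right]; fun_prop

lemma LMeas.cons_joint {H : List E → ℝ≥0∞} (hH : LMeas H) (n : ℕ) :
    Measurable (fun q : E × (Fin n → E) => H (q.1 :: List.ofFn q.2)) := by
  have h := (hH (n + 1)).comp (measurable_cons_pair (E := E) n)
  convert h using 2 with q
  simp [List.ofFn_succ, Function.comp]

lemma LMeas.append_joint {H : List E → ℝ≥0∞} (hH : LMeas H) (a b : ℕ) :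
    Measurable (fun q : (Fin a → E) × (Fin b → E) => H (List.ofFn q.1 ++ List.ofFn q.2)) := by
  have h := (hH (a + b)).comp (measurable_append_pair (E := E) a b)
  convert h using 2 with q
  simp [List.ofFn_fin_append, Function.comp]

lemma LMeas.cons {H : List E → ℝ≥0∞} (hH : LMeas H) (p : E) :
    LMeas (fun l => H (p :: l)) := fun n =>
  (hH.cons_joint n).comp (measurable_const.prodMk measurable_id)

lemma LMeas.append_left {H : List E → ℝ≥0∞} (hH : LMeas H) {a : ℕ} (x : Fin a → E) :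
    LMeas (fun l => H (List.ofFn x ++ l)) := fun n =>
  (hH.append_joint a n).comp (measurable_const.prodMk measurable_id)

variable (ν ν₁ ν₂ : Measure E) [SigmaFinite ν] [SigmaFinite ν₁] [SigmaFinite ν₂]

/-- Peeling off the first particle. -/
lemma lintegral_pw_succ {G : List E → ℝ≥0∞} (hG : LMeas G) (n : ℕ) :
    ∫⁻ x, G (List.ofFn x) ∂(pw ν (n + 1)) =
      ∫⁻ p, ∫⁻ x, G (p :: List.ofFn x) ∂(pw ν n) ∂ν := by
  have hmp := (measurePreserving_piFinSuccAbove (fun _ : Fin (n + 1) => ν) 0).symm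
  have h1 : ∫⁻ x, G (List.ofFn x) ∂(pw ν (n + 1)) =
      ∫⁻ q, G (List.ofFn ((MeasurableEquiv.piFinSuccAbove (fun _ : Fin (n+1) => E) 0).symm q))
        ∂(ν.prod (pw ν n)) := by
    rw [← hmp.lintegral_comp_emb (MeasurableEquiv.measurableEmbedding _)]
  rw [h1, lintegral_prod]
  · refine lintegral_congr (fun p => lintegral_congr (fun x => ?_))
    congr 1
    have : (MeasurableEquiv.piFinSuccAbove (fun _ : Fin (n+1) => E) 0).symm (p, x) =
        (Fin.cons p x : Fin (n + 1) → E) := by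
      ext i
      refine Fin.cases ?_ (fun j => ?_) i <;> simp [MeasurableEquiv.piFinSuccAbove]
    rw [this]
    simp [List.ofFn_succ]
  · exact ((hG (n + 1)).comp
      (MeasurableEquiv.piFinSuccAbove (fun _ : Fin (n+1) => E) 0).symm.measurable).aemeasurable

/-- The iterated integral of a function over `a` points for `ν₁`, `b` points for `ν₂`. -/
noncomputable def JJ (H : List E → ℝ≥0∞) (a b : ℕ) : ℝ≥0∞ :=
  ∫⁻ x, ∫⁻ y, H (List.ofFn x ++ List.ofFn y) ∂(pw ν₂ b) ∂(pw ν₁ a)

lemma measurable_JJ_inner {H : List E → ℝ≥0∞} (hH : LMeas H) (a b : ℕ) :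
    Measurable (fun x : Fin a → E => ∫⁻ y, H (List.ofFn x ++ List.ofFn y) ∂(pw ν₂ b)) :=
  (hH.append_joint a b).lintegral_prod_right'

lemma measurable_JJ_param {H : List E → ℝ≥0∞} (hH : LMeas H) (a b : ℕ) :
    Measurable (fun p : E => JJ ν₁ ν₂ (fun l => H (p :: l)) a b) := by
  unfold JJ
  have h1 : Measurable (fun q : E × (Fin a → E) =>
      ∫⁻ y, H (q.1 :: (List.ofFn q.2 ++ List.ofFn y)) ∂(pw ν₂ b)) := by
    have h2 : Measurable (fun r : (E × (Fin a → E)) × (Fin b → E) =>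
        H (r.1.1 :: (List.ofFn r.1.2 ++ List.ofFn r.2))) := by
      have h3 := (hH (a + b + 1)).comp
        ((measurable_cons_pair (E := E) (a + b)).comp
          ((measurable_fst.comp measurable_fst).prodMk
            ((measurable_append_pair (E := E) a b).comp
              ((measurable_snd.comp measurable_fst).prodMk measurable_snd))))
      convert h3 using 2 with r
      simp [List.ofFn_succ, Function.comp, List.ofFn_fin_append]
    exact h2.lintegral_prod_right'
  exact h1.lintegral_prod_right'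

/-- A particle for `ν₁` in front. -/
lemma lintegral_JJ_cons_left {H : List E → ℝ≥0∞} (hH : LMeas H) (a b : ℕ) :
    ∫⁻ p, JJ ν₁ ν₂ (fun l => H (p :: l)) a b ∂ν₁ = JJ ν₁ ν₂ H (a + 1) b := by
  unfold JJ
  have hG : LMeas (fun l => ∫⁻ y, H (l ++ List.ofFn y) ∂(pw ν₂ b)) := fun n => by
    exact measurable_JJ_inner ν₂ hH n b
  have := lintegral_pw_succ ν₁ hG a
  simp only [List.cons_append] at this
  exact this.symm

/-- A particle for `ν₂` in front, moved to the second block by permutation invariance. -/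
lemma lintegral_JJ_cons_right {H : List E → ℝ≥0∞} (hH : LMeas H) (hP : LPerm H) (a b : ℕ) :
    ∫⁻ p, JJ ν₁ ν₂ (fun l => H (p :: l)) a b ∂ν₂ = JJ ν₁ ν₂ H a (b + 1) := by
  unfold JJ
  have h0 : ∀ (p : E) (x : Fin a → E) (y : Fin b → E),
      H (p :: (List.ofFn x ++ List.ofFn y)) = H (List.ofFn x ++ p :: List.ofFn y) := by
    intro p x y
    exact hP _ _ (List.perm_middle.symm)
  simp only [h0]
  have hmeas : Measurable (fun q : E × (Fin a → E) =>
      ∫⁻ y, H (List.ofFn q.2 ++ q.1 :: List.ofFn y) ∂(pw ν₂ b)) := by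
    have h2 : Measurable (fun r : (E × (Fin a → E)) × (Fin b → E) =>
        H (List.ofFn r.1.2 ++ r.1.1 :: List.ofFn r.2)) := by
      have h3 := (hH.append_joint a (b + 1)).comp
        ((measurable_snd.comp measurable_fst).prodMk
          ((measurable_cons_pair (E := E) b).comp
            ((measurable_fst.comp measurable_fst).prodMk measurable_snd)))
      convert h3 using 2 with r
      simp [List.ofFn_succ, Function.comp]
    exact h2.lintegral_prod_right'
  rw [lintegral_lintegral_swap (f := fun p x => ∫⁻ y, H (List.ofFn x ++ p :: List.ofFn y) ∂(pw ν₂ b))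
    hmeas.aemeasurable]
  refine lintegral_congr (fun x => ?_)
  exact (lintegral_pw_succ ν₂ (hH.append_left x) b).symm

/-- Binomial formula for the power of a sum of two measures. -/
theorem lintegral_pw_add {H : List E → ℝ≥0∞} (hH : LMeas H) (hP : LPerm H) (n : ℕ) :
    ∫⁻ x, H (List.ofFn x) ∂(pw (ν₁ + ν₂) n) =
      ∑ ij ∈ Finset.HasAntidiagonal.antidiagonal n, (n.choose ij.1 : ℝ≥0∞) * JJ ν₁ ν₂ H ij.1 ij.2 := by
  induction n generalizing H with
  | zero =>
    simp [JJ, pw, lintegral_unique]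
  | succ n ih =>
    rw [lintegral_pw_succ (ν₁ + ν₂) hH n]
    have ih' : ∀ p : E, ∫⁻ x, H (p :: List.ofFn x) ∂(pw (ν₁ + ν₂) n) =
        ∑ ij ∈ Finset.HasAntidiagonal.antidiagonal n, (n.choose ij.1 : ℝ≥0∞) *
          JJ ν₁ ν₂ (fun l => H (p :: l)) ij.1 ij.2 := fun p =>
      ih (hH.cons p) (fun l l' h => hP _ _ (h.cons p))
    simp only [ih']
    rw [Finset.sum_antidiagonal_choose_succ_mul (fun a b => JJ ν₁ ν₂ H a b) n]
    rw [lintegral_add_measure, add_comm]
    congr 1
    · rw [lintegral_finsetSum']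
      · refine Finset.sum_congr rfl (fun ij _ => ?_)
        rw [lintegral_const_mul' _ _ (ENNReal.natCast_ne_top _)]
        rw [lintegral_JJ_cons_right ν₁ ν₂ hH hP]
      · intro ij _
        exact (((measurable_JJ_param ν₁ ν₂ hH ij.1 ij.2).const_mul _)).aemeasurable
    · rw [lintegral_finsetSum']
      · refine Finset.sum_congr rfl (fun ij hij => ?_)
        rw [lintegral_const_mul' _ _ (ENNReal.natCast_ne_top _)]
        rw [lintegral_JJ_cons_left ν₁ ν₂ hH]
        have : ij.1 + ij.2 = n := by simpa using hij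
        rw [Nat.choose_symm_of_eq_add this.symm]
      · intro ij _
        exact (((measurable_JJ_param ν₁ ν₂ hH ij.1 ij.2).const_mul _)).aemeasurable

/-- The grand-canonical sum attached to a measure and a function on lists. -/
noncomputable def GrL (ν : Measure E) (H : List E → ℝ≥0∞) : ℝ≥0∞ :=
  ∑' n : ℕ, (n.factorial : ℝ≥0∞)⁻¹ * ∫⁻ x, H (List.ofFn x) ∂(pw ν n)

/-- Exponential formula: the grand-canonical sum for a sum of two measures. -/
theorem GrL_add {H : List E → ℝ≥0∞} (hH : LMeas H) (hP : LPerm H) :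
    GrL (ν₁ + ν₂) H = ∑' a : ℕ, ∑' b : ℕ,
      (a.factorial : ℝ≥0∞)⁻¹ * (b.factorial : ℝ≥0∞)⁻¹ * JJ ν₁ ν₂ H a b := by
  unfold GrL
  simp only [lintegral_pw_add ν₁ ν₂ hH hP, Finset.mul_sum]
  rw [← ENNReal.tsum_prod' (f := fun (q : ℕ × ℕ) =>
    (q.1.factorial : ℝ≥0∞)⁻¹ * (q.2.factorial : ℝ≥0∞)⁻¹ * JJ ν₁ ν₂ H q.1 q.2)]
  have hsig := (Finset.HasAntidiagonal.sigmaAntidiagonalEquivProd (A := ℕ)).tsum_eq
    (fun (q : ℕ × ℕ) =>
      (q.1.factorial : ℝ≥0∞)⁻¹ * (q.2.factorial : ℝ≥0∞)⁻¹ * JJ ν₁ ν₂ H q.1 q.2)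
  rw [← hsig, ENNReal.tsum_sigma']
  refine tsum_congr (fun n => ?_)
  rw [tsum_fintype]
  rw [Finset.univ_eq_attach, ← Finset.sum_attach (Finset.HasAntidiagonal.antidiagonal n)]
  refine Finset.sum_congr rfl (fun ij _ => ?_)
  have hij : ij.1.1 + ij.1.2 = n := Finset.HasAntidiagonal.mem_antidiagonal.mp ij.2
  simp only [Finset.HasAntidiagonal.sigmaAntidiagonalEquivProd_apply]
  rw [← mul_assoc]
  congr 1
  rw [Nat.choose_eq_factorial_div_factorial (by omega : ij.1.1 ≤ n)]
  have h2 : n - ij.1.1 = ij.1.2 := by omega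
  rw [h2]
  have h3 : ((n.factorial / (ij.1.1.factorial * ij.1.2.factorial) : ℕ) : ℝ≥0∞) *
      ((ij.1.1.factorial : ℝ≥0∞) * (ij.1.2.factorial : ℝ≥0∞)) = (n.factorial : ℝ≥0∞) := by
    rw [← Nat.cast_mul, ← Nat.cast_mul]
    congr 1
    exact Nat.div_mul_cancel (by
      have := Nat.factorial_mul_factorial_dvd_factorial_add ij.1.1 ij.1.2
      rwa [hij] at this)
  have hA : (ij.1.1.factorial : ℝ≥0∞) ≠ 0 := by exact_mod_cast (Nat.factorial_ne_zero _)
  have hB : (ij.1.2.factorial : ℝ≥0∞) ≠ 0 := by exact_mod_cast (Nat.factorial_ne_zero _)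
  have hN : (n.factorial : ℝ≥0∞) ≠ 0 := by exact_mod_cast (Nat.factorial_ne_zero _)
  have hNt : (n.factorial : ℝ≥0∞) ≠ ⊤ := ENNReal.natCast_ne_top _
  have hAt : (ij.1.1.factorial : ℝ≥0∞) ≠ ⊤ := ENNReal.natCast_ne_top _
  have hBt : (ij.1.2.factorial : ℝ≥0∞) ≠ ⊤ := ENNReal.natCast_ne_top _
  set C : ℝ≥0∞ := ((n.factorial / (ij.1.1.factorial * ij.1.2.factorial) : ℕ) : ℝ≥0∞) with hC
  calc (n.factorial : ℝ≥0∞)⁻¹ * C
      = (C * ((ij.1.1.factorial : ℝ≥0∞) * (ij.1.2.factorial : ℝ≥0∞)))⁻¹ * C := by rw [h3]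
    _ = (ij.1.1.factorial : ℝ≥0∞)⁻¹ * (ij.1.2.factorial : ℝ≥0∞)⁻¹ := by
        have hCne : C ≠ 0 := by
          intro h0
          rw [h0, zero_mul] at h3
          exact hN h3.symm
        have hCt : C ≠ ⊤ := ENNReal.natCast_ne_top _
        rw [ENNReal.mul_inv (Or.inl hCne) (Or.inl hCt),
          ENNReal.mul_inv (Or.inl hA) (Or.inl hAt)]
        calc C⁻¹ * ((ij.1.1.factorial : ℝ≥0∞)⁻¹ * (ij.1.2.factorial : ℝ≥0∞)⁻¹) * C
            = (C⁻¹ * C) * ((ij.1.1.factorial : ℝ≥0∞)⁻¹ * (ij.1.2.factorial : ℝ≥0∞)⁻¹) := by ring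
          _ = _ := by rw [ENNReal.inv_mul_cancel hCne hCt, one_mul]

end Vale.Agent.Lib.P171b
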