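import Mathlib

open Set Filter Topology

namespace Vale.Agent.Lib.P171b

/-- Symmetric second difference. -/
noncomputable def D2 (f : ℝ → ℝ) (t h : ℝ) : ℝ := f (t + h) + f (t - h) - 2 * f t

/-- The sup-convolution of `f` with a parabola (Maxwell construction). -/
noncomputable def TT (c : ℝ) (f : ℝ → ℝ) (t : ℝ) : ℝ := ⨆ y : ℝ, (f (t + y) - y ^ 2 / (2 * c))

/-- The class of functions under consideration. -/
structure CF (f : ℝ → ℝ) (a b : ℝ) : Prop where
  convex : ConvexOn ℝ univ f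
  mono : Monotone f
  nonneg : ∀ x, 0 ≤ f x
  growth : ∀ x, f x ≤ a + b * x ^ 2
  b_nonneg : 0 ≤ b

variable {f : ℝ → ℝ} {a b c : ℝ}

lemma CF.continuous (hf : CF f a b) : Continuous f :=
  hf.convex.locallyLipschitz.continuous

/-- The function to be maximised. -/
noncomputable def psi (c : ℝ) (f : ℝ → ℝ) (t m : ℝ) : ℝ := f m - (m - t) ^ 2 / (2 * c)

lemma CF.psi_le (hf : CF f a b) (hc : 0 < c) (hb : 2 * c * b < 1) (t m : ℝ) :
    psi c f t m ≤ (a + (t / c) ^ 2 / (2 * (1 / (2 * c) - b))) -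
      ((1 / (2 * c) - b) / 2) * m ^ 2 := by
  have he : 0 < 1 / (2 * c) - b := by
    rw [sub_pos, lt_div_iff₀ (by positivity)]
    linarith
  set e := 1 / (2 * c) - b with hedef
  unfold psi
  have h1 := hf.growth m
  have h2 : (m - t) ^ 2 / (2 * c) = (1 / (2 * c)) * (m ^ 2 - 2 * m * t + t ^ 2) := by
    field_simp; ring
  have h3 : (1 / (2 * c)) * t ^ 2 ≥ 0 := by positivity
  have h4 : (t / c) * m ≤ (e / 2) * m ^ 2 + (t / c) ^ 2 / (2 * e) := by
    have : 0 ≤ (e * m - t / c) ^ 2 / (2 * e) := by positivity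
    have h5 : (e * m - t / c) ^ 2 / (2 * e) = (e / 2) * m ^ 2 - (t / c) * m + (t / c) ^ 2 / (2 * e) := by
      field_simp
      ring
    linarith
  have h6 : (1 / (2 * c)) * (2 * m * t) = (t / c) * m := by
    field_simp
  have h7 : (1 / (2 * c)) * m ^ 2 = (e + b) * m ^ 2 := by
    rw [hedef]; ring
  have h8 : (1 / (2 * c)) * (m ^ 2 - 2 * m * t + t ^ 2) =
      (1 / (2 * c)) * m ^ 2 - (1 / (2 * c)) * (2 * m * t) + (1 / (2 * c)) * t ^ 2 := by ring
  rw [h2, h8, h6, h7]
  nlinarith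

lemma CF.psi_bdd (hf : CF f a b) (hc : 0 < c) (hb : 2 * c * b < 1) (t : ℝ) :
    ∃ C, ∀ m, psi c f t m ≤ C := by
  have he : 0 < 1 / (2 * c) - b := by
    rw [sub_pos, lt_div_iff₀ (by positivity)]
    linarith
  refine ⟨a + (t / c) ^ 2 / (2 * (1 / (2 * c) - b)), fun m => ?_⟩
  have := hf.psi_le hc hb t m
  have h2 : 0 ≤ ((1 / (2 * c) - b) / 2) * m ^ 2 := by positivity
  linarith

lemma continuous_psi (hf : CF f a b) (c t : ℝ) : Continuous (psi c f t) := by
  unfold psi
  have := hf.continuous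
  fun_prop

lemma CF.psi_tendsto (hf : CF f a b) (hc : 0 < c) (hb : 2 * c * b < 1) (t : ℝ) :
    Tendsto (psi c f t) (cocompact ℝ) atBot := by
  have he : 0 < 1 / (2 * c) - b := by
    rw [sub_pos, lt_div_iff₀ (by positivity)]
    linarith
  rw [tendsto_atBot]
  intro B
  set C := a + (t / c) ^ 2 / (2 * (1 / (2 * c) - b)) with hC
  set e := (1 / (2 * c) - b) / 2 with hedef
  have he' : 0 < e := by positivity
  have hev := (tendsto_norm_cocompact_atTop (E := ℝ)).eventually_ge_atTop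
    (max 1 ((|C - B|) / e))
  filter_upwards [hev] with m hm
  have h1 := hf.psi_le hc hb t m
  have h2 : 1 ≤ ‖m‖ := le_trans (le_max_left _ _) hm
  have h3 : |C - B| / e ≤ ‖m‖ := le_trans (le_max_right _ _) hm
  rw [div_le_iff₀ he'] at h3
  have h4 : m ^ 2 = ‖m‖ ^ 2 := by simp [Real.norm_eq_abs]
  have h5 : ‖m‖ ≤ m ^ 2 := by rw [h4]; nlinarith
  have h6 := le_abs_self (C - B)
  nlinarith

/-- Existence of maximisers over closed sets. -/
lemma CF.exists_max_on (hf : CF f a b) (hc : 0 < c) (hb : 2 * c * b < 1) (t : ℝ) {K : Set ℝ}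
    (hK : IsClosed K) (hne : K.Nonempty) : ∃ m ∈ K, ∀ m' ∈ K, psi c f t m' ≤ psi c f t m := by
  obtain ⟨x₀, hx₀⟩ := hne
  have hlim := hf.psi_tendsto hc hb t
  have hev : ∀ᶠ x in cocompact ℝ ⊓ 𝓟 K, psi c f t x ≤ psi c f t x₀ :=
    (hlim.eventually_le_atBot _).filter_mono inf_le_left
  obtain ⟨m, hm, hmax⟩ := (continuous_psi hf c t).continuousOn.exists_isMaxOn' hK hx₀ hev
  exact ⟨m, hm, fun m' hm' => hmax hm'⟩

lemma CF.TT_bdd (hf : CF f a b) (hc : 0 < c) (hb : 2 * c * b < 1) (t : ℝ) :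
    BddAbove (range (fun y : ℝ => f (t + y) - y ^ 2 / (2 * c))) := by
  obtain ⟨C, hC⟩ := hf.psi_bdd hc hb t
  refine ⟨C, ?_⟩
  rintro _ ⟨y, rfl⟩
  have := hC (t + y)
  unfold psi at this
  simpa using this

lemma CF.psi_le_TT (hf : CF f a b) (hc : 0 < c) (hb : 2 * c * b < 1) (t m : ℝ) :
    psi c f t m ≤ TT c f t := by
  have := le_ciSup (hf.TT_bdd hc hb t) (m - t)
  simp only [add_sub_cancel] at this
  exact this

lemma CF.TT_eq_of_max (hf : CF f a b) (hc : 0 < c) (hb : 2 * c * b < 1) {t m : ℝ}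
    (hm : ∀ m', psi c f t m' ≤ psi c f t m) : TT c f t = psi c f t m := by
  apply le_antisymm
  · refine ciSup_le (fun y => ?_)
    have := hm (t + y)
    unfold psi at this ⊢
    simpa using this
  · exact hf.psi_le_TT hc hb t m

/-- `TT` dominates `f`. -/
lemma CF.le_TT (hf : CF f a b) (hc : 0 < c) (hb : 2 * c * b < 1) (t : ℝ) : f t ≤ TT c f t := by
  have := hf.psi_le_TT hc hb t t
  unfold psi at this
  simpa using this

/-- Convexity of `TT`. -/
lemma CF.TT_convex (hf : CF f a b) (hc : 0 < c) (hb : 2 * c * b < 1) : ConvexOn ℝ univ (TT c f) := by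
  refine ⟨convex_univ, fun t₁ _ t₂ _ u v hu hv huv => ?_⟩
  simp only [smul_eq_mul]
  refine ciSup_le (fun y => ?_)
  have h1 := le_ciSup (hf.TT_bdd hc hb t₁) y
  have h2 := le_ciSup (hf.TT_bdd hc hb t₂) y
  have h3 := hf.convex.2 (mem_univ (t₁ + y)) (mem_univ (t₂ + y)) hu hv huv
  simp only [smul_eq_mul] at h3
  have h4 : u * t₁ + v * t₂ + y = u * (t₁ + y) + v * (t₂ + y) := by
    have : y = (u + v) * y := by rw [huv, one_mul]
    nth_rewrite 1 [this]
    ring
  change _ - _ ≤ u * TT c f t₁ + v * TT c f t₂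
  rw [h4]
  have h5 : y ^ 2 / (2 * c) = u * (y ^ 2 / (2 * c)) + v * (y ^ 2 / (2 * c)) := by
    rw [← add_mul, huv, one_mul]
  have h6 := mul_le_mul_of_nonneg_left h1 hu
  have h7 := mul_le_mul_of_nonneg_left h2 hv
  unfold TT
  nlinarith

lemma CF.TT_continuous (hf : CF f a b) (hc : 0 < c) (hb : 2 * c * b < 1) : Continuous (TT c f) :=
  (hf.TT_convex hc hb).locallyLipschitz.continuous

/-- From a maximiser: upper parabola. -/
lemma parabola_of_max {t m : ℝ} (hc : 0 < c) (hm : ∀ m', psi c f t m' ≤ psi c f t m) (m' : ℝ) :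
    f m' ≤ f m + (m - t) / c * (m' - m) + (m' - m) ^ 2 / (2 * c) := by
  have := hm m'
  unfold psi at this
  have h2 : (m' - t) ^ 2 / (2 * c) - (m - t) ^ 2 / (2 * c) =
      (m - t) / c * (m' - m) + (m' - m) ^ 2 / (2 * c) := by
    field_simp
    ring
  linarith

/-- From a maximiser: subgradient inequality. -/
lemma CF.subgrad_of_max (hf : CF f a b) {t m : ℝ} (hc : 0 < c)
    (hm : ∀ m', psi c f t m' ≤ psi c f t m) (m' : ℝ) :
    f m + (m - t) / c * (m' - m) ≤ f m' := by
  set p := (m - t) / c with hp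
  set d := m' - m with hd
  by_contra hcon
  push Not at hcon
  set κ := f m + p * d - f m' with hκ
  have hκpos : 0 < κ := by rw [hκ]; linarith
  set lam : ℝ := min 1 (κ * c / (d ^ 2 + 1)) with hlam
  have hdpos : 0 < d ^ 2 + 1 := by positivity
  have hlampos : 0 < lam := lt_min one_pos (by positivity)
  have hlam1 : lam ≤ 1 := min_le_left _ _
  have hlam2 : lam * (d ^ 2 + 1) ≤ κ * c := by
    have := min_le_right 1 (κ * c / (d ^ 2 + 1))
    rwa [← hlam, le_div_iff₀ hdpos] at this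
  -- upper parabola at `m - lam d`
  have h1 := parabola_of_max hc hm (m - lam * d)
  rw [← hp] at h1
  -- midpoint convexity
  have h2 := hf.convex.2 (mem_univ (m - lam * d)) (mem_univ (m + lam * d))
    (by norm_num : (0 : ℝ) ≤ 1 / 2) (by norm_num : (0 : ℝ) ≤ 1 / 2) (by norm_num)
  simp only [smul_eq_mul] at h2
  have h3 : (1 / 2 : ℝ) * (m - lam * d) + 1 / 2 * (m + lam * d) = m := by ring
  rw [h3] at h2
  -- convexity between `m` and `m'`
  have h4 := hf.convex.2 (mem_univ m) (mem_univ m') (by linarith : 0 ≤ 1 - lam) hlampos.le (by ring)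
  simp only [smul_eq_mul] at h4
  have h5 : (1 - lam) * m + lam * m' = m + lam * d := by rw [hd]; ring
  rw [h5] at h4
  have h6 : m - lam * d - m = -(lam * d) := by ring
  rw [h6] at h1
  have h7 : (-(lam * d)) ^ 2 / (2 * c) = lam ^ 2 * d ^ 2 / (2 * c) := by ring
  rw [h7] at h1
  -- combine
  have h8 : lam * κ ≤ lam ^ 2 * d ^ 2 / (2 * c) := by
    have : f m' = f m + p * d - κ := by rw [hκ]; ring
    rw [this] at h4
    nlinarith
  have h9 : lam ^ 2 * d ^ 2 / (2 * c) < lam * κ := by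
    rw [div_lt_iff₀ (by positivity)]
    have h10 : lam * d ^ 2 < κ * c * 2 := by nlinarith
    nlinarith
  linarith

section kink

variable {ν w δ : ℝ}

/-- No maximiser lies between the two slopes. -/
lemma CF.no_max_middle (hf : CF f a b) (hc : 0 < c) (hw : 0 < w) (hδ : δ * w ≤ D2 f ν w)
    (hcδ : 8 * w < c * δ) {t m : ℝ} (hm1 : ν - w ≤ m) (hm2 : m ≤ ν + w)
    (hm : ∀ m', psi c f t m' ≤ psi c f t m) : False := by
  set p₁ := (f ν - f (ν - w)) / w with hp₁
  set p₂ := (f (ν + w) - f ν) / w with hp₂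
  have hgap : δ ≤ p₂ - p₁ := by
    rw [hp₁, hp₂, ← sub_div, le_div_iff₀ hw]
    unfold D2 at hδ
    linarith
  have hconv := hf.convex
  set p := (m - t) / c with hp
  have hδpos : 0 < δ := by
    by_contra hneg
    push Not at hneg
    nlinarith
  have hA : ∀ m', ν + w ≤ m' → f (ν + w) + p₂ * (m' - (ν + w)) ≤ f m' := by
    intro m' hm'
    rcases hm'.eq_or_lt with rfl | hlt
    · simp
    have := hconv.slope_mono_adjacent (mem_univ ν) (mem_univ m') (by linarith : ν < ν + w) hlt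
    have h1 : ν + w - ν = w := by ring
    rw [h1, ← hp₂, le_div_iff₀ (by linarith)] at this
    linarith
  have hB : ∀ m', m' ≤ ν - w → f (ν - w) + p₁ * (m' - (ν - w)) ≤ f m' := by
    intro m' hm'
    rcases hm'.eq_or_lt with rfl | hlt
    · simp
    have := hconv.slope_mono_adjacent (mem_univ m') (mem_univ ν) hlt (by linarith : ν - w < ν)
    have h1 : ν - (ν - w) = w := by ring
    rw [h1, ← hp₁, div_le_iff₀ (by linarith)] at this
    linarith
  have hsub := hf.subgrad_of_max hc hm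
  have hpar := parabola_of_max hc hm
  rw [← hp] at hsub hpar
  have hcne : (2 * c) ≠ 0 := by positivity
  rcases le_total p ((p₁ + p₂) / 2) with hcase | hcase
  · -- right side
    have h1 := hA (ν + w + 2 * w) (by linarith)
    have h2 := hsub (ν + w)
    have h3 := hpar (ν + w + 2 * w)
    have h4 : (ν + w + 2 * w - m) ^ 2 ≤ (4 * w) ^ 2 := by
      apply pow_le_pow_left₀ <;> linarith
    have h5 : (ν + w + 2 * w - m) ^ 2 / (2 * c) ≤ (4 * w) ^ 2 / (2 * c) :=
      div_le_div_of_nonneg_right h4 (by positivity)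
    have h6 : (p₂ - p) * (2 * w) ≤ (4 * w) ^ 2 / (2 * c) := by
      have e1 : ν + w + 2 * w - (ν + w) = 2 * w := by ring
      rw [e1] at h1
      nlinarith
    have h7 : (δ / 2) * (2 * w) ≤ (p₂ - p) * (2 * w) := by
      apply mul_le_mul_of_nonneg_right _ (by linarith)
      linarith
    have h8 : (4 * w) ^ 2 / (2 * c) = 8 * w * w / c := by
      field_simp
      ring
    rw [h8] at h6
    have h9 : δ * w ≤ 8 * w * w / c := by linarith
    rw [le_div_iff₀ hc] at h9
    nlinarith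
  · -- left side
    have h1 := hB (ν - w - 2 * w) (by linarith)
    have h2 := hsub (ν - w)
    have h3 := hpar (ν - w - 2 * w)
    have h4 : (ν - w - 2 * w - m) ^ 2 ≤ (4 * w) ^ 2 := by
      have : (ν - w - 2 * w - m) ^ 2 = (m - (ν - w - 2 * w)) ^ 2 := by ring
      rw [this]
      apply pow_le_pow_left₀ <;> linarith
    have h5 : (ν - w - 2 * w - m) ^ 2 / (2 * c) ≤ (4 * w) ^ 2 / (2 * c) :=
      div_le_div_of_nonneg_right h4 (by positivity)
    have h6 : (p - p₁) * (2 * w) ≤ (4 * w) ^ 2 / (2 * c) := by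
      have e1 : ν - w - 2 * w - (ν - w) = -(2 * w) := by ring
      rw [e1] at h1
      nlinarith
    have h7 : (δ / 2) * (2 * w) ≤ (p - p₁) * (2 * w) := by
      apply mul_le_mul_of_nonneg_right _ (by linarith)
      linarith
    have h8 : (4 * w) ^ 2 / (2 * c) = 8 * w * w / c := by
      field_simp
      ring
    rw [h8] at h6
    have h9 : δ * w ≤ 8 * w * w / c := by linarith
    rw [le_div_iff₀ hc] at h9
    nlinarith

end kink

/-- Monotonicity of second difference quotients of a convex function. -/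
lemma D2_mono_of_convex {g : ℝ → ℝ} (hg : ConvexOn ℝ univ g) (t : ℝ) {h' h : ℝ} (h0 : 0 < h')
    (hh : h' ≤ h) : D2 g t h' / h' ≤ D2 g t h / h := by
  have hpos : 0 < h := lt_of_lt_of_le h0 hh
  have key : ∀ s : ℝ, s = 1 ∨ s = -1 → g (t + s * h') - g t ≤ h' / h * (g (t + s * h) - g t) := by
    intro s _
    have h1 := hg.2 (mem_univ t) (mem_univ (t + s * h)) (by
      rw [sub_nonneg, div_le_one hpos]; exact hh : 0 ≤ 1 - h' / h)
      (by positivity : 0 ≤ h' / h) (by ring)
    simp only [smul_eq_mul] at h1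
    have h2 : (1 - h' / h) * t + h' / h * (t + s * h) = t + s * h' := by
      field_simp
      ring
    rw [h2] at h1
    linarith
  have k1 := key 1 (Or.inl rfl)
  have k2 := key (-1) (Or.inr rfl)
  simp only [one_mul, neg_mul, ← sub_eq_add_neg] at k1 k2
  unfold D2
  rw [div_le_div_iff₀ h0 hpos]
  have h3 : h' / h * h = h' := by field_simp
  have k3 : (g (t + h') - g t) * h ≤ h' * (g (t + h) - g t) := by
    have := mul_le_mul_of_nonneg_right k1 hpos.le
    calc _ ≤ h' / h * (g (t + h) - g t) * h := this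
      _ = _ := by field_simp
  have k4 : (g (t - h') - g t) * h ≤ h' * (g (t - h) - g t) := by
    have := mul_le_mul_of_nonneg_right k2 hpos.le
    calc _ ≤ h' / h * (g (t - h) - g t) * h := this
      _ = _ := by field_simp
  nlinarith

/-- One-sided suprema. -/
noncomputable def PsiS (c : ℝ) (f : ℝ → ℝ) (S : Set ℝ) (t : ℝ) : ℝ :=
  ⨆ m : S, (f m.1 - m.1 ^ 2 / (2 * c) + m.1 * t / c)

lemma psi_ident (hc : 0 < c) (t m : ℝ) :
    f m - m ^ 2 / (2 * c) + m * t / c = psi c f t m + t ^ 2 / (2 * c) := by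
  unfold psi
  field_simp
  ring

lemma CF.PsiS_bdd (hf : CF f a b) (hc : 0 < c) (hb : 2 * c * b < 1) (S : Set ℝ) (t : ℝ) :
    BddAbove (range (fun m : S => f m.1 - m.1 ^ 2 / (2 * c) + m.1 * t / c)) := by
  obtain ⟨C, hC⟩ := hf.psi_bdd hc hb t
  refine ⟨C + t ^ 2 / (2 * c), ?_⟩
  rintro _ ⟨m, rfl⟩
  have e := psi_ident (f := f) hc t m.1
  show f m.1 - m.1 ^ 2 / (2 * c) + m.1 * t / c ≤ _
  rw [e]
  linarith [hC m.1]

lemma CF.PsiS_convex (hf : CF f a b) (hc : 0 < c) (hb : 2 * c * b < 1) {S : Set ℝ}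
    (hS : S.Nonempty) : ConvexOn ℝ univ (PsiS c f S) := by
  have : Nonempty S := hS.to_subtype
  refine ⟨convex_univ, fun t₁ _ t₂ _ u v hu hv huv => ?_⟩
  simp only [smul_eq_mul]
  refine ciSup_le (fun m => ?_)
  have h1 := le_ciSup (hf.PsiS_bdd hc hb S t₁) m
  have h2 := le_ciSup (hf.PsiS_bdd hc hb S t₂) m
  have h6 := mul_le_mul_of_nonneg_left h1 hu
  have h7 := mul_le_mul_of_nonneg_left h2 hv
  have e : f m.1 - m.1 ^ 2 / (2 * c) + m.1 * (u * t₁ + v * t₂) / c =
      u * (f m.1 - m.1 ^ 2 / (2 * c) + m.1 * t₁ / c) +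
        v * (f m.1 - m.1 ^ 2 / (2 * c) + m.1 * t₂ / c) := by
    have hv' : v = 1 - u := by linarith
    subst hv'
    field_simp
    ring
  rw [e]
  exact add_le_add h6 h7

lemma CF.PsiS_continuous (hf : CF f a b) (hc : 0 < c) (hb : 2 * c * b < 1) {S : Set ℝ}
    (hS : S.Nonempty) : Continuous (PsiS c f S) :=
  (hf.PsiS_convex hc hb hS).locallyLipschitz.continuous

lemma CF.PsiS_max (hf : CF f a b) (hc : 0 < c) (hb : 2 * c * b < 1) {S : Set ℝ}
    (hcl : IsClosed S) (hS : S.Nonempty) (t : ℝ) :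
    ∃ m ∈ S, (∀ m' ∈ S, psi c f t m' ≤ psi c f t m) ∧
      PsiS c f S t = psi c f t m + t ^ 2 / (2 * c) := by
  have : Nonempty S := hS.to_subtype
  obtain ⟨m, hm, hmax⟩ := hf.exists_max_on hc hb t hcl hS
  refine ⟨m, hm, hmax, ?_⟩
  apply le_antisymm
  · refine ciSup_le (fun m' => ?_)
    rw [psi_ident hc]
    linarith [hmax m'.1 m'.2]
  · have h1 := le_ciSup (hf.PsiS_bdd hc hb S t) ⟨m, hm⟩
    have e := psi_ident (f := f) hc t m
    show _ ≤ ⨆ m : S, (f m.1 - m.1 ^ 2 / (2 * c) + m.1 * t / c)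
    rw [← e]
    exact h1

/-- For very negative `t`, the points to the right of `x₂` are no good. -/
lemma CF.exists_far (hf : CF f a b) (hc : 0 < c) (hb : 2 * c * b < 1) {x₁ x₂ : ℝ} (h12 : x₁ ≤ x₂) :
    ∃ T, T ≤ x₁ ∧ ∀ m, x₂ ≤ m → psi c f T m ≤ 0 := by
  have he : 0 < 1 / (2 * c) - b := by
    rw [sub_pos, lt_div_iff₀ (by positivity)]
    linarith
  set e := 1 / (2 * c) - b with hedef
  set C₃ := (x₂ / c) ^ 2 / (4 * e) with hC₃
  have hC₃nn : 0 ≤ C₃ := by positivity
  set s := 1 + (x₂ - x₁) + 2 * c * (|a| + C₃) with hs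
  have hs1 : 1 ≤ s := by
    have : 0 ≤ 2 * c * (|a| + C₃) := by positivity
    rw [hs]
    linarith
  refine ⟨x₂ - s, ?_, fun m hm => ?_⟩
  · have : 0 ≤ 2 * c * (|a| + C₃) := by positivity
    rw [hs]
    linarith
  · unfold psi
    have h1 := hf.growth m
    have h2 : s ^ 2 ≥ s := by nlinarith
    have h3 : (m - (x₂ - s)) ^ 2 = (m - x₂) ^ 2 + 2 * (m - x₂) * s + s ^ 2 := by ring
    have h4 : 0 ≤ 2 * (m - x₂) * s := by
      have : 0 ≤ m - x₂ := by linarith
      positivity
    have h5 : (m - (x₂ - s)) ^ 2 / (2 * c) ≥ (m - x₂) ^ 2 / (2 * c) + s ^ 2 / (2 * c) := by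
      rw [← add_div]
      apply div_le_div_of_nonneg_right _ (by positivity)
      rw [h3]
      linarith
    have h6 : s ^ 2 / (2 * c) ≥ |a| + C₃ := by
      rw [ge_iff_le, le_div_iff₀ (by positivity)]
      have : s ≥ (|a| + C₃) * (2 * c) := by
        rw [hs]
        have : 0 ≤ x₂ - x₁ := by linarith
        nlinarith
      linarith
    have h7 : b * m ^ 2 - (m - x₂) ^ 2 / (2 * c) ≤ C₃ := by
      have h8 : (m - x₂) ^ 2 / (2 * c) = (1 / (2 * c)) * m ^ 2 - (x₂ / c) * m +
          x₂ ^ 2 / (2 * c) := by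
        field_simp
        ring
      have h9 : 0 ≤ x₂ ^ 2 / (2 * c) := by positivity
      have h10 : (1 / (2 * c)) = e + b := by rw [hedef]; ring
      have h11 : 0 ≤ (e * m - (x₂ / c) / 2) ^ 2 / e := by positivity
      have h12 : (e * m - (x₂ / c) / 2) ^ 2 / e = e * m ^ 2 - (x₂ / c) * m + C₃ := by
        rw [hC₃]
        field_simp
        ring
      rw [h8, h10]
      nlinarith
    have h13 := le_abs_self a
    linarith

/-- If the two sides achieve the maximum at the same `t`, there is a kink. -/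
lemma CF.kink_of_two_max (hf : CF f a b) (hc : 0 < c) (hb : 2 * c * b < 1) {ν w δ t mL mR : ℝ}
    (hw : 0 < w) (hδ : δ * w ≤ D2 f ν w) (hmL : mL ≤ ν - w) (hmR : ν + w ≤ mR)
    (hgL : ∀ m', psi c f t m' ≤ psi c f t mL) (hgR : ∀ m', psi c f t m' ≤ psi c f t mR)
    (h : ℝ) (hh : 0 < h) : δ * h ≤ D2 (TT c f) t h := by
  have hTTt : TT c f t = psi c f t mL := hf.TT_eq_of_max hc hb hgL
  have hTTt' : TT c f t = psi c f t mR := hf.TT_eq_of_max hc hb hgR
  set sL := (mL - t) / c with hsL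
  set sR := (mR - t) / c with hsR
  set p₁ := (f ν - f (ν - w)) / w with hp₁
  set p₂ := (f (ν + w) - f ν) / w with hp₂
  have hgap : δ ≤ p₂ - p₁ := by
    rw [hp₁, hp₂, ← sub_div, le_div_iff₀ hw]
    unfold D2 at hδ
    linarith
  have hconv := hf.convex
  have hsRge : p₂ ≤ sR := by
    have h1 := hf.subgrad_of_max hc hgR ν
    rw [← hsR] at h1
    have h2 : f (ν + w) + p₂ * (mR - (ν + w)) ≤ f mR := by
      rcases hmR.eq_or_lt with rfl | hlt
      · simp
      have := hconv.slope_mono_adjacent (mem_univ ν) (mem_univ mR) (by linarith : ν < ν + w) hlt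
      have h3 : ν + w - ν = w := by ring
      rw [h3, ← hp₂, le_div_iff₀ (by linarith)] at this
      linarith
    have h3 : f (ν + w) = f ν + p₂ * w := by
      rw [hp₂]; field_simp; ring
    have h4 : 0 < mR - ν := by linarith
    by_contra hcon
    push Not at hcon
    nlinarith
  have hsLle : sL ≤ p₁ := by
    have h1 := hf.subgrad_of_max hc hgL ν
    rw [← hsL] at h1
    have h2 : f (ν - w) + p₁ * (mL - (ν - w)) ≤ f mL := by
      rcases hmL.eq_or_lt with rfl | hlt
      · simp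
      have := hconv.slope_mono_adjacent (mem_univ mL) (mem_univ ν) hlt (by linarith : ν - w < ν)
      have h3 : ν - (ν - w) = w := by ring
      rw [h3, ← hp₁, div_le_iff₀ (by linarith)] at this
      linarith
    have h3 : f (ν - w) = f ν - p₁ * w := by
      rw [hp₁]; field_simp; ring
    have h4 : 0 < ν - mL := by linarith
    by_contra hcon
    push Not at hcon
    nlinarith
  -- second difference at small scale
  have hsmall : ∀ h, 0 < h → δ * h - h ^ 2 / c ≤ D2 (TT c f) t h := by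
    intro h hh
    have h1 := hf.psi_le_TT hc hb (t + h) mR
    have h2 := hf.psi_le_TT hc hb (t - h) mL
    have e1 : psi c f (t + h) mR = psi c f t mR + h * sR - h ^ 2 / (2 * c) := by
      unfold psi
      rw [hsR]
      field_simp
      ring
    have e2 : psi c f (t - h) mL = psi c f t mL - h * sL - h ^ 2 / (2 * c) := by
      unfold psi
      rw [hsL]
      field_simp
      ring
    have e3 : h ^ 2 / c = 2 * (h ^ 2 / (2 * c)) := by field_simp
    have h3 : δ * h ≤ h * sR - h * sL := by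
      have : δ ≤ sR - sL := by linarith
      have := mul_le_mul_of_nonneg_right this hh.le
      linarith
    unfold D2
    rw [e3]
    have e4 : TT c f t + TT c f t = psi c f t mR + psi c f t mL := by
      rw [← hTTt, ← hTTt']
    linarith
  -- pass to all scales
  have hconvT := hf.TT_convex hc hb
  have hle : ∀ h', 0 < h' → h' ≤ h → δ - h' / c ≤ D2 (TT c f) t h / h := by
    intro h' hh' hle
    have h1 := D2_mono_of_convex hconvT t hh' hle
    have h2 := hsmall h' hh'
    have h3 : δ - h' / c ≤ D2 (TT c f) t h' / h' := by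
      rw [le_div_iff₀ hh']
      have : (δ - h' / c) * h' = δ * h' - h' ^ 2 / c := by
        field_simp
      rw [this]
      exact h2
    linarith
  have hfinal : δ ≤ D2 (TT c f) t h / h := by
    by_contra hcon
    push Not at hcon
    set gap := δ - D2 (TT c f) t h / h with hgapdef
    have hgappos : 0 < gap := by rw [hgapdef]; linarith
    set h' := min h (gap * c / 2) with hh'
    have hh'pos : 0 < h' := lt_min hh (by positivity)
    have h1 := hle h' hh'pos (min_le_left _ _)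
    have h2 : h' / c ≤ gap / 2 := by
      rw [div_le_iff₀ hc]
      have := min_le_right h (gap * c / 2)
      rw [← hh'] at this
      linarith
    linarith
  rwa [le_div_iff₀ hh] at hfinal

/-- Creation of a kink by the Maxwell construction. -/
theorem CF.kink (hf : CF f a b) (hc : 0 < c) (hb : 2 * c * b < 1) {ν w δ : ℝ} (hw : 0 < w)
    (hδ : δ * w ≤ D2 f ν w) (hcδ : 8 * w < c * δ) :
    ∃ t, t ≤ ν - w ∧ ∀ h, 0 < h → δ * h ≤ D2 (TT c f) t h := by
  -- Global maximisers are to the left of `ν - w` or to the right of `ν + w`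
  have hglob : ∀ t, ∃ m, (m < ν - w ∨ ν + w < m) ∧ ∀ m', psi c f t m' ≤ psi c f t m := by
    intro t
    obtain ⟨m, _, hm⟩ := hf.exists_max_on hc hb t isClosed_univ ⟨0, mem_univ _⟩
    have hm' : ∀ m', psi c f t m' ≤ psi c f t m := fun m' => hm m' (mem_univ _)
    refine ⟨m, ?_, hm'⟩
    by_contra hcon
    push Not at hcon
    exact hf.no_max_middle hc hw hδ hcδ hcon.1 hcon.2 hm'
  have hneL : (Iic (ν - w)).Nonempty := ⟨ν - w, mem_Iic.mpr le_rfl⟩
  have hneR : (Ici (ν + w)).Nonempty := ⟨ν + w, mem_Ici.mpr le_rfl⟩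
  have hcontL := hf.PsiS_continuous hc hb hneL
  have hcontR := hf.PsiS_continuous hc hb hneR
  have hmaxL := hf.PsiS_max hc hb (isClosed_Iic (a := ν - w)) hneL
  have hmaxR := hf.PsiS_max hc hb (isClosed_Ici (a := ν + w)) hneR
  -- At `t = ν - w` the right supremum dominates
  have hend1 : PsiS c f (Iic (ν - w)) (ν - w) ≤ PsiS c f (Ici (ν + w)) (ν - w) := by
    obtain ⟨mL, hmL, hmaxL', hL⟩ := hmaxL (ν - w)
    obtain ⟨mR, hmR, hmaxR', hR⟩ := hmaxR (ν - w)
    obtain ⟨m, hm, hmg⟩ := hglob (ν - w)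
    rw [hL, hR]
    rcases hm with hm | hm
    · exfalso
      have h1 : psi c f (ν - w) m ≤ psi c f (ν - w) (ν - w) := by
        unfold psi
        have h2 := hf.mono hm.le
        have h3 : 0 ≤ (m - (ν - w)) ^ 2 / (2 * c) := by positivity
        have h4 : (ν - w - (ν - w)) ^ 2 / (2 * c) = 0 := by simp
        rw [h4]
        linarith
      refine hf.no_max_middle (t := ν - w) (m := ν - w) hc hw hδ hcδ le_rfl (by linarith) ?_
      intro m'
      exact (hmg m').trans h1
    · have h1 := hmg mL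
      have h2 := hmaxR' m (mem_Ici.mpr hm.le)
      linarith
  -- For very negative `t`, the left supremum dominates
  obtain ⟨T, hT, hfar⟩ := hf.exists_far hc hb (by linarith : ν - w ≤ ν + w)
  have hend2 : PsiS c f (Ici (ν + w)) T ≤ PsiS c f (Iic (ν - w)) T := by
    obtain ⟨mL, hmL, hmaxL', hL⟩ := hmaxL T
    obtain ⟨mR, hmR, hmaxR', hR⟩ := hmaxR T
    rw [hL, hR]
    have h1 := hfar mR hmR
    have h2 := hmaxL' T hT
    have h3 : 0 ≤ psi c f T T := by
      unfold psi
      have := hf.nonneg T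
      simpa using this
    linarith
  -- Intermediate value theorem
  have hG : ContinuousOn (fun t => PsiS c f (Iic (ν - w)) t - PsiS c f (Ici (ν + w)) t)
      (Icc T (ν - w)) := (hcontL.sub hcontR).continuousOn
  have hivt := intermediate_value_Icc' hT hG
  have h0mem : (0 : ℝ) ∈ Icc (PsiS c f (Iic (ν - w)) (ν - w) - PsiS c f (Ici (ν + w)) (ν - w))
      (PsiS c f (Iic (ν - w)) T - PsiS c f (Ici (ν + w)) T) := by
    constructor <;> linarith
  obtain ⟨t, htmem, hteq⟩ := hivt h0mem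
  refine ⟨t, htmem.2, ?_⟩
  obtain ⟨mL, hmL, hmaxL', hL⟩ := hmaxL t
  obtain ⟨mR, hmR, hmaxR', hR⟩ := hmaxR t
  have heq : psi c f t mL = psi c f t mR := by
    have hteq' : PsiS c f (Iic (ν - w)) t - PsiS c f (Ici (ν + w)) t = 0 := hteq
    rw [hL, hR] at hteq'
    linarith
  have hgL : ∀ m', psi c f t m' ≤ psi c f t mL := by
    obtain ⟨m, hm, hmg⟩ := hglob t
    intro m'
    refine (hmg m').trans ?_
    rcases hm with hm | hm
    · exact hmaxL' m (mem_Iic.mpr hm.le)
    · rw [heq]; exact hmaxR' m (mem_Ici.mpr hm.le)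
  have hgR : ∀ m', psi c f t m' ≤ psi c f t mR := fun m' => by rw [← heq]; exact hgL m'
  exact fun h hh => hf.kink_of_two_max hc hb hw hδ hmL hmR hgL hgR h hh

end Vale.Agent.Lib.P171b
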