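import Vale.Agent.Lib.P171b.Defs
import Vale.Agent.Lib.P171b.Binom

open MeasureTheory Set Filter Topology
open scoped ENNReal

namespace Vale.Agent.Lib.P171b

/-- Kernel form of the pair energy of a tuple. -/
noncomputable def pairE (f : E3 → E3 → ℝ) {n : ℕ} (x : Fin n → E3) : ℝ :=
  ∑ i, ∑ j ∈ Finset.Ioi i, f (x i) (x j)

/-- Pair energy of a list. -/
noncomputable def pairL (f : E3 → E3 → ℝ) : List E3 → ℝ
  | [] => 0
  | p :: l => (l.map (f p)).sum + pairL f l

lemma pairE_eq_filter (f : E3 → E3 → ℝ) {n : ℕ} (x : Fin n → E3) :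
    pairE f x = ∑ i, ∑ j, if i < j then f (x i) (x j) else 0 := by
  unfold pairE
  refine Finset.sum_congr rfl (fun i _ => ?_)
  rw [← Finset.sum_filter]
  refine Finset.sum_congr ?_ (fun _ _ => rfl)
  ext j
  simp

lemma pairL_ofFn (f : E3 → E3 → ℝ) {n : ℕ} (x : Fin n → E3) :
    pairL f (List.ofFn x) = pairE f x := by
  induction n with
  | zero => simp [pairL, pairE]
  | succ n ih =>
    rw [List.ofFn_succ, pairL, ih, pairE_eq_filter, pairE_eq_filter, Fin.sum_univ_succ]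
    congr 1
    · rw [Fin.sum_univ_succ]
      simp [List.map_ofFn, List.sum_ofFn, Fin.succ_pos]
    · refine Finset.sum_congr rfl (fun i _ => ?_)
      rw [Fin.sum_univ_succ]
      simp [Fin.succ_lt_succ_iff]

lemma pairL_perm {f : E3 → E3 → ℝ} (hf : ∀ p q, f p q = f q p) {l l' : List E3}
    (h : List.Perm l l') : pairL f l = pairL f l' := by
  induction h with
  | nil => rfl
  | cons x h ih => simp only [pairL]; rw [ih, (h.map (f x)).sum_eq]
  | swap x y l =>
    simp only [pairL, List.map_cons, List.sum_cons]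
    rw [hf x y]; ring
  | trans _ _ ih1 ih2 => exact ih1.trans ih2

/-- Cross energy of two lists. -/
noncomputable def crossL (f : E3 → E3 → ℝ) (l₁ l₂ : List E3) : ℝ :=
  (l₁.map (fun p => (l₂.map (f p)).sum)).sum

lemma pairL_append (f : E3 → E3 → ℝ) (l₁ l₂ : List E3) :
    pairL f (l₁ ++ l₂) = pairL f l₁ + pairL f l₂ + crossL f l₁ l₂ := by
  induction l₁ with
  | nil => simp [pairL, crossL]
  | cons p l ih =>
    simp only [List.cons_append, pairL, ih, crossL, List.map_cons, List.sum_cons, List.map_append,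
      List.sum_append]
    ring

lemma crossL_eq_zero {f : E3 → E3 → ℝ} {l₁ l₂ : List E3}
    (h : ∀ p ∈ l₁, ∀ q ∈ l₂, f p q = 0) : crossL f l₁ l₂ = 0 := by
  unfold crossL
  apply List.sum_eq_zero
  intro a ha
  rcases List.mem_map.mp ha with ⟨p, hp, rfl⟩
  apply List.sum_eq_zero
  intro b hb
  rcases List.mem_map.mp hb with ⟨q, hq, rfl⟩
  exact h p hp q hq

/-- The Boltzmann weight of a list at chemical potential `μ`. -/
noncomputable def HB (μ : ℝ) (f : E3 → E3 → ℝ) (l : List E3) : ℝ≥0∞ :=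
  ENNReal.ofReal (Real.exp (μ * l.length - pairL f l))

/-- A kernel which is jointly measurable. -/
def KMeas (f : E3 → E3 → ℝ) : Prop := Measurable (fun q : E3 × E3 => f q.1 q.2)

lemma measurable_pairE {f : E3 → E3 → ℝ} (hf : KMeas f) (n : ℕ) :
    Measurable (fun x : Fin n → E3 => pairE f x) := by
  unfold pairE
  refine Finset.measurable_sum _ (fun i _ => Finset.measurable_sum _ (fun j _ => ?_))
  have h2 : Measurable (fun a : Fin n → E3 => (a i, a j)) := by fun_prop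
  exact Measurable.comp hf h2

lemma HB_ofFn (μ : ℝ) (f : E3 → E3 → ℝ) {n : ℕ} (x : Fin n → E3) :
    HB μ f (List.ofFn x) = ENNReal.ofReal (Real.exp (μ * n - pairE f x)) := by
  simp [HB, pairL_ofFn]

lemma LMeas_HB {f : E3 → E3 → ℝ} (hf : KMeas f) (μ : ℝ) : LMeas (HB μ f) := by
  intro n
  simp only [HB_ofFn]
  exact ENNReal.measurable_ofReal.comp
    (Real.measurable_exp.comp (measurable_const.sub (measurable_pairE hf n)))

lemma LPerm_HB {f : E3 → E3 → ℝ} (hf : ∀ p q, f p q = f q p) (μ : ℝ) : LPerm (HB μ f) := by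
  intro l l' h
  simp only [HB, pairL_perm hf h, h.length_eq]

/-- The grand partition function of a region with kernel `f`. -/
noncomputable def ZZ (S : Set E3) (μ : ℝ) (f : E3 → E3 → ℝ) : ℝ≥0∞ :=
  GrL (volume.restrict S) (HB μ f)

lemma ae_mem_pw {S : Set E3} (hS : MeasurableSet S) (n : ℕ) :
    ∀ᵐ x ∂(pw (volume.restrict S) n), ∀ i, x i ∈ S := by
  rw [ae_all_iff]
  intro i
  have h0 : (volume.restrict S) Sᶜ = 0 := by
    rw [Measure.restrict_apply hS.compl]; simp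
  have h1 : Measure.pi (fun _ : Fin n => volume.restrict S) (Function.eval i ⁻¹' Sᶜ) = 0 :=
    Measure.pi_eval_preimage_null _ h0
  rw [ae_iff]
  have h2 : {a : Fin n → E3 | ¬ a i ∈ S} = Function.eval i ⁻¹' Sᶜ := by
    ext a; simp
  rw [h2]; exact h1

lemma HB_append {μ : ℝ} {f : E3 → E3 → ℝ} {l₁ l₂ : List E3}
    (h : ∀ p ∈ l₁, ∀ q ∈ l₂, f p q = 0) :
    HB μ f (l₁ ++ l₂) = HB μ f l₁ * HB μ f l₂ := by
  unfold HB
  rw [← ENNReal.ofReal_mul (Real.exp_pos _).le, ← Real.exp_add]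
  congr 2
  rw [pairL_append, crossL_eq_zero h]
  simp only [List.length_append]
  push_cast
  ring

/-- Decoupling of a grand partition function over two regions. -/
theorem ZZ_union {S₁ S₂ : Set E3} (h₁ : MeasurableSet S₁) (h₂ : MeasurableSet S₂)
    (hd : Disjoint S₁ S₂) {f : E3 → E3 → ℝ} (hf : KMeas f) (hs : ∀ p q, f p q = f q p) (μ : ℝ)
    (hz : ∀ p ∈ S₁, ∀ q ∈ S₂, f p q = 0) :
    ZZ (S₁ ∪ S₂) μ f = ZZ S₁ μ f * ZZ S₂ μ f := by
  unfold ZZ
  rw [Measure.restrict_union hd h₂, GrL_add _ _ (LMeas_HB hf μ) (LPerm_HB hs μ)]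
  have hJ : ∀ a b, JJ (volume.restrict S₁) (volume.restrict S₂) (HB μ f) a b =
      (∫⁻ x, HB μ f (List.ofFn x) ∂(pw (volume.restrict S₁) a)) *
        ∫⁻ y, HB μ f (List.ofFn y) ∂(pw (volume.restrict S₂) b) := by
    intro a b
    unfold JJ
    rw [← lintegral_mul_const _ (LMeas_HB hf μ a)]
    refine lintegral_congr_ae ?_
    filter_upwards [ae_mem_pw h₁ a] with x hx
    rw [← lintegral_const_mul _ (LMeas_HB hf μ b)]
    refine lintegral_congr_ae ?_
    filter_upwards [ae_mem_pw h₂ b] with y hy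
    refine HB_append ?_
    intro p hp q hq
    rcases List.mem_ofFn.mp hp with ⟨i, rfl⟩
    rcases List.mem_ofFn.mp hq with ⟨j, rfl⟩
    exact hz _ (hx i) _ (hy j)
  simp only [hJ]
  unfold GrL
  rw [← ENNReal.tsum_mul_right]
  refine tsum_congr (fun a => ?_)
  rw [← ENNReal.tsum_mul_left]
  refine tsum_congr (fun b => ?_)
  ring


lemma HB_nil (μ : ℝ) (f : E3 → E3 → ℝ) : HB μ f [] = 1 := by
  simp [HB, pairL]

/-- The grand partition function of the empty region. -/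
lemma ZZ_empty (μ : ℝ) (f : E3 → E3 → ℝ) (hf : KMeas f) : ZZ ∅ μ f = 1 := by
  unfold ZZ GrL
  rw [tsum_eq_single 0]
  · simp [pw, lintegral_unique, HB_nil]
  · intro n hn
    obtain ⟨m, rfl⟩ := Nat.exists_eq_succ_of_ne_zero hn
    rw [Nat.succ_eq_add_one, lintegral_pw_succ _ (LMeas_HB hf μ) m]
    simp

lemma ZZ_congr {S : Set E3} (hS : MeasurableSet S) {f g : E3 → E3 → ℝ}
    (h : ∀ p ∈ S, ∀ q ∈ S, f p q = g p q) (μ : ℝ) : ZZ S μ f = ZZ S μ g := by
  unfold ZZ GrL
  refine tsum_congr (fun n => ?_)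
  congr 1
  refine lintegral_congr_ae ?_
  filter_upwards [ae_mem_pw hS n] with x hx
  rw [HB_ofFn, HB_ofFn]
  congr 3
  unfold pairE
  exact Finset.sum_congr rfl (fun i _ => Finset.sum_congr rfl (fun j _ => h _ (hx i) _ (hx j)))

/-- Kernel restricted to pairs in one cell. -/
noncomputable def cellK {ι : Type*} [DecidableEq ι] (cell : E3 → ι) (f : E3 → E3 → ℝ) :
    E3 → E3 → ℝ :=
  fun p q => if cell p = cell q then f p q else 0

lemma cellK_symm {ι : Type*} [DecidableEq ι] (cell : E3 → ι) {f : E3 → E3 → ℝ}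
    (hs : ∀ p q, f p q = f q p) (p q : E3) : cellK cell f p q = cellK cell f q p := by
  unfold cellK
  by_cases h : cell p = cell q
  · simp [h, hs p q]
  · simp [h, Ne.symm h]

/-- Decoupling over the cells of a partition. -/
theorem ZZ_cells {ι : Type*} [DecidableEq ι] (cell : E3 → ι)
    (hc : ∀ α, MeasurableSet (cell ⁻¹' {α})) {S : Set E3} (hS : MeasurableSet S)
    {f : E3 → E3 → ℝ} (hf : KMeas (cellK cell f)) (hs : ∀ p q, f p q = f q p) (μ : ℝ)
    (F : Finset ι) :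
    ZZ (S ∩ cell ⁻¹' (F : Set ι)) μ (cellK cell f) =
      ∏ α ∈ F, ZZ (S ∩ cell ⁻¹' {α}) μ f := by
  classical
  induction F using Finset.induction_on with
  | empty => simpa using ZZ_empty μ _ hf
  | insert α F hα ih =>
    rw [Finset.prod_insert hα, ← ih]
    have hcF : MeasurableSet (cell ⁻¹' (F : Set ι)) := by
      have : cell ⁻¹' (F : Set ι) = ⋃ β ∈ F, cell ⁻¹' {β} := by
        ext p; simp
      rw [this]
      exact Finset.measurableSet_biUnion _ (fun β _ => hc β)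
    have hset : S ∩ cell ⁻¹' ((insert α F : Finset ι) : Set ι) =
        (S ∩ cell ⁻¹' {α}) ∪ (S ∩ cell ⁻¹' (F : Set ι)) := by
      ext p
      simp only [Finset.coe_insert, mem_inter_iff, mem_preimage, mem_insert_iff, mem_singleton_iff,
        mem_union, Finset.mem_coe]
      tauto
    rw [hset]
    have hd : Disjoint (S ∩ cell ⁻¹' {α}) (S ∩ cell ⁻¹' (F : Set ι)) := by
      rw [Set.disjoint_left]
      rintro p ⟨_, hp⟩ ⟨_, hq⟩
      simp only [mem_preimage, mem_singleton_iff, Finset.mem_coe] at hp hq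
      exact hα (hp ▸ hq)
    rw [ZZ_union (hS.inter (hc α)) (hS.inter hcF) hd hf (cellK_symm cell hs) μ]
    · congr 1
      refine ZZ_congr (hS.inter (hc α)) ?_ μ
      rintro p ⟨_, hp⟩ q ⟨_, hq⟩
      simp only [mem_preimage, mem_singleton_iff] at hp hq
      simp [cellK, hp, hq]
    · rintro p ⟨_, hp⟩ q ⟨_, hq⟩
      simp only [mem_preimage, mem_singleton_iff, Finset.mem_coe] at hp hq
      have : cell p ≠ cell q := by
        rw [hp]
        intro h
        exact hα (h ▸ hq)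
      simp [cellK, this]

lemma lintegral_pw_restrict (S : Set E3) (n : ℕ) (G : (Fin n → E3) → ℝ≥0∞) :
    ∫⁻ x, G x ∂(pw (volume.restrict S) n) = ∫⁻ x in Set.pi Set.univ (fun _ : Fin n => S), G x := by
  rw [pw, ← Measure.restrict_pi_pi]
  rfl

/-- Monotonicity in the region. -/
lemma ZZ_mono {S S' : Set E3} (h : S ⊆ S') (μ : ℝ) (f : E3 → E3 → ℝ) : ZZ S μ f ≤ ZZ S' μ f := by
  unfold ZZ GrL
  refine ENNReal.tsum_le_tsum (fun n => ?_)
  refine mul_le_mul' le_rfl ?_
  rw [lintegral_pw_restrict, lintegral_pw_restrict]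
  refine lintegral_mono_set ?_
  exact Set.pi_mono (fun _ _ => h)

lemma one_le_ZZ (S : Set E3) (μ : ℝ) (f : E3 → E3 → ℝ) : 1 ≤ ZZ S μ f := by
  unfold ZZ GrL
  refine le_trans ?_ (ENNReal.le_tsum 0)
  simp [pw, lintegral_unique, HB_nil]

/-- Pointwise comparison for a region. -/
lemma ZZ_le_of_forall {S : Set E3} (hS : MeasurableSet S) {μ μ' : ℝ} {f f' : E3 → E3 → ℝ}
    (h : ∀ (n : ℕ) (x : Fin n → E3), (∀ i, x i ∈ S) →
      μ * n - pairE f x ≤ μ' * n - pairE f' x) : ZZ S μ f ≤ ZZ S μ' f' := by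
  unfold ZZ GrL
  refine ENNReal.tsum_le_tsum (fun n => ?_)
  refine mul_le_mul' le_rfl ?_
  refine lintegral_mono_ae ?_
  filter_upwards [ae_mem_pw hS n] with x hx
  rw [HB_ofFn, HB_ofFn]
  exact ENNReal.ofReal_le_ofReal (Real.exp_le_exp.mpr (h n x hx))

/-- Comparison with a constant factor `exp K`. -/
lemma ZZ_le_of_forall_const {S : Set E3} (hS : MeasurableSet S) {μ μ' K : ℝ}
    {f f' : E3 → E3 → ℝ}
    (h : ∀ (n : ℕ) (x : Fin n → E3), (∀ i, x i ∈ S) →
      μ * n - pairE f x ≤ K + (μ' * n - pairE f' x)) :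
    ZZ S μ f ≤ ENNReal.ofReal (Real.exp K) * ZZ S μ' f' := by
  unfold ZZ GrL
  rw [← ENNReal.tsum_mul_left]
  refine ENNReal.tsum_le_tsum (fun n => ?_)
  rw [mul_left_comm]
  refine mul_le_mul' le_rfl ?_
  calc ∫⁻ x, HB μ f (List.ofFn x) ∂(pw (volume.restrict S) n)
      ≤ ∫⁻ x, ENNReal.ofReal (Real.exp K) * HB μ' f' (List.ofFn x) ∂(pw (volume.restrict S) n) := by
        refine lintegral_mono_ae ?_
        filter_upwards [ae_mem_pw hS n] with x hx
        rw [HB_ofFn, HB_ofFn, ← ENNReal.ofReal_mul (Real.exp_pos _).le, ← Real.exp_add]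
        exact ENNReal.ofReal_le_ofReal (Real.exp_le_exp.mpr (h n x hx))
    _ = ENNReal.ofReal (Real.exp K) * ∫⁻ x, HB μ' f' (List.ofFn x) ∂(pw (volume.restrict S) n) :=
        lintegral_const_mul' _ _ ENNReal.ofReal_ne_top

/-- Domination by a finite family of systems. -/
lemma ZZ_le_sum {κ : Type*} {S : Set E3} (hS : MeasurableSet S) {μ : ℝ} {f : E3 → E3 → ℝ}
    (J : Finset κ) (μ' : κ → ℝ) (f' : κ → E3 → E3 → ℝ) (hf' : ∀ j ∈ J, KMeas (f' j))
    (h : ∀ (n : ℕ) (x : Fin n → E3), (∀ i, x i ∈ S) → ∃ j ∈ J,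
      μ * n - pairE f x ≤ μ' j * n - pairE (f' j) x) :
    ZZ S μ f ≤ ∑ j ∈ J, ZZ S (μ' j) (f' j) := by
  unfold ZZ GrL
  rw [← Summable.tsum_finsetSum (fun _ _ => ENNReal.summable)]
  refine ENNReal.tsum_le_tsum (fun n => ?_)
  rw [← Finset.mul_sum]
  refine mul_le_mul' le_rfl ?_
  rw [← lintegral_finsetSum' _ (fun j hj => (LMeas_HB (hf' j hj) (μ' j) n).aemeasurable)]
  refine lintegral_mono_ae ?_
  filter_upwards [ae_mem_pw hS n] with x hx
  obtain ⟨j, hj, hjle⟩ := h n x hx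
  refine le_trans ?_ (Finset.single_le_sum (fun _ _ => zero_le) hj)
  rw [HB_ofFn, HB_ofFn]
  exact ENNReal.ofReal_le_ofReal (Real.exp_le_exp.mpr hjle)

/-- Canonical partition function (with kernel `f`) of a region. -/
noncomputable def Zn (S : Set E3) (f : E3 → E3 → ℝ) (n : ℕ) : ℝ≥0∞ :=
  (n.factorial : ℝ≥0∞)⁻¹ *
    ∫⁻ x, ENNReal.ofReal (Real.exp (- pairE f x)) ∂(pw (volume.restrict S) n)

lemma ZZ_eq_tsum (S : Set E3) (μ : ℝ) (f : E3 → E3 → ℝ) :
    ZZ S μ f = ∑' n : ℕ, ENNReal.ofReal (Real.exp (μ * n)) * Zn S f n := by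
  unfold ZZ GrL Zn
  refine tsum_congr (fun n => ?_)
  rw [mul_left_comm]
  congr 1
  rw [← lintegral_const_mul' _ _ ENNReal.ofReal_ne_top]
  refine lintegral_congr (fun x => ?_)
  rw [HB_ofFn, ← ENNReal.ofReal_mul (Real.exp_pos _).le, ← Real.exp_add]
  congr 2

/-- Each canonical term is dominated by the grand partition function. -/
lemma Zn_le (S : Set E3) (μ : ℝ) (f : E3 → E3 → ℝ) (n : ℕ) :
    ENNReal.ofReal (Real.exp (μ * n)) * Zn S f n ≤ ZZ S μ f := by
  rw [ZZ_eq_tsum]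
  exact ENNReal.le_tsum n

/-- Radial kernel of a pair potential. -/
noncomputable def radK (φ : ℝ → ℝ) : E3 → E3 → ℝ := fun p q => φ ‖p - q‖

lemma radK_symm (φ : ℝ → ℝ) (p q : E3) : radK φ p q = radK φ q p := by
  simp [radK, norm_sub_rev]

lemma pairE_radK (φ : ℝ → ℝ) {n : ℕ} (x : Fin n → E3) : pairE (radK φ) x = pairEnergy φ x := rfl

lemma KMeas_radK {φ : ℝ → ℝ} (hφ : Measurable φ) : KMeas (radK φ) := by
  unfold KMeas radK
  exact hφ.comp (measurable_norm.comp (measurable_fst.sub measurable_snd))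

/-- Bridge with the statement-level grand partition function at `β = 1`. -/
lemma grandZ_eq_ZZ (φ : ℝ → ℝ) {z : ℝ} (hz : 0 < z) (L : ℝ) :
    grandZ φ 1 z L = ZZ (cube L) (Real.log z) (radK φ) := by
  unfold grandZ canonicalZ ZZ GrL
  refine tsum_congr (fun n => ?_)
  rw [mul_left_comm]
  congr 1
  rw [lintegral_pw_restrict, ← lintegral_const_mul' _ _ ENNReal.ofReal_ne_top]
  refine lintegral_congr (fun x => ?_)
  rw [HB_ofFn, ← ENNReal.ofReal_mul (by positivity)]
  congr 1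
  rw [pairE_radK, sub_eq_add_neg, Real.exp_add, mul_comm (Real.log z), Real.exp_nat_mul,
    Real.exp_log hz]
  simp


/-- Hölder's inequality in the form of log-convexity of integrals. -/
lemma lintegral_rpow_mul_rpow_le {α : Type*} [MeasurableSpace α] (ν : Measure α)
    {F G : α → ℝ≥0∞} (hF : Measurable F) (hG : Measurable G) {θ : ℝ} (h0 : 0 < θ) (h1 : θ < 1) :
    ∫⁻ a, F a ^ θ * G a ^ (1 - θ) ∂ν ≤ (∫⁻ a, F a ∂ν) ^ θ * (∫⁻ a, G a ∂ν) ^ (1 - θ) := by
  have hpq : (1 / θ).HolderConjugate (1 / (1 - θ)) := by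
    rw [Real.holderConjugate_iff]
    constructor
    · rw [lt_div_iff₀ h0]; linarith
    · simp
  have h := ENNReal.lintegral_mul_le_Lp_mul_Lq ν hpq
    (f := fun a => F a ^ θ) (g := fun a => G a ^ (1 - θ))
    (hF.pow_const θ).aemeasurable (hG.pow_const (1 - θ)).aemeasurable
  have hθ : θ * (1 / θ) = 1 := by field_simp
  have hθ' : (1 - θ) * (1 / (1 - θ)) = 1 := by
    have : (1 - θ) ≠ 0 := by linarith
    field_simp
  simp only [← ENNReal.rpow_mul, hθ, hθ', ENNReal.rpow_one] at h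
  simpa using h

/-- Log-convexity of the grand partition function in the pair (chemical potential, kernel). -/
theorem ZZ_holder (S : Set E3) {f₁ f₂ : E3 → E3 → ℝ} (h₁ : KMeas f₁) (h₂ : KMeas f₂)
    (μ₁ μ₂ : ℝ) {θ : ℝ} (h0 : 0 < θ) (h1 : θ < 1) :
    ZZ S (θ * μ₁ + (1 - θ) * μ₂) (fun p q => θ * f₁ p q + (1 - θ) * f₂ p q) ≤
      ZZ S μ₁ f₁ ^ θ * ZZ S μ₂ f₂ ^ (1 - θ) := by
  unfold ZZ GrL
  have hfact : ∀ a : ℝ≥0∞, a ≠ 0 → a ≠ ⊤ → a = a ^ θ * a ^ (1 - θ) := by
    intro a ha ha'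
    rw [← ENNReal.rpow_add _ _ ha ha']; simp
  calc ∑' n : ℕ, (n.factorial : ℝ≥0∞)⁻¹ * ∫⁻ x, HB (θ * μ₁ + (1 - θ) * μ₂)
          (fun p q => θ * f₁ p q + (1 - θ) * f₂ p q) (List.ofFn x) ∂(pw (volume.restrict S) n)
      ≤ ∑' n : ℕ, ((n.factorial : ℝ≥0∞)⁻¹ * ∫⁻ x, HB μ₁ f₁ (List.ofFn x) ∂(pw (volume.restrict S) n)) ^ θ *
          ((n.factorial : ℝ≥0∞)⁻¹ * ∫⁻ x, HB μ₂ f₂ (List.ofFn x) ∂(pw (volume.restrict S) n)) ^ (1 - θ) := by
        refine ENNReal.tsum_le_tsum (fun n => ?_)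
        rw [ENNReal.mul_rpow_of_nonneg _ _ h0.le, ENNReal.mul_rpow_of_nonneg _ _ (by linarith : 0 ≤ 1 - θ)]
        have hinv0 : ((n.factorial : ℝ≥0∞)⁻¹) ≠ 0 := by simp
        have hinvt : ((n.factorial : ℝ≥0∞)⁻¹) ≠ ⊤ := by simp [Nat.factorial_ne_zero]
        calc _ ≤ (n.factorial : ℝ≥0∞)⁻¹ * ((∫⁻ x, HB μ₁ f₁ (List.ofFn x) ∂(pw (volume.restrict S) n)) ^ θ *
                (∫⁻ x, HB μ₂ f₂ (List.ofFn x) ∂(pw (volume.restrict S) n)) ^ (1 - θ)) := by
              refine mul_le_mul' le_rfl ?_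
              refine le_trans (le_of_eq ?_) (lintegral_rpow_mul_rpow_le _ (LMeas_HB h₁ μ₁ n) (LMeas_HB h₂ μ₂ n) h0 h1)
              refine lintegral_congr (fun x => ?_)
              rw [HB_ofFn, HB_ofFn, HB_ofFn, ENNReal.ofReal_rpow_of_pos (Real.exp_pos _),
                ENNReal.ofReal_rpow_of_pos (Real.exp_pos _),
                ← ENNReal.ofReal_mul (by positivity), ← Real.exp_mul, ← Real.exp_mul, ← Real.exp_add]
              congr 2
              have : pairE (fun p q => θ * f₁ p q + (1 - θ) * f₂ p q) x = θ * pairE f₁ x + (1 - θ) * pairE f₂ x := by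
                unfold pairE
                simp only [Finset.mul_sum, Finset.sum_add_distrib]
              rw [this]; ring
          _ = _ := by
              conv_lhs => rw [hfact _ hinv0 hinvt]
              ring
    _ ≤ _ := by
        have := lintegral_rpow_mul_rpow_le (Measure.count : Measure ℕ)
          (F := fun n => (n.factorial : ℝ≥0∞)⁻¹ * ∫⁻ x, HB μ₁ f₁ (List.ofFn x) ∂(pw (volume.restrict S) n))
          (G := fun n => (n.factorial : ℝ≥0∞)⁻¹ * ∫⁻ x, HB μ₂ f₂ (List.ofFn x) ∂(pw (volume.restrict S) n))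
          (measurable_from_top) (measurable_from_top) h0 h1
        simpa only [lintegral_count] using this

/-- Translation invariance of the grand partition function. -/
lemma ZZ_translate {S : Set E3} (hS : MeasurableSet S) (v : E3) {f : E3 → E3 → ℝ}
    (hf : KMeas f) (hv : ∀ p q, f (p + v) (q + v) = f p q) (μ : ℝ) :
    ZZ ((fun p => p + v) ⁻¹' S) μ f = ZZ S μ f := by
  unfold ZZ GrL
  refine tsum_congr (fun n => ?_)
  congr 1
  rw [lintegral_pw_restrict, lintegral_pw_restrict]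
  have hV : MeasurePreserving (fun x : Fin n → E3 => x + fun _ => v) volume volume :=
    measurePreserving_add_right _ _
  have hme : MeasurableEmbedding (fun x : Fin n → E3 => x + fun _ => v) :=
    (MeasurableEquiv.addRight (fun _ : Fin n => v)).measurableEmbedding
  have hset : Set.pi Set.univ (fun _ : Fin n => (fun p => p + v) ⁻¹' S) =
      (fun x : Fin n → E3 => x + fun _ => v) ⁻¹' Set.pi Set.univ (fun _ : Fin n => S) := by
    ext x; simp
  have hh := hV.setLIntegral_comp_preimage_emb hme (fun y => HB μ f (List.ofFn y))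
    (Set.pi Set.univ (fun _ : Fin n => S))
  rw [hset, ← hh]
  refine lintegral_congr (fun x => ?_)
  rw [HB_ofFn, HB_ofFn]
  congr 3
  unfold pairE
  refine Finset.sum_congr rfl (fun i _ => Finset.sum_congr rfl (fun j _ => ?_))
  simp [hv]

end Vale.Agent.Lib.P171b
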