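import Vale.Agent.Lib.P171b.TL

open MeasureTheory Set Filter Topology
open scoped ENNReal

namespace Vale.Agent.Lib.P171b

/-- One coordinate: at most one of the shifted grids separates two close reals. -/
lemma coord_unique {ρ : ℝ} (hρ : 0 < ρ) {m : ℕ} (hm : 0 < m) {a b : ℝ} (hab : a ≤ b)
    (hab2 : b - a < ρ) {j₁ j₂ : ℕ} (h₁ : j₁ < m) (h₂ : j₂ < m)
    (b₁ : ⌊(a - j₁ * ρ) / (m * ρ)⌋ ≠ ⌊(b - j₁ * ρ) / (m * ρ)⌋)
    (b₂ : ⌊(a - j₂ * ρ) / (m * ρ)⌋ ≠ ⌊(b - j₂ * ρ) / (m * ρ)⌋) : j₁ = j₂ := by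
  have hmpos : (0 : ℝ) < m := by exact_mod_cast hm
  have hℓ : 0 < (m : ℝ) * ρ := by positivity
  have key : ∀ j : ℕ, ⌊(a - j * ρ) / (m * ρ)⌋ ≠ ⌊(b - j * ρ) / (m * ρ)⌋ →
      ∃ K : ℤ, (∃ k : ℤ, K = k * m + j) ∧ a < K * ρ ∧ K * ρ ≤ b := by
    intro j hj
    have hle : ⌊(a - j * ρ) / (m * ρ)⌋ ≤ ⌊(b - j * ρ) / (m * ρ)⌋ := by
      apply Int.floor_le_floor
      apply div_le_div_of_nonneg_right _ hℓ.le
      linarith
    have hlt := lt_of_le_of_ne hle hj
    set k := ⌊(b - j * ρ) / (m * ρ)⌋ with hk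
    refine ⟨k * m + j, ⟨k, rfl⟩, ?_, ?_⟩
    · have h1 := Int.floor_lt.mp hlt
      rw [div_lt_iff₀ hℓ] at h1
      push_cast
      nlinarith
    · have h1 := Int.floor_le ((b - j * ρ) / (m * ρ))
      rw [← hk, le_div_iff₀ hℓ] at h1
      push_cast
      nlinarith
  obtain ⟨K₁, ⟨k₁, hk₁⟩, h11, h12⟩ := key j₁ b₁
  obtain ⟨K₂, ⟨k₂, hk₂⟩, h21, h22⟩ := key j₂ b₂
  have hKK : K₁ = K₂ := by
    have h1 : ((K₁ : ℝ) - K₂) * ρ < ρ := by nlinarith
    have h2 : ((K₂ : ℝ) - K₁) * ρ < ρ := by nlinarith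
    have h3 : (K₁ : ℝ) - K₂ < 1 := by
      by_contra hcon
      push Not at hcon
      nlinarith
    have h4 : (K₂ : ℝ) - K₁ < 1 := by
      by_contra hcon
      push Not at hcon
      nlinarith
    have h5 : K₁ - K₂ < 1 := by exact_mod_cast h3
    have h6 : K₂ - K₁ < 1 := by exact_mod_cast h4
    omega
  have hmZ : (0 : ℤ) < m := by exact_mod_cast hm
  have e1 : K₁ % m = j₁ := by
    rw [hk₁, Int.mul_comm, Int.mul_add_emod_self_left]
    exact Int.emod_eq_of_lt (by positivity) (by exact_mod_cast h₁)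
  have e2 : K₂ % m = j₂ := by
    rw [hk₂, Int.mul_comm, Int.mul_add_emod_self_left]
    exact Int.emod_eq_of_lt (by positivity) (by exact_mod_cast h₂)
  rw [hKK] at e1
  have : (j₁ : ℤ) = j₂ := e1.symm.trans e2
  exact_mod_cast this

lemma coord_unique' {ρ : ℝ} (hρ : 0 < ρ) {m : ℕ} (hm : 0 < m) {a b : ℝ}
    (hab2 : |a - b| < ρ) {j₁ j₂ : ℕ} (h₁ : j₁ < m) (h₂ : j₂ < m)
    (b₁ : ⌊(a - j₁ * ρ) / (m * ρ)⌋ ≠ ⌊(b - j₁ * ρ) / (m * ρ)⌋)
    (b₂ : ⌊(a - j₂ * ρ) / (m * ρ)⌋ ≠ ⌊(b - j₂ * ρ) / (m * ρ)⌋) : j₁ = j₂ := by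
  rw [abs_lt] at hab2
  rcases le_total a b with hle | hle
  · exact coord_unique hρ hm hle (by linarith) h₁ h₂ b₁ b₂
  · exact coord_unique hρ hm hle (by linarith) h₁ h₂ b₁.symm b₂.symm

/-- The number of grids separating two close points is at most three. -/
lemma grid_count {ρ : ℝ} (hρ : 0 < ρ) {m : ℕ} (hm : 0 < m) {p q : E3} (hpq : ‖p - q‖ < ρ) :
    ((Finset.range m).filter (fun j : ℕ =>
      cellMap (m * ρ) (j * ρ) p ≠ cellMap (m * ρ) (j * ρ) q)).card ≤ 3 := by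
  classical
  set B : Fin 3 → Finset ℕ := fun i => (Finset.range m).filter (fun j : ℕ =>
    ⌊(p i - j * ρ) / (m * ρ)⌋ ≠ ⌊(q i - j * ρ) / (m * ρ)⌋) with hB
  have hcard : ∀ i, (B i).card ≤ 1 := by
    intro i
    rw [Finset.card_le_one]
    intro j₁ h₁ j₂ h₂
    simp only [hB, Finset.mem_filter, Finset.mem_range] at h₁ h₂
    have hc : |p i - q i| < ρ := by
      have h := PiLp.norm_apply_le (p - q) i
      simp only [PiLp.sub_apply, Real.norm_eq_abs] at h
      exact lt_of_le_of_lt h hpq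
    exact coord_unique' hρ hm hc h₁.1 h₂.1 h₁.2 h₂.2
  have hsub : ((Finset.range m).filter (fun j : ℕ =>
      cellMap (m * ρ) (j * ρ) p ≠ cellMap (m * ρ) (j * ρ) q)) ⊆ Finset.univ.biUnion B := by
    intro j hj
    simp only [Finset.mem_filter, Finset.mem_range] at hj
    obtain ⟨hj1, hj2⟩ := hj
    have : ∃ i : Fin 3, cellMap (m * ρ) (j * ρ) p i ≠ cellMap (m * ρ) (j * ρ) q i := by
      by_contra hcon
      push Not at hcon
      exact hj2 (funext hcon)
    obtain ⟨i, hi⟩ := this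
    simp only [Finset.mem_biUnion, Finset.mem_univ, true_and]
    refine ⟨i, ?_⟩
    simp only [hB, Finset.mem_filter, Finset.mem_range]
    exact ⟨hj1, hi⟩
  calc _ ≤ (Finset.univ.biUnion B).card := Finset.card_le_card hsub
    _ ≤ ∑ i, (B i).card := Finset.card_biUnion_le
    _ ≤ ∑ _i : Fin 3, 1 := Finset.sum_le_sum (fun i _ => hcard i)
    _ = 3 := by simp

lemma pairE_mono {f g : E3 → E3 → ℝ} (h : ∀ p q, f p q ≤ g p q) {n : ℕ} (x : Fin n → E3) :
    pairE f x ≤ pairE g x := by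
  unfold pairE
  exact Finset.sum_le_sum (fun i _ => Finset.sum_le_sum (fun j _ => h _ _))

/-- Averaging over the shifted grids: pairs at distance `< ρ` are in one cell for most grids. -/
lemma grid_energy {ρ : ℝ} (hρ : 0 < ρ) {m : ℕ} (hm : 3 < m) {w : ℝ → ℝ} (h0 : ∀ r, 0 ≤ w r)
    (hrange : ∀ r, ρ ≤ r → w r = 0) {n : ℕ} (x : Fin n → E3) :
    ((m : ℝ) - 3) * pairE (radK w) x ≤
      ∑ j ∈ Finset.range m, pairE (cellK (cellMap (m * ρ) (j * ρ)) (radK w)) x := by
  classical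
  have hm3 : (0 : ℝ) < (m : ℝ) - 3 := by
    have : (3 : ℝ) < m := by exact_mod_cast hm
    linarith
  have hkey : ∀ p q : E3, ((m : ℝ) - 3) * radK w p q ≤
      ∑ j ∈ Finset.range m, cellK (cellMap (m * ρ) (j * ρ)) (radK w) p q := by
    intro p q
    by_cases hpq : ‖p - q‖ < ρ
    · have hcount := grid_count hρ (by omega : 0 < m) hpq
      have hr : 0 ≤ radK w p q := h0 _
      have hsplit : ∑ j ∈ Finset.range m, cellK (cellMap (m * ρ) (j * ρ)) (radK w) p q =
          (((Finset.range m).filter (fun j : ℕ =>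
            cellMap (m * ρ) (j * ρ) p = cellMap (m * ρ) (j * ρ) q)).card : ℝ) * radK w p q := by
        unfold cellK
        rw [← Finset.sum_filter, Finset.sum_const, nsmul_eq_mul]
      rw [hsplit]
      apply mul_le_mul_of_nonneg_right _ hr
      have hadd := Finset.card_filter_add_card_filter_not (s := Finset.range m)
        (fun j : ℕ => cellMap (m * ρ) (j * ρ) p = cellMap (m * ρ) (j * ρ) q)
      rw [Finset.card_range] at hadd
      have : (m : ℝ) = (((Finset.range m).filter (fun j : ℕ =>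
          cellMap (m * ρ) (j * ρ) p = cellMap (m * ρ) (j * ρ) q)).card : ℝ) +
          (((Finset.range m).filter (fun j : ℕ =>
          ¬ cellMap (m * ρ) (j * ρ) p = cellMap (m * ρ) (j * ρ) q)).card : ℝ) := by
        exact_mod_cast hadd.symm
      have hc3 : (((Finset.range m).filter (fun j : ℕ =>
          ¬ cellMap (m * ρ) (j * ρ) p = cellMap (m * ρ) (j * ρ) q)).card : ℝ) ≤ 3 := by
        exact_mod_cast hcount
      linarith
    · have hr : radK w p q = 0 := hrange _ (not_lt.mp hpq)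
      rw [hr, mul_zero]
      refine Finset.sum_nonneg (fun j _ => ?_)
      unfold cellK
      split_ifs
      · exact h0 _
      · exact le_rfl
  calc ((m : ℝ) - 3) * pairE (radK w) x = pairE (fun p q => ((m : ℝ) - 3) * radK w p q) x :=
        (pairE_smul _ _ _).symm
    _ ≤ pairE (fun p q => ∑ j ∈ Finset.range m, cellK (cellMap (m * ρ) (j * ρ)) (radK w) p q) x :=
        pairE_mono hkey x
    _ = _ := by
        unfold pairE
        simp only [Finset.sum_comm (s := Finset.range m)]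

/-- The kernel of the cell systems, with a constant attraction `e`. -/
noncomputable def hatK (A : ℝ) (w : ℝ → ℝ) (e : ℝ) : E3 → E3 → ℝ := fun p q => KK A w p q - e

lemma hatK_symm (A : ℝ) (w : ℝ → ℝ) (e : ℝ) (p q : E3) : hatK A w e p q = hatK A w e q p := by
  unfold hatK
  rw [KK_symm]

lemma hatK_transl (A : ℝ) (w : ℝ → ℝ) (e : ℝ) (v p q : E3) :
    hatK A w e (p + v) (q + v) = hatK A w e p q := by
  unfold hatK KK
  rw [radK_transl]

lemma KMeas_hatK {A : ℝ} {w : ℝ → ℝ} (hw : Measurable w) (e : ℝ) : KMeas (hatK A w e) := by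
  have h := KMeas_KK (A := A) hw
  unfold KMeas at h ⊢
  unfold hatK
  exact h.sub measurable_const

/-- Pointwise comparison with one of the cell systems. -/
lemma exists_grid {A ρ c R : ℝ} {m : ℕ} (hA : 0 ≤ A) (hρ : 0 < ρ) (hm : 3 < m) (hc : 0 < c)
    (hR : 0 < R) {w : ℝ → ℝ} (h0 : ∀ r, 0 ≤ w r) (hrange : ∀ r, ρ ≤ r → w r = 0) {n : ℕ}
    (x : Fin n → E3) :
    ∃ j ∈ Finset.range m, pairE (cellK (cellMap (m * ρ) (j * ρ))
        (hatK A (fun r => w r + 3 / ((m : ℝ) - 3) * w r)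
          (c * (1 + 2 * (m * ρ) / R) ^ 3 / (m * ρ) ^ 3))) x ≤
      pairE (KK A (fun r => w r + c * kacP R r)) x +
        (c * (1 + 2 * (m * ρ) / R) ^ 3 / (m * ρ) ^ 3) / 2 * n := by
  classical
  have hm0 : (0 : ℝ) < m := by
    have : 0 < m := by omega
    exact_mod_cast this
  have hm3 : (0 : ℝ) < (m : ℝ) - 3 := by
    have : (3 : ℝ) < m := by exact_mod_cast hm
    linarith
  have hℓ : 0 < (m : ℝ) * ρ := by positivity
  set ℓ := (m : ℝ) * ρ with hℓdef
  set s := 3 / ((m : ℝ) - 3) with hs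
  have hs1 : (1 + s) * ((m : ℝ) - 3) = m := by
    rw [hs]; field_simp; ring
  have hs0 : 0 ≤ s := by positivity
  set e := c * (1 + 2 * ℓ / R) ^ 3 / ℓ ^ 3 with he
  have he0 : 0 ≤ e := by positivity
  set core := radK (corePot A) with hcore
  set w' : ℝ → ℝ := fun r => w r + c * kacP R r with hw'
  have hEj : ∀ j : ℕ, pairE (cellK (cellMap ℓ (j * ρ)) (hatK A (fun r => w r + s * w r) e)) x =
      pairE (cellK (cellMap ℓ (j * ρ)) core) x -
        (1 + s) * pairE (cellK (cellMap ℓ (j * ρ)) (radK w)) x - e * sameE ℓ (j * ρ) x := by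
    intro j
    unfold sameE
    rw [← pairE_smul, ← pairE_smul, ← pairE_sub, ← pairE_sub]
    congr 1
    funext p q
    unfold cellK hatK
    by_cases h : cellMap ℓ (j * ρ) p = cellMap ℓ (j * ρ) q
    · simp only [h, if_true, hcore, KK, pot, radK]
      ring
    · simp [h]
  have hcoreNN : ∀ p q : E3, 0 ≤ core p q := by
    intro p q
    simp only [hcore, radK, corePot]
    split_ifs
    · exact hA
    · exact le_rfl
  have hcoreLe : ∀ j : ℕ, pairE (cellK (cellMap ℓ (j * ρ)) core) x ≤ pairE core x := by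
    intro j
    refine pairE_mono (fun p q => ?_) x
    unfold cellK
    split_ifs
    · exact le_rfl
    · exact hcoreNN p q
  have hkac : ∀ j : ℕ, c * pairE (radK (kacP R)) x ≤ e * (n / 2 + sameE ℓ (j * ρ) x) := by
    intro j
    have h1 := kac_upper hR hℓ (j * ρ) x
    have hV := VR_pos hR
    have h2 : (0 : ℝ) ≤ n / VR R := by positivity
    have h3 : pairE (radK (kacP R)) x ≤
        (1 + 2 * ℓ / R) ^ 3 / ℓ ^ 3 * (n / 2 + sameE ℓ (j * ρ) x) := by
      have e4 : (1 + 2 * ℓ / R) ^ 3 / ℓ ^ 3 * ((n : ℝ) + 2 * sameE ℓ (j * ρ) x) =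
          2 * ((1 + 2 * ℓ / R) ^ 3 / ℓ ^ 3 * (n / 2 + sameE ℓ (j * ρ) x)) := by ring
      rw [e4] at h1
      linarith
    have h4 := mul_le_mul_of_nonneg_left h3 hc.le
    rw [he]
    calc _ ≤ _ := h4
      _ = _ := by ring
  have hgrid := grid_energy hρ hm h0 hrange x
  rw [← hℓdef] at hgrid
  have hw'E : pairE (KK A w') x = pairE core x - pairE (radK w) x - c * pairE (radK (kacP R)) x := by
    rw [pairE_KK, ← pairE_smul, sub_sub, ← pairE_add]
    rfl
  have hne : (Finset.range m).Nonempty := ⟨0, Finset.mem_range.mpr (by omega)⟩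
  have hsum : ∑ j ∈ Finset.range m,
      pairE (cellK (cellMap ℓ (j * ρ)) (hatK A (fun r => w r + s * w r) e)) x ≤
      ∑ _j ∈ Finset.range m, (pairE (KK A w') x + e / 2 * n) := by
    simp only [hEj, Finset.sum_sub_distrib, Finset.sum_const, Finset.card_range, nsmul_eq_mul]
    rw [← Finset.mul_sum, ← Finset.mul_sum]
    have h1 : ∑ j ∈ Finset.range m, pairE (cellK (cellMap ℓ (j * ρ)) core) x ≤
        (m : ℝ) * pairE core x := by
      calc _ ≤ ∑ _j ∈ Finset.range m, pairE core x := Finset.sum_le_sum (fun j _ => hcoreLe j)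
        _ = _ := by simp
    have h2 : (m : ℝ) * pairE (radK w) x ≤
        (1 + s) * ∑ j ∈ Finset.range m, pairE (cellK (cellMap ℓ (j * ρ)) (radK w)) x := by
      have := mul_le_mul_of_nonneg_left hgrid (by positivity : 0 ≤ 1 + s)
      rw [← mul_assoc, hs1] at this
      exact this
    have h3 : (m : ℝ) * (c * pairE (radK (kacP R)) x) ≤
        e * ((m : ℝ) * (n / 2) + ∑ j ∈ Finset.range m, sameE ℓ (j * ρ) x) := by
      calc (m : ℝ) * (c * pairE (radK (kacP R)) x) =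
            ∑ _j ∈ Finset.range m, (c * pairE (radK (kacP R)) x) := by simp
        _ ≤ ∑ j ∈ Finset.range m, e * (n / 2 + sameE ℓ (j * ρ) x) :=
            Finset.sum_le_sum (fun j _ => hkac j)
        _ = _ := by
            rw [← Finset.mul_sum, Finset.sum_add_distrib]
            simp
    rw [hw'E]
    nlinarith
  obtain ⟨j, hj, hle⟩ := Finset.exists_le_of_sum_le hne hsum
  exact ⟨j, hj, hle⟩

/-- Reduction to the cell system. -/
theorem ZZ_grid_le {A ρ c R : ℝ} {m : ℕ} (hA : 0 ≤ A) (hρ : 0 < ρ) (hm : 3 < m) (hc : 0 < c)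
    (hR : 0 < R) {w : ℝ → ℝ} (h0 : ∀ r, 0 ≤ w r) (hrange : ∀ r, ρ ≤ r → w r = 0)
    (hw : Measurable w) (μ : ℝ) {L : ℝ} (hL : 0 ≤ L) :
    ZZ (cube L) μ (KK A (fun r => w r + c * kacP R r)) ≤
      (m : ℝ≥0∞) * ZZ (cube (m * ρ)) (μ + (c * (1 + 2 * (m * ρ) / R) ^ 3 / (m * ρ) ^ 3) / 2)
        (hatK A (fun r => w r + 3 / ((m : ℝ) - 3) * w r)
          (c * (1 + 2 * (m * ρ) / R) ^ 3 / (m * ρ) ^ 3)) ^ ((⌊L / (m * ρ)⌋₊ + 2) ^ 3) := by
  classical
  have hm0 : (0 : ℝ) < m := by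
    have : 0 < m := by omega
    exact_mod_cast this
  have hℓ : 0 < (m : ℝ) * ρ := by positivity
  set ℓ := (m : ℝ) * ρ with hℓdef
  set s := 3 / ((m : ℝ) - 3) with hs
  set e := c * (1 + 2 * ℓ / R) ^ 3 / ℓ ^ 3 with he
  have hwθ : Measurable (fun r => w r + s * w r) := hw.add (hw.const_mul s)
  have h1 := ZZ_le_sum (S := cube L) (μ := μ) (f := KK A (fun r => w r + c * kacP R r))
    (measurableSet_cube L) (Finset.range m) (fun _ => μ + e / 2)
    (fun j : ℕ => cellK (cellMap ℓ (j * ρ)) (hatK A (fun r => w r + s * w r) e))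
    (fun j _ => KMeas_cellK (KMeas_hatK hwθ e) _ _) (by
      intro n x _
      obtain ⟨j, hj, hle⟩ := exists_grid (A := A) (c := c) (R := R) hA hρ hm hc hR h0 hrange x
      refine ⟨j, hj, ?_⟩
      have : (μ + e / 2) * n - pairE (cellK (cellMap ℓ (j * ρ))
          (hatK A (fun r => w r + s * w r) e)) x ≥ μ * n - pairE (KK A (fun r => w r + c * kacP R r)) x := by
        have e2 : (μ + e / 2) * n = μ * n + e / 2 * n := by ring
        rw [e2]
        linarith
      exact this)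
  refine h1.trans ?_
  have h2 : ∀ j ∈ Finset.range m, ZZ (cube L) (μ + e / 2)
      (cellK (cellMap ℓ (j * ρ)) (hatK A (fun r => w r + s * w r) e)) ≤
      ZZ (cube ℓ) (μ + e / 2) (hatK A (fun r => w r + s * w r) e) ^ ((⌊L / ℓ⌋₊ + 2) ^ 3) := by
    intro j hj
    have hj' : (j : ℝ) < m := by exact_mod_cast Finset.mem_range.mp hj
    refine ZZ_cell_le hℓ (by positivity) ?_ hL (KMeas_hatK hwθ e) (hatK_symm A _ e)
      (hatK_transl A _ e) _
    rw [hℓdef]
    exact mul_lt_mul_of_pos_right hj' hρ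
  calc _ ≤ ∑ _j ∈ Finset.range m, ZZ (cube ℓ) (μ + e / 2) (hatK A (fun r => w r + s * w r) e) ^
        ((⌊L / ℓ⌋₊ + 2) ^ 3) := Finset.sum_le_sum h2
    _ = _ := by simp

end Vale.Agent.Lib.P171b
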