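import Mathlib

open MeasureTheory Filter Topology
open scoped ENNReal

namespace Vale.Agent.Lib.P171b

/-- Euclidean three-space. -/
abbrev E3 : Type := EuclideanSpace ℝ (Fin 3)

/-- The cube `Λ_L = [0,L]³`. -/
def cube (L : ℝ) : Set E3 := {x | ∀ i, x i ∈ Set.Icc (0 : ℝ) L}

/-- The interaction energy `U_N(x₁,…,x_N) = Σ_{i<j} φ(|x_i - x_j|)`. -/
noncomputable def pairEnergy (φ : ℝ → ℝ) {N : ℕ} (x : Fin N → E3) : ℝ :=
  ∑ i, ∑ j ∈ Finset.Ioi i, φ ‖x i - x j‖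

/-- The canonical partition function
`Z_{L,N}(β) = (1/N!) ∫_{Λ_L^N} exp(-β U_N(x)) dx`, as an element of `[0,∞]`. -/
noncomputable def canonicalZ (φ : ℝ → ℝ) (β L : ℝ) (N : ℕ) : ℝ≥0∞ :=
  (N.factorial : ℝ≥0∞)⁻¹ *
    ∫⁻ x in Set.pi Set.univ (fun _ : Fin N => cube L),
      ENNReal.ofReal (Real.exp (-β * pairEnergy φ x))

/-- The grand partition function `Σ_{N≥0} z^N Z_{L,N}(β)`, as an element of `[0,∞]`. -/
noncomputable def grandZ (φ : ℝ → ℝ) (β z L : ℝ) : ℝ≥0∞ :=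
  ∑' N : ℕ, ENNReal.ofReal (z ^ N) * canonicalZ φ β L N

/-- Stability: `U_N ≥ -B N` for all `N` and all configurations of distinct points. -/
def IsStablePot (φ : ℝ → ℝ) : Prop :=
  ∃ B : ℝ, ∀ (N : ℕ) (x : Fin N → E3), Function.Injective x → -B * N ≤ pairEnergy φ x

/-- Temperedness: `φ(r) ≤ C r^{-3-ε}` for all `r ≥ R₀`. -/
def IsTemperedPot (φ : ℝ → ℝ) : Prop :=
  ∃ C ε R₀ : ℝ, 0 < C ∧ 0 < ε ∧ 0 < R₀ ∧ ∀ r, R₀ ≤ r → φ r ≤ C * r ^ (-3 - ε)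

/-- `Pr` is the pressure function of `φ` at inverse temperature `β`: for every activity `z > 0` all
grand partition functions are finite and `L^{-3} log Σ_{N≥0} z^N Z_{L,N}(β) → Pr z` as `L → ∞`. -/
def IsPressure (φ : ℝ → ℝ) (β : ℝ) (Pr : ℝ → ℝ) : Prop :=
  ∀ z, 0 < z → (∀ L, 0 < L → grandZ φ β z L ≠ ⊤) ∧
    Tendsto (fun L : ℝ => (L ^ 3)⁻¹ * Real.log (grandZ φ β z L).toReal) atTop (𝓝 (Pr z))

/-- Phase transition in the sense of non-differentiability of the pressure in the activity: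
for some `β > 0`, the map `z ↦ Π(β,z)` is not differentiable at some point `z > 0`. -/
def HasPressureKink (φ : ℝ → ℝ) : Prop :=
  ∃ (β : ℝ) (Pr : ℝ → ℝ), 0 < β ∧ IsPressure φ β Pr ∧ ∃ z, 0 < z ∧ ¬ DifferentiableAt ℝ Pr z

end Vale.Agent.Lib.P171b
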