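import Vale.Agent.Lib.P171b.Base

open MeasureTheory Set Filter Topology
open scoped ENNReal

namespace Vale.Agent.Lib.P171b

/-- The height of the core. -/
noncomputable def AA : ℝ := 2000000

/-- The window at stage `k`. -/
noncomputable def hk (k : ℕ) : ℝ := 32 / 2 ^ k

/-- The strength of the new long range attraction at stage `k`. -/
noncomputable def ck (k : ℕ) : ℝ := 9600 / 2 ^ k

/-- The size of the quasi-kink at stage `k`. -/
noncomputable def dk (k : ℕ) : ℝ := 1 / 32 + 1 / 2 ^ (k + 5)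

/-- The stability budget used up to stage `k`. -/
noncomputable def Bud (k : ℕ) : ℝ := 153600 - 153600 / 2 ^ k

lemma AA_pos : 0 < AA := by unfold AA; norm_num

lemma hk_pos (k : ℕ) : 0 < hk k := by unfold hk; positivity

lemma ck_pos (k : ℕ) : 0 < ck k := by unfold ck; positivity

lemma ck_le (k : ℕ) : ck k ≤ 9600 := by
  unfold ck
  have h : (1 : ℝ) ≤ 2 ^ k := one_le_pow₀ (by norm_num)
  rw [div_le_iff₀ (by positivity)]
  linarith

lemma Bud_nonneg (k : ℕ) : 0 ≤ Bud k := by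
  unfold Bud
  have h : (1 : ℝ) ≤ 2 ^ k := one_le_pow₀ (by norm_num)
  have : 153600 / (2 : ℝ) ^ k ≤ 153600 := by
    rw [div_le_iff₀ (by positivity)]
    linarith
  linarith

lemma Bud_le (k : ℕ) : Bud k ≤ 153600 := by
  unfold Bud
  have : 0 ≤ 153600 / (2 : ℝ) ^ k := by positivity
  linarith

lemma Bud_succ (k : ℕ) : Bud (k + 1) = Bud k + ck k * 8 := by
  unfold Bud ck
  rw [pow_succ]
  field_simp
  ring

lemma hk_succ (k : ℕ) : hk (k + 1) = hk k / 2 := by
  unfold hk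
  rw [pow_succ]
  field_simp

lemma dk_lt (k : ℕ) : dk (k + 1) < dk k := by
  unfold dk
  have h1 : (2 : ℝ) ^ (k + 1 + 5) = 2 * 2 ^ (k + 5) := by ring
  rw [h1]
  have h2 : (0 : ℝ) < 2 ^ (k + 5) := by positivity
  have h3 : 1 / (2 * (2 : ℝ) ^ (k + 5)) = (1 / 2 ^ (k + 5)) / 2 := by
    field_simp
  rw [h3]
  have h4 : 0 < 1 / (2 : ℝ) ^ (k + 5) := by positivity
  linarith

lemma dk_ge (k : ℕ) : 1 / 32 ≤ dk k := by
  unfold dk
  have h4 : 0 < 1 / (2 : ℝ) ^ (k + 5) := by positivity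
  linarith

lemma ck_eq (k : ℕ) : ck k = 300 * hk k := by
  unfold ck hk
  ring

lemma kink_cond (k : ℕ) : 8 * hk k < ck k * dk k := by
  rw [ck_eq]
  have h1 := hk_pos k
  have h2 := dk_ge k
  have h3 : 300 * hk k * (1 / 32) ≤ 300 * hk k * dk k :=
    mul_le_mul_of_nonneg_left h2 (by positivity)
  linarith

lemma coef_cond (k : ℕ) :
    (1 + (1 / 100000 : ℝ)) * (2 * (16 / AA)) + 1 / 100000 ≤ 1 / (2 * ck k) := by
  have h1 := ck_pos k
  have h2 := ck_le k
  rw [le_div_iff₀ (by positivity)]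
  unfold AA
  have e : ((1 + (1 / 100000 : ℝ)) * (2 * (16 / 2000000)) + 1 / 100000) * (2 * ck k) =
      ((1 + (1 / 100000 : ℝ)) * (2 * (16 / 2000000)) + 1 / 100000) * 2 * ck k := by ring
  rw [e]
  have h3 : ((1 + (1 / 100000 : ℝ)) * (2 * (16 / 2000000)) + 1 / 100000) * 2 * ck k ≤
      ((1 + (1 / 100000 : ℝ)) * (2 * (16 / 2000000)) + 1 / 100000) * 2 * 9600 :=
    mul_le_mul_of_nonneg_left h2 (by norm_num)
  refine h3.trans ?_
  norm_num

lemma cf_cond (k : ℕ) : 2 * ck k * (16 / AA) < 1 := by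
  have h1 := ck_pos k
  have h2 := ck_le k
  unfold AA
  norm_num
  nlinarith

/-- State of the iteration: attractive part, position of the quasi-kink, range. -/
abbrev State := (ℝ → ℝ) × ℝ × ℝ

/-- The invariant of the iteration. -/
structure St (k : ℕ) (x : State) : Prop where
  nonneg : ∀ r, 0 ≤ x.1 r
  meas : Measurable x.1
  adm : Adm x.1 (Bud k)
  pos : 0 < x.2.2
  range : ∀ r, x.2.2 ≤ r → x.1 r = 0
  kink : dk k * hk k ≤ D2 (PP AA x.1) x.2.1 (hk k)

/-- The relation between consecutive states. -/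
def Rel (k : ℕ) (x y : State) : Prop :=
  (∃ R, 4 ≤ R ∧ y.1 = fun r => x.1 r + ck k * kacP R r) ∧ y.2.1 ≤ x.2.1 - hk k

lemma good_of {w : ℝ → ℝ} {C : ℝ} (h0 : ∀ r, 0 ≤ w r) (hm : Measurable w) (ha : Adm w C)
    (hC : C ≤ 500000) : Good AA w := by
  refine ⟨AA_pos, h0, hm, Adm_mono ha ?_⟩
  unfold AA
  linarith

lemma St.good {k : ℕ} {x : State} (h : St k x) : Good AA x.1 :=
  good_of h.nonneg h.meas h.adm (by linarith [Bud_le k])

lemma St.good2 {k : ℕ} {x : State} (h : St k x) : Good AA (fun r => x.1 r + x.1 r) :=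
  good_of (fun r => add_nonneg (h.nonneg r) (h.nonneg r)) (h.meas.add h.meas)
    (Adm_add h.adm h.adm) (by linarith [Bud_le k])

lemma St.good_new {k : ℕ} {x : State} (h : St k x) {R : ℝ} (hR : 4 ≤ R) :
    Good AA (fun r => x.1 r + ck k * kacP R r) := by
  refine good_of (fun r => add_nonneg (h.nonneg r)
    (mul_nonneg (ck_pos k).le (kacP_nonneg R r))) (h.meas.add ((measurable_kacP R).const_mul _))
    (Adm_add h.adm (Adm_smul (ck_pos k).le (Adm_kacP hR))) ?_
  rw [← Bud_succ]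
  linarith [Bud_le (k + 1)]

theorem St.step {k : ℕ} {x : State} (h : St k x) : ∃ y, St (k + 1) y ∧ Rel k x y := by
  have hev : ∀ᶠ R in atTop, Good AA (fun r => x.1 r + ck k * kacP R r) := by
    filter_upwards [eventually_ge_atTop 4] with R hR
    exact h.good_new hR
  obtain ⟨R, t, hR4, hgR, htν, hD⟩ := stage_step (η₀ := 1 / 100000) h.good h.good2 (ck_pos k) h.pos
    h.range hev (by norm_num) (coef_cond k) (cf_cond k) (hk_pos k) h.kink (kink_cond k) (dk_lt k)
  have hRpos : 0 < R := by linarith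
  refine ⟨(fun r => x.1 r + ck k * kacP R r, t, max x.2.2 (2 * R)), ⟨?_, ?_, ?_, ?_, ?_, ?_⟩,
    ⟨R, hR4, rfl⟩, htν⟩
  · exact fun r => add_nonneg (h.nonneg r) (mul_nonneg (ck_pos k).le (kacP_nonneg R r))
  · exact h.meas.add ((measurable_kacP R).const_mul _)
  · rw [Bud_succ]
    exact Adm_add h.adm (Adm_smul (ck_pos k).le (Adm_kacP hR4))
  · exact lt_max_of_lt_left h.pos
  · intro r hr
    have h1 : x.2.2 ≤ r := (le_max_left _ _).trans hr
    have h2 : 2 * R ≤ r := (le_max_right _ _).trans hr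
    show x.1 r + ck k * kacP R r = 0
    rw [h.range r h1, kacP_eq_zero h2]
    ring
  · show dk (k + 1) * hk (k + 1) ≤ D2 (PP AA (fun r => x.1 r + ck k * kacP R r)) t (hk (k + 1))
    rw [hk_succ]
    exact hD

lemma St_zero : St 0 ((fun _ => 0), 0, 1) := by
  refine ⟨fun _ => le_rfl, measurable_const, ?_, one_pos, fun _ _ => rfl, ?_⟩
  · intro n x
    have e : pairE (radK (fun _ => (0 : ℝ))) x = 0 := by simp [pairE, radK]
    have e2 : Bud 0 = 0 := by unfold Bud; norm_num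
    rw [e2, zero_mul]
    exact e.le
  · have h := base_kink AA_pos
    have e1 : hk 0 = 32 := by unfold hk; norm_num
    have e2 : dk 0 = 1 / 16 := by unfold dk; norm_num
    rw [e1, e2]
    exact h

/-- Dependent choice. -/
lemma dep_choice {S : Type*} (P : ℕ → S → Prop) (Rl : ℕ → S → S → Prop) (x₀ : S) (h0 : P 0 x₀)
    (hs : ∀ k x, P k x → ∃ y, P (k + 1) y ∧ Rl k x y) :
    ∃ f : ℕ → S, f 0 = x₀ ∧ (∀ k, P k (f k)) ∧ ∀ k, Rl k (f k) (f (k + 1)) := by
  classical
  let g : (k : ℕ) → {x : S // P k x} := fun k => Nat.rec ⟨x₀, h0⟩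
    (fun k x => ⟨Classical.choose (hs k x.1 x.2), (Classical.choose_spec (hs k x.1 x.2)).1⟩) k
  refine ⟨fun k => (g k).1, rfl, fun k => (g k).2, fun k => ?_⟩
  exact (Classical.choose_spec (hs k (g k).1 (g k).2)).2

end Vale.Agent.Lib.P171b
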