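import Vale.Agent.Lib.P171b.Core

open MeasureTheory Set Filter Topology
open scoped ENNReal

namespace Vale.Agent.Lib.P171b

/-- The cell of a point in the grid of mesh `ℓ` and offset `τ` (same offset in each coordinate). -/
noncomputable def cellMap (ℓ τ : ℝ) (p : E3) : Fin 3 → ℤ := fun i => ⌊(p i - τ) / ℓ⌋

lemma measurable_coord (i : Fin 3) : Measurable (fun p : E3 => p i) := by fun_prop

lemma mem_cell_iff {ℓ τ : ℝ} (hℓ : 0 < ℓ) (p : E3) (α : Fin 3 → ℤ) :
    cellMap ℓ τ p = α ↔ ∀ i, τ + α i * ℓ ≤ p i ∧ p i < τ + (α i + 1) * ℓ := by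
  unfold cellMap
  constructor
  · intro h i
    have h1 : ⌊(p i - τ) / ℓ⌋ = α i := congrFun h i
    rw [Int.floor_eq_iff] at h1
    obtain ⟨h2, h3⟩ := h1
    rw [le_div_iff₀ hℓ] at h2
    rw [div_lt_iff₀ hℓ] at h3
    constructor <;> linarith
  · intro h
    ext i
    rw [Int.floor_eq_iff]
    obtain ⟨h2, h3⟩ := h i
    rw [le_div_iff₀ hℓ, div_lt_iff₀ hℓ]
    constructor <;> linarith

lemma cell_eq_preimage {ℓ τ : ℝ} (hℓ : 0 < ℓ) (α : Fin 3 → ℤ) :
    cellMap ℓ τ ⁻¹' {α} = (fun p : E3 => (WithLp.ofLp p : Fin 3 → ℝ)) ⁻¹'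
      Set.pi Set.univ (fun i => Set.Ico (τ + α i * ℓ) (τ + (α i + 1) * ℓ)) := by
  ext p
  simp only [mem_preimage, mem_singleton_iff, mem_cell_iff hℓ, Set.mem_pi, mem_univ, forall_true_left,
    mem_Ico]

lemma measurableSet_cell {ℓ τ : ℝ} (hℓ : 0 < ℓ) (α : Fin 3 → ℤ) :
    MeasurableSet (cellMap ℓ τ ⁻¹' {α}) := by
  rw [cell_eq_preimage hℓ]
  have hm : Measurable (fun p : E3 => (WithLp.ofLp p : Fin 3 → ℝ)) :=
    (PiLp.volume_preserving_ofLp (Fin 3)).measurable
  exact hm (MeasurableSet.univ_pi (fun _ => measurableSet_Ico))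

lemma volume_cell {ℓ τ : ℝ} (hℓ : 0 < ℓ) (α : Fin 3 → ℤ) :
    volume (cellMap ℓ τ ⁻¹' {α}) = ENNReal.ofReal (ℓ ^ 3) := by
  rw [cell_eq_preimage hℓ]
  rw [(PiLp.volume_preserving_ofLp (Fin 3)).measure_preimage
    (MeasurableSet.univ_pi (fun _ => measurableSet_Ico)).nullMeasurableSet]
  rw [Real.volume_pi_Ico]
  simp only [Fin.prod_univ_three]
  have h : ∀ i, τ + ((α i : ℝ) + 1) * ℓ - (τ + α i * ℓ) = ℓ := fun i => by ring
  simp only [h]
  rw [← ENNReal.ofReal_mul hℓ.le, ← ENNReal.ofReal_mul (by positivity)]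
  congr 1
  ring

lemma measurableSet_sameCell (ℓ τ : ℝ) :
    MeasurableSet {q : E3 × E3 | cellMap ℓ τ q.1 = cellMap ℓ τ q.2} := by
  have : {q : E3 × E3 | cellMap ℓ τ q.1 = cellMap ℓ τ q.2} =
      ⋂ i : Fin 3, {q : E3 × E3 | ⌊(q.1 i - τ) / ℓ⌋ = ⌊(q.2 i - τ) / ℓ⌋} := by
    ext q
    simp only [mem_ofPred_eq, mem_iInter]
    constructor
    · intro h i
      exact congrFun h i
    · intro h
      ext i
      exact h i
  rw [this]
  refine MeasurableSet.iInter (fun i => ?_)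
  have h1 : Measurable (fun q : E3 × E3 => ⌊(q.1 i - τ) / ℓ⌋) :=
    Int.measurable_floor.comp (by fun_prop)
  have h2 : Measurable (fun q : E3 × E3 => ⌊(q.2 i - τ) / ℓ⌋) :=
    Int.measurable_floor.comp (by fun_prop)
  exact measurableSet_eq_fun h1 h2

lemma KMeas_cellK {f : E3 → E3 → ℝ} (hf : KMeas f) (ℓ τ : ℝ) :
    KMeas (cellK (cellMap ℓ τ) f) := by
  unfold KMeas cellK
  exact Measurable.ite (measurableSet_sameCell ℓ τ) hf measurable_const

lemma same_cell_coord {ℓ τ : ℝ} (hℓ : 0 < ℓ) {p q : E3} (h : cellMap ℓ τ p = cellMap ℓ τ q)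
    (i : Fin 3) : |p i - q i| < ℓ := by
  have hp := (mem_cell_iff hℓ p (cellMap ℓ τ p)).mp rfl i
  have hq := (mem_cell_iff hℓ q (cellMap ℓ τ p)).mp h.symm i
  rw [abs_lt]
  constructor <;> nlinarith [hp.1, hp.2, hq.1, hq.2]

lemma norm_sq_E3 (v : E3) : ‖v‖ ^ 2 = v 0 ^ 2 + v 1 ^ 2 + v 2 ^ 2 := by
  rw [EuclideanSpace.norm_sq_eq]
  simp [Fin.sum_univ_three]

/-- Two points of one cell are at distance `< 2ℓ`. -/
lemma same_cell_norm_lt {ℓ τ : ℝ} (hℓ : 0 < ℓ) {p q : E3} (h : cellMap ℓ τ p = cellMap ℓ τ q) :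
    ‖p - q‖ < 2 * ℓ := by
  have h0 := same_cell_coord hℓ h 0
  have h1 := same_cell_coord hℓ h 1
  have h2 := same_cell_coord hℓ h 2
  have hn := norm_sq_E3 (p - q)
  simp only [PiLp.sub_apply] at hn
  rw [abs_lt] at h0 h1 h2
  have hsq : ‖p - q‖ ^ 2 < (2 * ℓ) ^ 2 := by
    rw [hn]; nlinarith [h0.1, h0.2, h1.1, h1.2, h2.1, h2.2]
  exact lt_of_pow_lt_pow_left₀ 2 (by positivity) hsq

/-- Two points of one cell of mesh `1/2` are at distance `< 1`. -/
lemma same_halfcell_norm_lt {τ : ℝ} {p q : E3} (h : cellMap (1 / 2) τ p = cellMap (1 / 2) τ q) :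
    ‖p - q‖ < 1 := by
  have h0 := same_cell_coord (by norm_num) h 0
  have h1 := same_cell_coord (by norm_num) h 1
  have h2 := same_cell_coord (by norm_num) h 2
  have hn := norm_sq_E3 (p - q)
  simp only [PiLp.sub_apply] at hn
  rw [abs_lt] at h0 h1 h2
  have hsq : ‖p - q‖ ^ 2 < 1 ^ 2 := by
    rw [hn]; nlinarith [h0.1, h0.2, h1.1, h1.2, h2.1, h2.2]
  exact lt_of_pow_lt_pow_left₀ 2 (by norm_num) hsq

lemma measurableSet_cube (L : ℝ) : MeasurableSet (cube L) := by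
  have : cube L = ⋂ i : Fin 3, (fun p : E3 => p i) ⁻¹' Set.Icc 0 L := by
    ext p; simp [cube]
  rw [this]
  exact MeasurableSet.iInter (fun i => measurable_coord i measurableSet_Icc)

lemma volume_cube {L : ℝ} (hL : 0 ≤ L) : volume (cube L) = ENNReal.ofReal (L ^ 3) := by
  have : cube L = (fun p : E3 => (WithLp.ofLp p : Fin 3 → ℝ)) ⁻¹'
      Set.pi Set.univ (fun _ => Set.Icc 0 L) := by
    ext p
    constructor
    · intro h i _
      exact h i
    · intro h i
      exact h i (mem_univ i)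
  rw [this, (PiLp.volume_preserving_ofLp (Fin 3)).measure_preimage
    (MeasurableSet.univ_pi (fun _ => measurableSet_Icc)).nullMeasurableSet]
  rw [volume_pi_pi]
  simp only [Real.volume_Icc, Fin.prod_univ_three, sub_zero]
  rw [← ENNReal.ofReal_mul hL, ← ENNReal.ofReal_mul (by positivity)]
  congr 1
  ring

/-- The finite index set of cells in a box. -/
noncomputable def cellBox (a b : ℤ) : Finset (Fin 3 → ℤ) :=
  Fintype.piFinset (fun _ => Finset.Icc a b)

lemma card_cellBox (a : ℤ) (n : ℕ) : (cellBox a (a + n)).card = (n + 1) ^ 3 := by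
  unfold cellBox
  rw [Fintype.card_piFinset]
  simp only [Int.card_Icc, Finset.prod_const, Finset.card_univ, Fintype.card_fin]
  congr 1
  omega

/-- Grand partition function of a translation-invariant in-cell system in a large cube. -/
theorem ZZ_cell_le {ℓ τ L : ℝ} (hℓ : 0 < ℓ) (hτ0 : 0 ≤ τ) (hτ : τ < ℓ) (hL : 0 ≤ L)
    {f : E3 → E3 → ℝ} (hf : KMeas f) (hs : ∀ p q, f p q = f q p)
    (ht : ∀ v p q, f (p + v) (q + v) = f p q) (μ : ℝ) :
    ZZ (cube L) μ (cellK (cellMap ℓ τ) f) ≤ ZZ (cube ℓ) μ f ^ ((⌊L / ℓ⌋₊ + 2) ^ 3) := by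
  classical
  set F := cellBox (-1) ((-1) + ((⌊L / ℓ⌋₊ + 1 : ℕ) : ℤ)) with hF
  have hcard : F.card = (⌊L / ℓ⌋₊ + 2) ^ 3 := by
    rw [hF, card_cellBox]
  have hcov : cube L ∩ cellMap ℓ τ ⁻¹' (F : Set (Fin 3 → ℤ)) = cube L := by
    apply Set.inter_eq_left.mpr
    intro p hp
    simp only [mem_preimage, Finset.mem_coe, hF, cellBox, Fintype.mem_piFinset, Finset.mem_Icc]
    intro i
    obtain ⟨h1, h2⟩ := hp i
    constructor
    · unfold cellMap
      apply Int.le_floor.mpr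
      push_cast
      rw [le_div_iff₀ hℓ]
      linarith
    · unfold cellMap
      have h3 : (p i - τ) / ℓ < (⌊L / ℓ⌋₊ : ℝ) + 1 := by
        calc (p i - τ) / ℓ ≤ L / ℓ := by
              apply div_le_div_of_nonneg_right _ hℓ.le
              linarith
          _ < _ := Nat.lt_floor_add_one _
      have h4 : ⌊(p i - τ) / ℓ⌋ < (⌊L / ℓ⌋₊ : ℤ) + 1 := by
        apply Int.floor_lt.mpr
        push_cast
        exact h3
      push_cast
      omega
  have h1 := ZZ_cells (cellMap ℓ τ) (fun α => measurableSet_cell hℓ α) (measurableSet_cube L)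
    (KMeas_cellK hf ℓ τ) hs μ F
  rw [hcov] at h1
  rw [h1, ← hcard, ← Finset.prod_const]
  refine Finset.prod_le_prod' (fun α _ => ?_)
  -- each cell lies in a translate of the cube of side `ℓ`
  set w : E3 := WithLp.toLp 2 (fun i => -(τ + α i * ℓ)) with hw
  have hsub : cube L ∩ cellMap ℓ τ ⁻¹' {α} ⊆ (fun p => p + w) ⁻¹' cube ℓ := by
    rintro p ⟨_, hp⟩
    have hp' := (mem_cell_iff hℓ p α).mp hp
    intro i
    obtain ⟨h2, h3⟩ := hp' i
    simp only [PiLp.add_apply, hw, mem_Icc]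
    constructor
    · linarith
    · nlinarith
  calc ZZ (cube L ∩ cellMap ℓ τ ⁻¹' {α}) μ f ≤ ZZ ((fun p => p + w) ⁻¹' cube ℓ) μ f :=
        ZZ_mono hsub μ f
    _ = ZZ (cube ℓ) μ f :=
        ZZ_translate (measurableSet_cube ℓ) w hf (fun p q => ht w p q) μ

/-- Superadditivity: boxes separated by corridors of width one. -/
theorem ZZ_superadd {ℓ : ℝ} (hℓ : 0 < ℓ) (k : ℕ)
    {f : E3 → E3 → ℝ} (hf : KMeas f) (hs : ∀ p q, f p q = f q p)
    (ht : ∀ v p q, f (p + v) (q + v) = f p q) (hneg : ∀ p q, 1 ≤ ‖p - q‖ → f p q ≤ 0) (μ : ℝ) :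
    ZZ (cube ℓ) μ f ^ (k ^ 3) ≤ ZZ (cube (k * (ℓ + 1))) μ f := by
  classical
  have hℓ1 : 0 < ℓ + 1 := by linarith
  set F : Finset (Fin 3 → ℤ) := Fintype.piFinset (fun _ => Finset.Ico (0 : ℤ) k) with hF
  have hcard : F.card = k ^ 3 := by
    rw [hF, Fintype.card_piFinset]
    simp
  set w : (Fin 3 → ℤ) → E3 := fun α => WithLp.toLp 2 (fun i => -((ℓ + 1) * α i)) with hw
  set T : (Fin 3 → ℤ) → Set E3 := fun α => (fun p => p + w α) ⁻¹' cube ℓ with hT
  have hTmem : ∀ α p, p ∈ T α ↔ ∀ i, (ℓ + 1) * α i ≤ p i ∧ p i ≤ (ℓ + 1) * α i + ℓ := by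
    intro α p
    simp only [hT, mem_preimage, cube, mem_ofPred_eq, PiLp.add_apply, hw, mem_Icc]
    constructor
    · intro h i
      have := h i
      constructor <;> linarith [this.1, this.2]
    · intro h i
      have := h i
      constructor <;> linarith [this.1, this.2]
  have hTcell : ∀ α p, p ∈ T α → cellMap (ℓ + 1) 0 p = α := by
    intro α p hp
    rw [mem_cell_iff hℓ1]
    intro i
    obtain ⟨h1, h2⟩ := (hTmem α p).mp hp i
    constructor
    · linarith [mul_comm (ℓ + 1) (α i : ℝ)]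
    · nlinarith [mul_comm (ℓ + 1) (α i : ℝ)]
  have hTmeas : ∀ α, MeasurableSet (T α) := fun α =>
    (measurable_id.add_const (w α)) (measurableSet_cube ℓ)
  set S : Set E3 := ⋃ α ∈ F, T α with hS
  have hSmeas : MeasurableSet S := Finset.measurableSet_biUnion _ (fun α _ => hTmeas α)
  have hScube : S ⊆ cube (k * (ℓ + 1)) := by
    intro p hp
    simp only [hS, mem_iUnion, exists_prop] at hp
    obtain ⟨α, hα, hp⟩ := hp
    intro i
    obtain ⟨h1, h2⟩ := (hTmem α p).mp hp i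
    have hαi := Fintype.mem_piFinset.mp hα i
    rw [Finset.mem_Ico] at hαi
    have h3 : (0 : ℝ) ≤ α i := by exact_mod_cast hαi.1
    have h4 : (α i : ℝ) + 1 ≤ k := by exact_mod_cast hαi.2
    constructor
    · nlinarith
    · nlinarith
  have hScell : S ∩ cellMap (ℓ + 1) 0 ⁻¹' (F : Set (Fin 3 → ℤ)) = S := by
    apply Set.inter_eq_left.mpr
    intro p hp
    simp only [hS, mem_iUnion, exists_prop] at hp
    obtain ⟨α, hα, hp⟩ := hp
    simp only [mem_preimage, Finset.mem_coe]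
    rw [hTcell α p hp]
    exact hα
  have hSα : ∀ α ∈ F, S ∩ cellMap (ℓ + 1) 0 ⁻¹' {α} = T α := by
    intro α hα
    ext p
    constructor
    · rintro ⟨hp, hc⟩
      simp only [hS, mem_iUnion, exists_prop] at hp
      obtain ⟨β, _, hpβ⟩ := hp
      have := hTcell β p hpβ
      simp only [mem_preimage, mem_singleton_iff] at hc
      rw [this] at hc
      rwa [← hc]
    · intro hp
      refine ⟨?_, hTcell α p hp⟩
      simp only [hS, mem_iUnion, exists_prop]
      exact ⟨α, hα, hp⟩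
  have h1 := ZZ_cells (cellMap (ℓ + 1) 0) (fun α => measurableSet_cell hℓ1 α) hSmeas
    (KMeas_cellK hf _ _) hs μ F
  rw [hScell] at h1
  have h2 : ∏ α ∈ F, ZZ (S ∩ cellMap (ℓ + 1) 0 ⁻¹' {α}) μ f = ZZ (cube ℓ) μ f ^ (k ^ 3) := by
    rw [← hcard, ← Finset.prod_const]
    refine Finset.prod_congr rfl (fun α hα => ?_)
    rw [hSα α hα]
    exact ZZ_translate (measurableSet_cube ℓ) (w α) hf (fun p q => ht (w α) p q) μ
  rw [← h2, ← h1]
  refine le_trans ?_ (ZZ_mono hScube μ f)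
  refine ZZ_le_of_forall hSmeas (fun n x hx => ?_)
  have hle : pairE f x ≤ pairE (cellK (cellMap (ℓ + 1) 0) f) x := by
    unfold pairE
    refine Finset.sum_le_sum (fun i _ => Finset.sum_le_sum (fun j _ => ?_))
    unfold cellK
    split_ifs with hc
    · exact le_rfl
    · apply hneg
      have hi := hx i
      have hj := hx j
      simp only [hS, mem_iUnion, exists_prop] at hi hj
      obtain ⟨α, _, hiα⟩ := hi
      obtain ⟨β, _, hjβ⟩ := hj
      have hαβ : α ≠ β := by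
        intro h
        apply hc
        rw [hTcell α _ hiα, hTcell β _ hjβ, h]
      obtain ⟨m, hm⟩ := Function.ne_iff.mp hαβ
      obtain ⟨h1a, h1b⟩ := (hTmem α _).mp hiα m
      obtain ⟨h2a, h2b⟩ := (hTmem β _).mp hjβ m
      have hnorm : |(x i - x j) m| ≤ ‖x i - x j‖ := by
        simpa using PiLp.norm_apply_le (x i - x j) m
      refine le_trans ?_ hnorm
      simp only [PiLp.sub_apply]
      rcases lt_or_gt_of_ne hm with hlt | hgt
      · have h5 : (α m : ℝ) + 1 ≤ β m := by exact_mod_cast hlt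
        have h6 : 1 ≤ x j m - x i m := by nlinarith
        rw [abs_sub_comm]
        exact le_trans h6 (le_abs_self _)
      · have h5 : (β m : ℝ) + 1 ≤ α m := by exact_mod_cast hgt
        have h6 : 1 ≤ x i m - x j m := by nlinarith
        exact le_trans h6 (le_abs_self _)
  linarith

end Vale.Agent.Lib.P171b
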