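import Vale.Agent.Lib.P171b.Grid

open MeasureTheory Set Filter Topology Metric
open scoped ENNReal

namespace Vale.Agent.Lib.P171b

/-- Volume of a ball of radius `R`. -/
noncomputable def VR (R : ℝ) : ℝ := (volume (ball (0 : E3) R)).toReal

/-- Unit vector in direction `0`. -/
noncomputable def e0 : E3 := EuclideanSpace.single 0 1

lemma norm_e0 : ‖e0‖ = 1 := by simp [e0]

/-- The Kac profile: the overlap volume of two balls of radius `R` at distance `r`, normalised so
that the total integral is one. -/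
noncomputable def kacP (R r : ℝ) : ℝ :=
  (volume (ball (0 : E3) R ∩ ball (r • e0) R)).toReal / VR R ^ 2

/-- Overlap volume of two balls. -/
noncomputable def ov (R : ℝ) (p q : E3) : ℝ≥0∞ := volume (ball p R ∩ ball q R)

lemma VR_pos {R : ℝ} (hR : 0 < R) : 0 < VR R := by
  unfold VR
  exact ENNReal.toReal_pos (measure_ball_pos _ _ hR).ne' measure_ball_lt_top.ne

lemma volume_ball_eq (p : E3) (R : ℝ) : volume (ball p R) = volume (ball (0 : E3) R) := by
  have : ball p R = (fun y => y + (-p)) ⁻¹' ball (0 : E3) R := by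
    ext y
    simp [dist_eq_norm, sub_eq_add_neg]
  rw [this]
  exact measure_preimage_add_right _ _ _

lemma VR_scale {R a : ℝ} (hR : 0 < R) (ha : 0 ≤ a) :
    VR (R + a) = (1 + a / R) ^ 3 * VR R := by
  unfold VR
  have h1 := Measure.addHaar_ball_of_pos (volume : Measure E3) 0 (by positivity : 0 < R + a)
  have h2 := Measure.addHaar_ball_of_pos (volume : Measure E3) 0 hR
  rw [h1, h2]
  simp only [finrank_euclideanSpace_fin, ENNReal.toReal_mul, ENNReal.toReal_ofReal
    (by positivity : 0 ≤ (R + a) ^ 3), ENNReal.toReal_ofReal (by positivity : 0 ≤ R ^ 3)]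
  have : (1 + a / R) ^ 3 * R ^ 3 = (R + a) ^ 3 := by
    field_simp
  rw [← mul_assoc, this]

/-- Radiality of the overlap volume. -/
lemma ov_eq_profile (R : ℝ) (p q : E3) :
    ov R p q = volume (ball (0 : E3) R ∩ ball (‖p - q‖ • e0) R) := by
  unfold ov
  set v : E3 := q - p with hv
  have h1 : volume (ball p R ∩ ball q R) = volume (ball (0 : E3) R ∩ ball v R) := by
    have : ball p R ∩ ball q R = (fun y => y + (-p)) ⁻¹' (ball (0 : E3) R ∩ ball v R) := by
      ext y
      simp only [mem_inter_iff, mem_ball, mem_preimage, dist_eq_norm, sub_zero, hv]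
      have : y + -p - (q - p) = y - q := by abel
      rw [this, sub_eq_add_neg]
    rw [this]
    exact measure_preimage_add_right _ _ _
  rw [h1]
  set w : E3 := ‖p - q‖ • e0 with hw
  have hnorm : ‖v‖ = ‖w‖ := by
    rw [hw, norm_smul, norm_e0, mul_one, norm_norm, hv, norm_sub_rev]
  set ρ : E3 ≃ₗᵢ[ℝ] E3 := Submodule.reflection (Submodule.span ℝ {v - w})ᗮ with hρ
  have hρv : ρ v = w := Submodule.reflection_sub hnorm
  have hset : ball (0 : E3) R ∩ ball v R = ρ ⁻¹' (ball (0 : E3) R ∩ ball w R) := by
    ext y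
    simp only [mem_inter_iff, mem_ball, mem_preimage, dist_eq_norm, sub_zero]
    rw [← hρv, ← map_sub, LinearIsometryEquiv.norm_map, LinearIsometryEquiv.norm_map]
  rw [hset]
  exact ρ.measurePreserving.measure_preimage
    ((measurableSet_ball).inter (measurableSet_ball)).nullMeasurableSet

lemma kacP_norm (R : ℝ) (p q : E3) : kacP R ‖p - q‖ = (ov R p q).toReal / VR R ^ 2 := by
  unfold kacP
  rw [ov_eq_profile]

lemma kacP_nonneg (R r : ℝ) : 0 ≤ kacP R r := by
  unfold kacP
  positivity

lemma measurable_kacP (R : ℝ) : Measurable (kacP R) := by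
  unfold kacP
  have hset : MeasurableSet {q : ℝ × E3 | q.2 ∈ ball (0 : E3) R ∧ q.2 ∈ ball (q.1 • e0) R} := by
    have : {q : ℝ × E3 | q.2 ∈ ball (0 : E3) R ∧ q.2 ∈ ball (q.1 • e0) R} =
        {q : ℝ × E3 | dist q.2 (0 : E3) < R} ∩ {q : ℝ × E3 | dist q.2 (q.1 • e0) < R} := rfl
    rw [this]
    refine MeasurableSet.inter ?_ ?_
    · exact measurableSet_lt (by fun_prop) measurable_const
    · exact measurableSet_lt (by fun_prop) measurable_const
  have h := measurable_measure_prodMk_left (ν := (volume : Measure E3)) hset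
  have h2 : Measurable (fun r : ℝ => (volume (ball (0 : E3) R ∩ ball (r • e0) R)).toReal) := by
    refine ENNReal.measurable_toReal.comp ?_
    exact h
  exact h2.div_const _

lemma kacP_le (R r : ℝ) : kacP R r ≤ (VR R)⁻¹ := by
  by_cases hR : 0 < R
  · have hV := VR_pos hR
    unfold kacP
    rw [div_le_iff₀ (by positivity)]
    have h1 : (volume (ball (0 : E3) R ∩ ball (r • e0) R)).toReal ≤ VR R :=
      ENNReal.toReal_mono measure_ball_lt_top.ne (measure_mono inter_subset_left)
    have : (VR R)⁻¹ * VR R ^ 2 = VR R := by field_simp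
    rw [this]
    exact h1
  · have : ball (0 : E3) R = ∅ := ball_eq_empty.mpr (not_lt.mp hR)
    simp [kacP, VR, this]

lemma kacP_eq_zero {R r : ℝ} (hr : 2 * R ≤ r) : kacP R r = 0 := by
  unfold kacP
  have : ball (0 : E3) R ∩ ball (r • e0) R = ∅ := by
    by_contra hne
    obtain ⟨y, hy0, hy1⟩ := Set.nonempty_iff_ne_empty.mpr hne
    rw [mem_ball, dist_eq_norm, sub_zero] at hy0
    rw [mem_ball, dist_eq_norm] at hy1
    have h1 : ‖r • e0‖ ≤ ‖y‖ + ‖y - r • e0‖ := by
      have := norm_sub_le y (y - r • e0)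
      simpa using this
    have h2 : ‖r • e0‖ = |r| := by rw [norm_smul, norm_e0, mul_one, Real.norm_eq_abs]
    have h3 := le_abs_self r
    linarith
  simp [this]

lemma kacP_zero {R : ℝ} (hR : 0 < R) : kacP R 0 = (VR R)⁻¹ := by
  have hV := VR_pos hR
  unfold kacP
  simp only [zero_smul, inter_self]
  change VR R / VR R ^ 2 = _
  field_simp

/-- Indicator of a ball, as a function with values in `[0,∞]`. -/
noncomputable def chi (R : ℝ) (p y : E3) : ℝ≥0∞ := (ball p R).indicator 1 y

lemma measurable_chi (R : ℝ) (p : E3) : Measurable (chi R p) :=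
  measurable_one.indicator measurableSet_ball

lemma chi_mul (R : ℝ) (p q y : E3) :
    chi R p y * chi R q y = (ball p R ∩ ball q R).indicator 1 y := by
  unfold chi
  by_cases h1 : y ∈ ball p R <;> by_cases h2 : y ∈ ball q R <;> simp [h1, h2, indicator]

/-- The basic identity: the overlap sum is the square integral of the counting function. -/
lemma sum_ov_eq {n : ℕ} (R : ℝ) (x : Fin n → E3) :
    ∑ i, ∑ j, ov R (x i) (x j) = ∫⁻ y, (∑ i, chi R (x i) y) ^ 2 := by
  have h : ∀ y, (∑ i, chi R (x i) y) ^ 2 = ∑ i, ∑ j, chi R (x i) y * chi R (x j) y := by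
    intro y
    rw [sq, Finset.sum_mul_sum]
  simp only [h]
  have hm : ∀ i j, Measurable (fun y => chi R (x i) y * chi R (x j) y) :=
    fun i j => (measurable_chi R (x i)).mul (measurable_chi R (x j))
  rw [lintegral_finsetSum' (f := fun i y => ∑ j, chi R (x i) y * chi R (x j) y) _
    (fun i _ => (Finset.measurable_sum _ (fun j _ => hm i j)).aemeasurable)]
  refine Finset.sum_congr rfl (fun i _ => ?_)
  rw [lintegral_finsetSum' (f := fun j y => chi R (x i) y * chi R (x j) y) _
    (fun j _ => (hm i j).aemeasurable)]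
  refine Finset.sum_congr rfl (fun j _ => ?_)
  simp only [chi_mul]
  unfold ov
  rw [lintegral_indicator_one (measurableSet_ball.inter measurableSet_ball)]

/-- Symmetric double sum in terms of the pair energy. -/
lemma double_sum_eq {f : E3 → E3 → ℝ} (hs : ∀ p q, f p q = f q p) {n : ℕ} (x : Fin n → E3) :
    ∑ i, ∑ j, f (x i) (x j) = 2 * pairE f x + ∑ i, f (x i) (x i) := by
  rw [pairE_eq_filter]
  have h1 : ∀ i j : Fin n, f (x i) (x j) = (if i < j then f (x i) (x j) else 0) +
      (if j < i then f (x j) (x i) else 0) + (if i = j then f (x i) (x i) else 0) := by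
    intro i j
    rcases lt_trichotomy i j with h | h | h
    · simp [h, h.ne, not_lt_of_gt h]
    · subst h; simp
    · simp [h, h.ne', not_lt_of_gt h, hs (x i) (x j)]
  have h2 : ∑ i, ∑ j, (if j < i then f (x j) (x i) else 0) =
      ∑ i, ∑ j, (if i < j then f (x i) (x j) else 0) := by
    rw [Finset.sum_comm]
  calc ∑ i, ∑ j, f (x i) (x j)
      = ∑ i, ∑ j, ((if i < j then f (x i) (x j) else 0) +
      (if j < i then f (x j) (x i) else 0) + (if i = j then f (x i) (x i) else 0)) :=
        Finset.sum_congr rfl (fun i _ => Finset.sum_congr rfl (fun j _ => h1 i j))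
    _ = _ := by
        simp only [Finset.sum_add_distrib]
        rw [h2]
        simp
        ring

/-- The Kac energy as a double sum of overlap volumes. -/
lemma kac_double_sum {R : ℝ} (hR : 0 < R) {n : ℕ} (x : Fin n → E3) :
    2 * pairE (radK (kacP R)) x + n / VR R =
      (∑ i, ∑ j, (ov R (x i) (x j)).toReal) / VR R ^ 2 := by
  have h := double_sum_eq (radK_symm (kacP R)) x
  have h0 : ∀ i, radK (kacP R) (x i) (x i) = (VR R)⁻¹ := by
    intro i
    simp [radK, kacP_zero hR]
  simp only [h0] at h
  simp only [Finset.sum_const, Finset.card_univ, Fintype.card_fin, nsmul_eq_mul] at h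
  rw [div_eq_mul_inv (n : ℝ), ← h]
  simp only [radK, kacP_norm, Finset.sum_div]

end Vale.Agent.Lib.P171b
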