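import Vale.Agent.Lib.P171b.Kac

open MeasureTheory Set Filter Topology Metric
open scoped ENNReal

namespace Vale.Agent.Lib.P171b

/-- Cauchy-Schwarz over the classes of a map. -/
lemma card_sq_le {ι κ : Type*} [DecidableEq ι] [DecidableEq κ] (T : Finset ι) (f : ι → κ) :
    T.card ^ 2 ≤ (T.image f).card * ∑ i ∈ T, ∑ j ∈ T, (if f i = f j then 1 else 0) := by
  have h1 : T.card = ∑ α ∈ T.image f, (T.filter (fun i => f i = α)).card :=
    Finset.card_eq_sum_card_image f T
  have h2 := sq_sum_le_card_mul_sum_sq (s := T.image f)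
    (f := fun α => (T.filter (fun i => f i = α)).card)
  rw [← h1] at h2
  refine le_trans h2 ?_
  refine Nat.mul_le_mul_left _ (le_of_eq ?_)
  have h3 : ∀ i ∈ T, ∑ j ∈ T, (if f i = f j then 1 else 0) =
      (T.filter (fun j => f j = f i)).card := by
    intro i _
    rw [Finset.card_filter]
    refine Finset.sum_congr rfl (fun j _ => ?_)
    by_cases h : f i = f j
    · simp [h]
    · simp [h, Ne.symm h]
  rw [Finset.sum_congr rfl h3]
  rw [← Finset.sum_fiberwise_of_maps_to (s := T) (t := T.image f) (g := f)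
    (fun i hi => Finset.mem_image_of_mem f hi)]
  refine Finset.sum_congr rfl (fun α _ => ?_)
  have h4 : ∀ i ∈ T.filter (fun i => f i = α), (T.filter (fun j => f j = f i)).card =
      (T.filter (fun i => f i = α)).card := by
    intro i hi
    rw [(Finset.mem_filter.mp hi).2]
  rw [Finset.sum_congr rfl h4]
  simp [sq]

/-- Number of cells close to a point. -/
lemma card_cells_le {ℓ τ R : ℝ} (hℓ : 0 < ℓ) (y : E3) (C : Finset (Fin 3 → ℤ))
    (hC : ∀ α ∈ C, ∃ p, cellMap ℓ τ p = α ∧ p ∈ ball y R) :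
    (C.card : ℝ≥0∞) * ENNReal.ofReal (ℓ ^ 3) ≤ volume (ball (0 : E3) (R + 2 * ℓ)) := by
  have hdisj : ((C : Set (Fin 3 → ℤ))).PairwiseDisjoint (fun α => cellMap ℓ τ ⁻¹' {α}) := by
    intro α _ β _ hne
    refine Set.disjoint_left.mpr ?_
    intro p hp hq
    apply hne
    simp only [mem_preimage, mem_singleton_iff] at hp hq
    rw [← hp, ← hq]
  have h1 := measure_biUnion_finset (μ := (volume : Measure E3)) hdisj
    (fun α _ => measurableSet_cell hℓ α)
  have h2 : ∑ α ∈ C, volume (cellMap ℓ τ ⁻¹' {α}) = (C.card : ℝ≥0∞) * ENNReal.ofReal (ℓ ^ 3) := by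
    simp only [volume_cell hℓ]
    simp
  rw [← h2, ← h1, ← volume_ball_eq y]
  refine measure_mono ?_
  intro z hz
  simp only [mem_iUnion, exists_prop] at hz
  obtain ⟨α, hα, hz⟩ := hz
  obtain ⟨p, hp, hpy⟩ := hC α hα
  have hz' : cellMap ℓ τ z = cellMap ℓ τ p := by
    simp only [mem_preimage, mem_singleton_iff] at hz
    rw [hz, hp]
  have h3 := same_cell_norm_lt hℓ hz'
  rw [mem_ball, dist_eq_norm] at hpy ⊢
  have h4 : ‖z - y‖ ≤ ‖z - p‖ + ‖p - y‖ := by
    have := norm_add_le (z - p) (p - y)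
    simpa using this
  linarith

lemma chi_eq_ite (R : ℝ) (p y : E3) [Decidable (y ∈ ball p R)] :
    chi R p y = if y ∈ ball p R then 1 else 0 := by
  unfold chi
  simp [indicator]

/-- The pointwise inequality behind the coarse-graining bound. -/
lemma chi_sum_sq_le {ℓ τ R : ℝ} (hℓ : 0 < ℓ) {n : ℕ} (x : Fin n → E3) (y : E3) :
    ENNReal.ofReal (ℓ ^ 3) * (∑ i, chi R (x i) y) ^ 2 ≤
      volume (ball (0 : E3) (R + 2 * ℓ)) *
        ∑ i, ∑ j, (if cellMap ℓ τ (x i) = cellMap ℓ τ (x j) then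
          chi R (x i) y * chi R (x j) y else 0) := by
  classical
  set T : Finset (Fin n) := Finset.univ.filter (fun i => y ∈ ball (x i) R) with hT
  set g : Fin n → (Fin 3 → ℤ) := fun i => cellMap ℓ τ (x i) with hg
  have hχ : ∀ i, chi R (x i) y = if i ∈ T then 1 else 0 := by
    intro i
    rw [chi_eq_ite]
    simp [hT]
  have h1 : ∑ i, chi R (x i) y = (T.card : ℝ≥0∞) := by
    simp only [hχ]
    rw [Finset.sum_ite_mem]
    simp
  have h2 : ∑ i, ∑ j, (if cellMap ℓ τ (x i) = cellMap ℓ τ (x j) then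
      chi R (x i) y * chi R (x j) y else 0) =
      ((∑ i ∈ T, ∑ j ∈ T, (if g i = g j then 1 else 0) : ℕ) : ℝ≥0∞) := by
    push_cast
    have h3 : ∀ i j, (if cellMap ℓ τ (x i) = cellMap ℓ τ (x j) then
        chi R (x i) y * chi R (x j) y else 0) =
        (if i ∈ T then (if j ∈ T then (if g i = g j then (1 : ℝ≥0∞) else 0) else 0) else 0) := by
      intro i j
      simp only [hχ, hg]
      by_cases hi : i ∈ T <;> by_cases hj : j ∈ T <;> by_cases hij : cellMap ℓ τ (x i) = cellMap ℓ τ (x j)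
        <;> simp [hi, hj, hij]
    simp only [h3]
    have h7 : ∀ i, (∑ j, if i ∈ T then (if j ∈ T then (if g i = g j then (1 : ℝ≥0∞) else 0) else 0)
        else 0) = if i ∈ T then ∑ j ∈ T, (if g i = g j then (1 : ℝ≥0∞) else 0) else 0 := by
      intro i
      by_cases hi : i ∈ T
      · simp only [hi, if_true]
        rw [Finset.sum_ite_mem]
        simp
      · simp [hi]
    simp only [h7]
    rw [Finset.sum_ite_mem]
    simp
  rw [h1, h2]
  have h4 := card_sq_le T g
  have h5 : ((T.image g).card : ℝ≥0∞) * ENNReal.ofReal (ℓ ^ 3) ≤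
      volume (ball (0 : E3) (R + 2 * ℓ)) := by
    refine card_cells_le (τ := τ) hℓ y (T.image g) ?_
    intro α hα
    obtain ⟨i, hi, rfl⟩ := Finset.mem_image.mp hα
    refine ⟨x i, rfl, ?_⟩
    have := (Finset.mem_filter.mp hi).2
    rwa [mem_ball, dist_comm, ← mem_ball]
  have h6 : ((T.card : ℝ≥0∞)) ^ 2 ≤ ((T.image g).card : ℝ≥0∞) *
      ((∑ i ∈ T, ∑ j ∈ T, (if g i = g j then 1 else 0) : ℕ) : ℝ≥0∞) := by
    exact_mod_cast h4
  calc ENNReal.ofReal (ℓ ^ 3) * (T.card : ℝ≥0∞) ^ 2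
      ≤ ENNReal.ofReal (ℓ ^ 3) * (((T.image g).card : ℝ≥0∞) *
          ((∑ i ∈ T, ∑ j ∈ T, (if g i = g j then 1 else 0) : ℕ) : ℝ≥0∞)) :=
        mul_le_mul' le_rfl h6
    _ = (((T.image g).card : ℝ≥0∞) * ENNReal.ofReal (ℓ ^ 3)) *
          ((∑ i ∈ T, ∑ j ∈ T, (if g i = g j then 1 else 0) : ℕ) : ℝ≥0∞) := by ring
    _ ≤ _ := mul_le_mul' h5 le_rfl

/-- Coarse-graining bound for the overlap sum, in `[0,∞]`. -/
lemma sum_ov_le {ℓ τ R : ℝ} (hℓ : 0 < ℓ) {n : ℕ} (x : Fin n → E3) :
    ENNReal.ofReal (ℓ ^ 3) * ∑ i, ∑ j, ov R (x i) (x j) ≤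
      volume (ball (0 : E3) (R + 2 * ℓ)) * (volume (ball (0 : E3) R) *
        ∑ i, ∑ j, (if cellMap ℓ τ (x i) = cellMap ℓ τ (x j) then 1 else 0)) := by
  rw [sum_ov_eq]
  have hm : ∀ i j, Measurable (fun y => chi R (x i) y * chi R (x j) y) :=
    fun i j => (measurable_chi R (x i)).mul (measurable_chi R (x j))
  have hm2 : Measurable (fun y => (∑ i, chi R (x i) y) ^ 2) :=
    (Finset.measurable_sum _ (fun i _ => measurable_chi R (x i))).pow_const 2
  rw [← lintegral_const_mul _ hm2]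
  have hm3 : Measurable (fun y => ∑ i, ∑ j, (if cellMap ℓ τ (x i) = cellMap ℓ τ (x j) then
      chi R (x i) y * chi R (x j) y else 0)) := by
    refine Finset.measurable_sum _ (fun i _ => Finset.measurable_sum _ (fun j _ => ?_))
    split_ifs
    · exact hm i j
    · exact measurable_const
  calc ∫⁻ y, ENNReal.ofReal (ℓ ^ 3) * (∑ i, chi R (x i) y) ^ 2
      ≤ ∫⁻ y, volume (ball (0 : E3) (R + 2 * ℓ)) *
        ∑ i, ∑ j, (if cellMap ℓ τ (x i) = cellMap ℓ τ (x j) then
          chi R (x i) y * chi R (x j) y else 0) :=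
        lintegral_mono (fun y => chi_sum_sq_le hℓ x y)
    _ = volume (ball (0 : E3) (R + 2 * ℓ)) * ∫⁻ y, ∑ i, ∑ j,
          (if cellMap ℓ τ (x i) = cellMap ℓ τ (x j) then
          chi R (x i) y * chi R (x j) y else 0) := lintegral_const_mul _ hm3
    _ ≤ _ := by
        refine mul_le_mul' le_rfl ?_
        rw [lintegral_finsetSum' (f := fun i y => ∑ j, (if cellMap ℓ τ (x i) = cellMap ℓ τ (x j) then
          chi R (x i) y * chi R (x j) y else 0)) _ ?_]
        · rw [Finset.mul_sum]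
          refine Finset.sum_le_sum (fun i _ => ?_)
          rw [lintegral_finsetSum' (f := fun j y => (if cellMap ℓ τ (x i) = cellMap ℓ τ (x j) then
            chi R (x i) y * chi R (x j) y else 0)) _ ?_]
          · rw [Finset.mul_sum]
            refine Finset.sum_le_sum (fun j _ => ?_)
            split_ifs
            · simp only [chi_mul, mul_one]
              rw [lintegral_indicator_one (measurableSet_ball.inter measurableSet_ball)]
              calc volume (ball (x i) R ∩ ball (x j) R) ≤ volume (ball (x i) R) :=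
                    measure_mono inter_subset_left
                _ = _ := volume_ball_eq _ _
            · simp
          · intro j _
            refine Measurable.aemeasurable ?_
            split_ifs
            · exact hm i j
            · exact measurable_const
        · intro i _
          refine Measurable.aemeasurable ?_
          refine Finset.measurable_sum _ (fun j _ => ?_)
          split_ifs
          · exact hm i j
          · exact measurable_const

/-- Same-cell pair count. -/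
noncomputable def sameE (ℓ τ : ℝ) {n : ℕ} (x : Fin n → E3) : ℝ :=
  pairE (cellK (cellMap ℓ τ) (fun _ _ => (1 : ℝ))) x

lemma sameE_double (ℓ τ : ℝ) {n : ℕ} (x : Fin n → E3) :
    (∑ i, ∑ j, (if cellMap ℓ τ (x i) = cellMap ℓ τ (x j) then (1 : ℝ) else 0)) =
      n + 2 * sameE ℓ τ x := by
  have h := double_sum_eq (cellK_symm (cellMap ℓ τ) (f := fun _ _ => (1 : ℝ)) (fun _ _ => rfl)) x
  simp only [cellK, if_true, Finset.sum_const, Finset.card_univ, Fintype.card_fin,
    nsmul_eq_mul, mul_one] at h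
  unfold sameE
  rw [h]
  ring

/-- Coarse-graining upper bound for the Kac energy. -/
theorem kac_upper {R ℓ : ℝ} (hR : 0 < R) (hℓ : 0 < ℓ) (τ : ℝ) {n : ℕ} (x : Fin n → E3) :
    2 * pairE (radK (kacP R)) x + n / VR R ≤
      (1 + 2 * ℓ / R) ^ 3 / ℓ ^ 3 * (n + 2 * sameE ℓ τ x) := by
  have hV := VR_pos hR
  rw [kac_double_sum hR]
  have h1 := sum_ov_le (τ := τ) (R := R) hℓ x
  have hfin : ∀ i j, ov R (x i) (x j) ≠ ⊤ := fun i j =>
    ((measure_mono inter_subset_left).trans_lt measure_ball_lt_top).ne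
  have hBfin : volume (ball (0 : E3) (R + 2 * ℓ)) ≠ ⊤ := measure_ball_lt_top.ne
  have hVfin : volume (ball (0 : E3) R) ≠ ⊤ := measure_ball_lt_top.ne
  have h2 := ENNReal.toReal_mono (by
    refine ENNReal.mul_ne_top hBfin (ENNReal.mul_ne_top hVfin ?_)
    refine ENNReal.sum_ne_top.mpr (fun i _ => ENNReal.sum_ne_top.mpr (fun j _ => ?_))
    split_ifs <;> simp) h1
  rw [ENNReal.toReal_mul, ENNReal.toReal_mul, ENNReal.toReal_mul, ENNReal.toReal_ofReal (by positivity),
    ENNReal.toReal_sum (fun i _ => ENNReal.sum_ne_top.mpr (fun j _ => hfin i j))] at h2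
  simp only [ENNReal.toReal_sum (fun j _ => hfin _ j)] at h2
  have h3 : (∑ i, ∑ j, (if cellMap ℓ τ (x i) = cellMap ℓ τ (x j) then (1 : ℝ≥0∞) else 0)).toReal =
      (n : ℝ) + 2 * sameE ℓ τ x := by
    rw [← sameE_double]
    rw [ENNReal.toReal_sum (fun i _ => ENNReal.sum_ne_top.mpr (fun j _ => by split_ifs <;> simp))]
    refine Finset.sum_congr rfl (fun i _ => ?_)
    rw [ENNReal.toReal_sum (fun j _ => by split_ifs <;> simp)]
    refine Finset.sum_congr rfl (fun j _ => ?_)
    split_ifs <;> simp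
  rw [h3] at h2
  have hB : (volume (ball (0 : E3) (R + 2 * ℓ))).toReal = (1 + 2 * ℓ / R) ^ 3 * VR R :=
    VR_scale hR (by positivity)
  rw [hB] at h2
  change ℓ ^ 3 * _ ≤ (1 + 2 * ℓ / R) ^ 3 * VR R * (VR R * _) at h2
  rw [div_le_iff₀ (by positivity)]
  have hℓ3 : 0 < ℓ ^ 3 := by positivity
  have : (1 + 2 * ℓ / R) ^ 3 / ℓ ^ 3 * ((n : ℝ) + 2 * sameE ℓ τ x) * VR R ^ 2 =
      ((1 + 2 * ℓ / R) ^ 3 * VR R * (VR R * ((n : ℝ) + 2 * sameE ℓ τ x))) / ℓ ^ 3 := by
    field_simp
  rw [this, le_div_iff₀ hℓ3]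
  linarith

lemma two_mul_le_sq_add (N : ℝ≥0∞) {a : ℝ} (ha : 0 ≤ a) :
    ENNReal.ofReal (2 * a) * N ≤ N ^ 2 + ENNReal.ofReal (a ^ 2) := by
  induction N using ENNReal.recTopCoe with
  | top => simp
  | coe r =>
    have h1 : ((r : ℝ≥0∞)) = ENNReal.ofReal r := (ENNReal.ofReal_coe_nnreal).symm
    rw [h1, ← ENNReal.ofReal_mul (by positivity), ← ENNReal.ofReal_pow (by positivity),
      ← ENNReal.ofReal_add (by positivity) (by positivity)]
    apply ENNReal.ofReal_le_ofReal
    nlinarith [sq_nonneg ((r : ℝ) - a)]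

/-- The lower bound for the Kac energy, from the positivity of `(N - a)²`. -/
theorem kac_lower {R L t : ℝ} (hR : 0 < R) (hL : 0 ≤ L) (ht : 0 ≤ t) {n : ℕ} (x : Fin n → E3)
    (hx : ∀ i, x i ∈ cube L) :
    2 * t * n - t ^ 2 * (L + 2 * R) ^ 3 ≤ 2 * pairE (radK (kacP R)) x + n / VR R := by
  have hV := VR_pos hR
  rw [kac_double_sum hR]
  set a : ℝ := t * VR R with ha
  have ha0 : 0 ≤ a := by positivity
  set w : E3 := WithLp.toLp 2 (fun _ => R) with hw
  set D : Set E3 := (fun p => p + w) ⁻¹' cube (L + 2 * R) with hD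
  have hDm : MeasurableSet D := (measurable_id.add_const w) (measurableSet_cube _)
  have hDvol : volume D = ENNReal.ofReal ((L + 2 * R) ^ 3) := by
    rw [hD, measure_preimage_add_right, volume_cube (by positivity)]
  have hsub : ∀ i, ball (x i) R ⊆ D := by
    intro i y hy j
    obtain ⟨h1, h2⟩ := hx i j
    have h3 : |(y - x i) j| ≤ ‖y - x i‖ := by
      simpa using PiLp.norm_apply_le (y - x i) j
    rw [mem_ball, dist_eq_norm] at hy
    have h4 := lt_of_le_of_lt h3 hy
    rw [abs_lt] at h4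
    simp only [PiLp.sub_apply] at h4
    simp only [PiLp.add_apply, hw, mem_Icc]
    constructor <;> linarith [h4.1, h4.2]
  have hm : Measurable (fun y => ∑ i, chi R (x i) y) :=
    Finset.measurable_sum _ (fun i _ => measurable_chi R (x i))
  have h1 : ∫⁻ y in D, ENNReal.ofReal (2 * a) * ∑ i, chi R (x i) y =
      ENNReal.ofReal (2 * a) * ((n : ℝ≥0∞) * volume (ball (0 : E3) R)) := by
    rw [lintegral_const_mul _ hm, lintegral_finsetSum' _ (fun i _ => (measurable_chi R (x i)).aemeasurable)]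
    congr 1
    have : ∀ i ∈ (Finset.univ : Finset (Fin n)), ∫⁻ y in D, chi R (x i) y = volume (ball (0 : E3) R) := by
      intro i _
      unfold chi
      rw [lintegral_indicator_one₀]
      · rw [Measure.restrict_apply measurableSet_ball, inter_eq_left.mpr (hsub i), volume_ball_eq]
      · exact measurableSet_ball.nullMeasurableSet
    rw [Finset.sum_congr rfl this]
    simp
  have h2 : ∫⁻ y in D, ENNReal.ofReal (2 * a) * ∑ i, chi R (x i) y ≤
      (∑ i, ∑ j, ov R (x i) (x j)) + ENNReal.ofReal (a ^ 2) * ENNReal.ofReal ((L + 2 * R) ^ 3) := by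
    calc ∫⁻ y in D, ENNReal.ofReal (2 * a) * ∑ i, chi R (x i) y
        ≤ ∫⁻ y in D, ((∑ i, chi R (x i) y) ^ 2 + ENNReal.ofReal (a ^ 2)) :=
          lintegral_mono (fun y => two_mul_le_sq_add _ ha0)
      _ = (∫⁻ y in D, (∑ i, chi R (x i) y) ^ 2) + ENNReal.ofReal (a ^ 2) * volume D := by
          rw [lintegral_add_right _ measurable_const, lintegral_const, Measure.restrict_apply_univ]
      _ ≤ (∫⁻ y, (∑ i, chi R (x i) y) ^ 2) + ENNReal.ofReal (a ^ 2) * volume D := by
          refine add_le_add (setLIntegral_le_lintegral _ _) le_rfl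
      _ = _ := by rw [sum_ov_eq, hDvol]
  rw [h1] at h2
  have hfin : ∀ i j, ov R (x i) (x j) ≠ ⊤ := fun i j =>
    ((measure_mono inter_subset_left).trans_lt measure_ball_lt_top).ne
  have h3 := ENNReal.toReal_mono (by
    refine ENNReal.add_ne_top.mpr ⟨?_, by simp [ENNReal.mul_eq_top]⟩
    exact ENNReal.sum_ne_top.mpr (fun i _ => ENNReal.sum_ne_top.mpr (fun j _ => hfin i j))) h2
  rw [ENNReal.toReal_add (ENNReal.sum_ne_top.mpr (fun i _ => ENNReal.sum_ne_top.mpr (fun j _ => hfin i j)))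
    (by simp [ENNReal.mul_eq_top]),
    ENNReal.toReal_sum (fun i _ => ENNReal.sum_ne_top.mpr (fun j _ => hfin i j))] at h3
  simp only [ENNReal.toReal_sum (fun j _ => hfin _ j), ENNReal.toReal_mul,
    ENNReal.toReal_ofReal (by positivity : 0 ≤ 2 * a), ENNReal.toReal_ofReal (by positivity : 0 ≤ a ^ 2),
    ENNReal.toReal_ofReal (by positivity : 0 ≤ (L + 2 * R) ^ 3), ENNReal.toReal_natCast] at h3
  change 2 * a * (n * VR R) ≤ _ at h3
  rw [le_div_iff₀ (by positivity)]
  have h4 : (2 * t * n - t ^ 2 * (L + 2 * R) ^ 3) * VR R ^ 2 =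
      2 * a * (n * VR R) - a ^ 2 * (L + 2 * R) ^ 3 := by
    rw [ha]; ring
  rw [h4]
  linarith

end Vale.Agent.Lib.P171b
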