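import Vale.Agent.Lib.P171b.Final

open MeasureTheory Set Filter Topology
open scoped ENNReal

namespace Vale.Agent.Lib.P171b

lemma exists_seq : ∃ f : ℕ → State, f 0 = ((fun _ => 0), 0, 1) ∧ (∀ k, St k (f k)) ∧
    ∀ k, Rel k (f k) (f (k + 1)) :=
  dep_choice St Rel _ St_zero (fun _ _ h => h.step)

/-- Upper bound for the Kac profile. -/
lemma kacP_le_four {R : ℝ} (hR : 4 ≤ R) (r : ℝ) : kacP R r ≤ (VR 4)⁻¹ := by
  refine (kacP_le R r).trans ?_
  have h1 := VR_scale (R := 4) (a := R - 4) (by norm_num) (by linarith)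
  have h2 : (4 : ℝ) + (R - 4) = R := by ring
  rw [h2] at h1
  have hV := VR_pos (by norm_num : (0 : ℝ) < 4)
  apply inv_anti₀ hV
  rw [h1]
  have h3 : 1 ≤ (1 + (R - 4) / 4) ^ 3 := by
    apply one_le_pow₀
    have : 0 ≤ (R - 4) / 4 := by
      apply div_nonneg <;> linarith
    linarith
  nlinarith

section seq

variable {f : ℕ → State} (hSt : ∀ k, St k (f k)) (hRel : ∀ k, Rel k (f k) (f (k + 1)))

include hSt hRel

lemma W_succ_ge (k : ℕ) (r : ℝ) : (f k).1 r ≤ (f (k + 1)).1 r := by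
  obtain ⟨⟨R, _, hR⟩, _⟩ := hRel k
  rw [hR]
  have : 0 ≤ ck k * kacP R r := mul_nonneg (ck_pos k).le (kacP_nonneg R r)
  linarith

lemma W_mono (r : ℝ) : Monotone (fun k => (f k).1 r) :=
  monotone_nat_of_le_succ (fun k => W_succ_ge hSt hRel k r)

omit hSt in
lemma W_bound (h0 : f 0 = ((fun _ => 0), 0, 1)) (k : ℕ) (r : ℝ) :
    (f k).1 r ≤ (19200 - 19200 / 2 ^ k) * (VR 4)⁻¹ := by
  have hV : 0 ≤ (VR 4)⁻¹ := (inv_pos.mpr (VR_pos (by norm_num))).le
  induction k with
  | zero =>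
    rw [h0]
    norm_num
  | succ k ih =>
    obtain ⟨⟨R, hR4, hR⟩, _⟩ := hRel k
    rw [hR]
    have h1 := kacP_le_four hR4 r
    have h2 : ck k * kacP R r ≤ ck k * (VR 4)⁻¹ := mul_le_mul_of_nonneg_left h1 (ck_pos k).le
    have h3 : (19200 - 19200 / 2 ^ (k + 1)) * (VR 4)⁻¹ =
        (19200 - 19200 / 2 ^ k) * (VR 4)⁻¹ + ck k * (VR 4)⁻¹ := by
      unfold ck
      rw [pow_succ]
      field_simp
      ring
    rw [h3]
    show (f k).1 r + ck k * kacP R r ≤ _
    linarith

end seq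

/-- The limiting attractive part. -/
noncomputable def Winf (f : ℕ → State) (r : ℝ) : ℝ := ⨆ k, (f k).1 r

section seq2

variable {f : ℕ → State} (h0 : f 0 = ((fun _ => 0), 0, 1)) (hSt : ∀ k, St k (f k))
  (hRel : ∀ k, Rel k (f k) (f (k + 1)))

include h0 hSt hRel

lemma W_bdd (r : ℝ) : BddAbove (range (fun k => (f k).1 r)) := by
  refine ⟨19200 * (VR 4)⁻¹, ?_⟩
  rintro _ ⟨k, rfl⟩
  have hV : 0 ≤ (VR 4)⁻¹ := (inv_pos.mpr (VR_pos (by norm_num))).le
  refine (W_bound hRel h0 k r).trans ?_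
  apply mul_le_mul_of_nonneg_right _ hV
  have : 0 ≤ 19200 / (2 : ℝ) ^ k := by positivity
  linarith

lemma W_tendsto (r : ℝ) : Tendsto (fun k => (f k).1 r) atTop (𝓝 (Winf f r)) :=
  tendsto_atTop_ciSup (W_mono hSt hRel r) (W_bdd h0 hSt hRel r)

lemma W_le_Winf (k : ℕ) (r : ℝ) : (f k).1 r ≤ Winf f r :=
  le_ciSup (W_bdd h0 hSt hRel r) k

lemma Winf_nonneg (r : ℝ) : 0 ≤ Winf f r :=
  ((hSt 0).nonneg r).trans (W_le_Winf h0 hSt hRel 0 r)

lemma Winf_le (r : ℝ) : Winf f r ≤ 19200 * (VR 4)⁻¹ := by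
  refine ciSup_le (fun k => ?_)
  have hV : 0 ≤ (VR 4)⁻¹ := (inv_pos.mpr (VR_pos (by norm_num))).le
  refine (W_bound hRel h0 k r).trans ?_
  apply mul_le_mul_of_nonneg_right _ hV
  have : 0 ≤ 19200 / (2 : ℝ) ^ k := by positivity
  linarith

lemma Winf_meas : Measurable (Winf f) := by
  refine measurable_of_tendsto_metrizable (f := fun k => (f k).1) (fun k => (hSt k).meas) ?_
  rw [tendsto_pi_nhds]
  exact W_tendsto h0 hSt hRel

omit h0 hSt in
lemma Adm_diff {k j : ℕ} (hkj : k ≤ j) : Adm (fun r => (f j).1 r - (f k).1 r) (Bud j - Bud k) := by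
  induction j, hkj using Nat.le_induction with
  | base =>
    intro n x
    have e : pairE (radK (fun r => (f k).1 r - (f k).1 r)) x = 0 := by
      simp [pairE, radK]
    rw [e, sub_self, zero_mul]
  | succ j hj ih =>
    obtain ⟨⟨R, hR4, hR⟩, _⟩ := hRel j
    have h1 := Adm_add ih (Adm_smul (ck_pos j).le (Adm_kacP hR4))
    have e1 : (fun r => (f (j + 1)).1 r - (f k).1 r) =
        fun r => ((f j).1 r - (f k).1 r) + ck j * kacP R r := by
      funext r
      rw [hR]
      ring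
    rw [e1, Bud_succ]
    have e2 : Bud j + ck j * 8 - Bud k = Bud j - Bud k + ck j * 8 := by ring
    rw [e2]
    exact h1

lemma Adm_tail (k : ℕ) : Adm (fun r => Winf f r - (f k).1 r) (153600 / 2 ^ k) := by
  refine Adm_of_tendsto (F := atTop) (w := fun j r => (f j).1 r - (f k).1 r) ?_ ?_
  · filter_upwards [eventually_ge_atTop k] with j hj
    refine Adm_mono (Adm_diff hRel hj) ?_
    have h1 := Bud_le j
    have h2 : Bud k = 153600 - 153600 / 2 ^ k := rfl
    linarith
  · intro r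
    exact (W_tendsto h0 hSt hRel r).sub tendsto_const_nhds

lemma Winf_adm : Adm (Winf f) 153600 := by
  refine Adm_of_tendsto (F := atTop) (w := fun j => (f j).1) ?_ (W_tendsto h0 hSt hRel)
  filter_upwards with j
  exact Adm_mono (hSt j).adm (Bud_le j)

lemma Winf_good : Good AA (Winf f) :=
  good_of (Winf_nonneg h0 hSt hRel) (Winf_meas h0 hSt hRel) (Winf_adm h0 hSt hRel) (by norm_num)

/-- The pressures converge uniformly on compact sets. -/
lemma PP_le_Winf (k : ℕ) (μ : ℝ) : PP AA (f k).1 μ ≤ PP AA (Winf f) μ :=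
  PP_mono_w (hSt k).good (Winf_good h0 hSt hRel) (W_le_Winf h0 hSt hRel k) μ

lemma Winf_le_PP (k : ℕ) (μ : ℝ) :
    PP AA (Winf f) μ ≤ PP AA (f k).1 μ + 1 / 2 ^ k * (aQ AA + 16 / AA * μ ^ 2) := by
  set lam : ℝ := 1 / 2 ^ k with hlam
  have hlam0 : 0 ≤ lam := by positivity
  have hlam1 : lam ≤ 1 := by
    rw [hlam, div_le_one (by positivity)]
    exact one_le_pow₀ (by norm_num)
  set u : ℝ → ℝ := fun r => 2 ^ k * (Winf f r - (f k).1 r) with hu
  have hu0 : ∀ r, 0 ≤ u r := by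
    intro r
    have := W_le_Winf h0 hSt hRel k r
    simp only [hu]
    apply mul_nonneg (by positivity)
    linarith
  have hum : Measurable u :=
    ((Winf_meas h0 hSt hRel).sub (hSt k).meas).const_mul _
  have hadm : Adm u 153600 := by
    have h1 := Adm_smul (c := 2 ^ k) (by positivity) (Adm_tail h0 hSt hRel k)
    have e : (2 : ℝ) ^ k * (153600 / 2 ^ k) = 153600 := by
      field_simp
    rw [e] at h1
    exact h1
  have hgood : Good AA (fun r => (f k).1 r + u r) := by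
    refine good_of (fun r => add_nonneg ((hSt k).nonneg r) (hu0 r)) ((hSt k).meas.add hum)
      (Adm_add (hSt k).adm hadm) ?_
    linarith [Bud_le k]
  have hcoup := PP_convex_coupling (hSt k).good hgood hu0 hum hlam0 hlam1 μ
  have e : (fun r => (f k).1 r + lam * u r) = Winf f := by
    funext r
    simp only [hu, hlam]
    field_simp
    ring
  rw [e] at hcoup
  refine hcoup.trans ?_
  have h1 := PP_quad hgood μ
  have h2 := PP_nonneg (hSt k).good μ
  have h3 : lam * PP AA (fun r => (f k).1 r + u r) μ ≤ lam * (aQ AA + 16 / AA * μ ^ 2) :=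
    mul_le_mul_of_nonneg_left h1 hlam0
  nlinarith

lemma Pk_tendsto {x : ℕ → ℝ} {xb : ℝ} (hx : Tendsto x atTop (𝓝 xb)) :
    Tendsto (fun k => PP AA (f k).1 (x k)) atTop (𝓝 (PP AA (Winf f) xb)) := by
  have hG := Winf_good h0 hSt hRel
  have hcont : Continuous (PP AA (Winf f)) := (PP_convexOn hG).locallyLipschitz.continuous
  have h1 : Tendsto (fun k => PP AA (Winf f) (x k)) atTop (𝓝 (PP AA (Winf f) xb)) :=
    hcont.continuousAt.tendsto.comp hx
  have h2 : Tendsto (fun k : ℕ => (1 / 2 : ℝ) ^ k * (aQ AA + 16 / AA * (x k) ^ 2)) atTop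
      (𝓝 (0 * (aQ AA + 16 / AA * xb ^ 2))) := by
    refine Tendsto.mul (tendsto_pow_atTop_nhds_zero_of_lt_one (by norm_num) (by norm_num)) ?_
    exact tendsto_const_nhds.add ((hx.pow 2).const_mul _)
  rw [zero_mul] at h2
  have h3 := h1.sub h2
  rw [sub_zero] at h3
  refine tendsto_of_tendsto_of_tendsto_of_le_of_le h3 h1 (fun k => ?_)
    (fun k => PP_le_Winf h0 hSt hRel k (x k))
  have h4 := Winf_le_PP h0 hSt hRel k (x k)
  have e : (1 / 2 : ℝ) ^ k = 1 / 2 ^ k := by
    rw [one_div_pow]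
  show PP AA (Winf f) (x k) - (1 / 2 : ℝ) ^ k * (aQ AA + 16 / AA * (x k) ^ 2) ≤ _
  rw [e]
  linarith

/-- Quasi-kink at all larger scales. -/
lemma kink_scales {k : ℕ} {h : ℝ} (hh : hk k ≤ h) :
    h / 32 ≤ D2 (PP AA (f k).1) (f k).2.1 h := by
  have h0' := hk_pos k
  have hpos : 0 < h := lt_of_lt_of_le h0' hh
  have h1 := D2_mono_of_convex (PP_convexOn (hSt k).good) (f k).2.1 h0' hh
  have h2 := (hSt k).kink
  have h3 : dk k ≤ D2 (PP AA (f k).1) (f k).2.1 (hk k) / hk k := by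
    rw [le_div_iff₀ h0']
    exact h2
  have h4 := dk_ge k
  have h5 : 1 / 32 ≤ D2 (PP AA (f k).1) (f k).2.1 h / h := by linarith
  rw [le_div_iff₀ hpos] at h5
  linarith

omit h0 hSt in
lemma N_anti : Antitone (fun k => (f k).2.1) := by
  refine antitone_nat_of_succ_le (fun k => ?_)
  have := (hRel k).2
  have := hk_pos k
  linarith

lemma exp_nine : (512 : ℝ) ≤ Real.exp 9 := by
  have h1 : (2 : ℝ) ≤ Real.exp 1 := by
    have := Real.add_one_le_exp (1 : ℝ)
    linarith
  have h2 : Real.exp 9 = Real.exp 1 ^ 9 := by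
    rw [← Real.exp_nat_mul]
    norm_num
  rw [h2]
  calc (512 : ℝ) = 2 ^ 9 := by norm_num
    _ ≤ _ := pow_le_pow_left₀ (by norm_num) h1 9

lemma N_lower_of {k : ℕ} (hk1 : hk k ≤ 1) : -(AA / 4) - 10 ≤ (f k).2.1 := by
  set ν := (f k).2.1 with hν
  have h1 := kink_scales h0 hSt hRel hk1
  unfold D2 at h1
  have hG := (hSt k).good
  have h2 := PP_nonneg hG ν
  have h3 : PP AA (f k).1 (ν - 1) ≤ PP AA (f k).1 (ν + 1) := PP_mono_mu hG (by linarith)
  have h4 : 1 / 64 ≤ PP AA (f k).1 (ν + 1) := by linarith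
  by_contra hcon
  push Not at hcon
  have h5 : ν + 1 + AA / 4 ≤ 0 := by linarith
  have h6 := PP_le_small hG h5
  have h7 : ν + 1 + AA / 4 < -9 := by linarith
  have h8 : Real.exp (ν + 1 + AA / 4) < Real.exp (-9) := Real.exp_lt_exp.mpr h7
  have h9 : Real.exp (-9) ≤ 1 / 512 := by
    rw [Real.exp_neg, one_div]
    exact inv_anti₀ (by norm_num) (exp_nine h0 hSt hRel)
  linarith

lemma N_lower (k : ℕ) : -(AA / 4) - 10 ≤ (f k).2.1 := by
  have h5 : hk (max k 5) ≤ 1 := by
    unfold hk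
    rw [div_le_one (by positivity)]
    have : (2 : ℝ) ^ 5 ≤ 2 ^ (max k 5) :=
      pow_le_pow_right₀ (by norm_num) (le_max_right _ _)
    norm_num at this ⊢
    linarith
  have h6 := N_lower_of h0 hSt hRel h5
  have h7 := N_anti hRel (le_max_left k 5)
  exact h6.trans h7

end seq2

/-- The limiting position of the kink. -/
noncomputable def Nbar (f : ℕ → State) : ℝ := ⨅ k, (f k).2.1

lemma hk_tendsto : Tendsto hk atTop (𝓝 0) := by
  have h1 : Tendsto (fun k : ℕ => 32 * (1 / 2 : ℝ) ^ k) atTop (𝓝 (32 * 0)) :=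
    (tendsto_pow_atTop_nhds_zero_of_lt_one (by norm_num) (by norm_num)).const_mul _
  rw [mul_zero] at h1
  refine h1.congr (fun k => ?_)
  unfold hk
  rw [one_div_pow]
  ring

section seq3

variable {f : ℕ → State} (h0 : f 0 = ((fun _ => 0), 0, 1)) (hSt : ∀ k, St k (f k))
  (hRel : ∀ k, Rel k (f k) (f (k + 1)))

include h0 hSt hRel

lemma N_tendsto : Tendsto (fun k => (f k).2.1) atTop (𝓝 (Nbar f)) := by
  refine tendsto_atTop_ciInf (N_anti hRel) ⟨-(AA / 4) - 10, ?_⟩
  rintro _ ⟨k, rfl⟩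
  exact N_lower h0 hSt hRel k

/-- The kink of the limiting pressure. -/
theorem kink_limit (h : ℝ) (hh : 0 < h) : h / 32 ≤ D2 (PP AA (Winf f)) (Nbar f) h := by
  have hN := N_tendsto h0 hSt hRel
  have t1 := Pk_tendsto h0 hSt hRel (hN.add (tendsto_const_nhds (x := h)))
  have t2 := Pk_tendsto h0 hSt hRel (hN.sub (tendsto_const_nhds (x := h)))
  have t3 := Pk_tendsto h0 hSt hRel hN
  have t4 : Tendsto (fun k => D2 (PP AA (f k).1) (f k).2.1 h) atTop
      (𝓝 (D2 (PP AA (Winf f)) (Nbar f) h)) := by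
    unfold D2
    exact (t1.add t2).sub (t3.const_mul 2)
  refine ge_of_tendsto t4 ?_
  filter_upwards [hk_tendsto.eventually (gt_mem_nhds hh)] with k hk1
  exact kink_scales h0 hSt hRel hk1.le

end seq3

/-- A function with a uniform kink is not differentiable. -/
lemma not_diff_of_kink {g : ℝ → ℝ} {t a : ℝ} (ha : 0 < a) (hk : ∀ h, 0 < h → a * h ≤ D2 g t h) :
    ¬ DifferentiableAt ℝ g t := by
  intro hd
  have hder := hd.hasDerivAt
  have h1 := hder.tendsto_slope_zero_right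
  have h2 := hder.tendsto_slope_zero_left
  have h3 : Tendsto (fun h : ℝ => -h) (𝓝[>] 0) (𝓝[<] 0) := by
    have : Tendsto (fun h : ℝ => -h) (𝓝 0) (𝓝 0) := by
      have := (continuous_neg (G := ℝ)).tendsto 0
      simpa using this
    refine tendsto_nhdsWithin_of_tendsto_nhds_of_eventually_within _
      (this.mono_left nhdsWithin_le_nhds) ?_
    filter_upwards [self_mem_nhdsWithin] with h hh
    simp only [mem_Iio, mem_Ioi] at hh ⊢
    linarith
  have h4 := h2.comp h3
  have h5 := h1.sub h4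
  rw [sub_self] at h5
  have hev : ∀ᶠ h in 𝓝[>] (0 : ℝ), a ≤ h⁻¹ • (g (t + h) - g t) -
      ((fun s => s⁻¹ • (g (t + s) - g t)) ∘ fun h => -h) h := by
    filter_upwards [self_mem_nhdsWithin] with h hh
    have hpos : 0 < h := hh
    have h6 := hk h hpos
    simp only [Function.comp, smul_eq_mul, inv_neg]
    unfold D2 at h6
    have e : t + -h = t - h := by ring
    rw [e]
    have h7 : h⁻¹ * (g (t + h) - g t) - -h⁻¹ * (g (t - h) - g t) =
        h⁻¹ * (g (t + h) + g (t - h) - 2 * g t) := by ring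
    rw [h7]
    rw [← div_eq_inv_mul, le_div_iff₀ hpos]
    exact h6
  have h8 := ge_of_tendsto h5 hev
  linarith

/-- The existence theorem: a stable, tempered, bounded, Borel radial pair potential whose pressure
at inverse temperature one is not differentiable in the activity. -/
theorem exists_phase_transition : ∃ φ : ℝ → ℝ, Measurable φ ∧ (∃ M : ℝ, ∀ r, 0 < r → |φ r| ≤ M) ∧
    IsStablePot φ ∧ IsTemperedPot φ ∧ HasPressureKink φ := by
  obtain ⟨f, h0, hSt, hRel⟩ := exists_seq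
  have hG := Winf_good h0 hSt hRel
  refine ⟨pot AA (Winf f), measurable_pot AA hG.meas, ⟨AA + 19200 * (VR 4)⁻¹, fun r _ => ?_⟩, ?_, ?_, ?_⟩
  · have h1 := Winf_nonneg h0 hSt hRel r
    have h2 := Winf_le h0 hSt hRel r
    have hA := AA_pos
    unfold pot corePot
    rw [abs_le]
    split_ifs <;> constructor <;> linarith
  · refine ⟨AA / 4, fun N x _ => ?_⟩
    have h1 := energy_ge hG x
    have h2 := sameE_nonneg (1 / 2) 0 x
    have h3 : pairEnergy (pot AA (Winf f)) x = pairE (KK AA (Winf f)) x := rfl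
    rw [h3]
    have hA := AA_pos
    have h4 : 0 ≤ AA / 2 * sameE (1 / 2) 0 x := by positivity
    linarith
  · refine ⟨1, 1, 1, one_pos, one_pos, one_pos, fun r hr => ?_⟩
    have h1 := Winf_nonneg h0 hSt hRel r
    have h2 : pot AA (Winf f) r = - Winf f r := by
      unfold pot corePot
      rw [if_neg (not_lt.mpr hr)]
      ring
    rw [h2]
    have h3 : 0 ≤ (1 : ℝ) * r ^ (-3 - 1 : ℝ) := by
      have : 0 < r := by linarith
      positivity
    linarith
  · refine ⟨1, fun z => PP AA (Winf f) (Real.log z), one_pos, fun z hz => ⟨fun L hL => ?_, ?_⟩,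
      Real.exp (Nbar f), Real.exp_pos _, ?_⟩
    · rw [grandZ_eq_ZZ _ hz]
      exact hG.ne_top hL.le _
    · have h1 := tendsto_PP hG (Real.log z)
      refine h1.congr (fun L => ?_)
      unfold lZ
      rw [grandZ_eq_ZZ _ hz]
    · intro hd
      have h1 : DifferentiableAt ℝ (fun z => PP AA (Winf f) (Real.log z)) (Real.exp (Nbar f)) := hd
      have h2 : DifferentiableAt ℝ (fun t => PP AA (Winf f) (Real.log (Real.exp t))) (Nbar f) :=
        DifferentiableAt.comp (g := fun z => PP AA (Winf f) (Real.log z)) (Nbar f) h1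
          Real.differentiableAt_exp
      simp only [Real.log_exp] at h2
      refine not_diff_of_kink (a := 1 / 32) (by norm_num) (fun h hh => ?_) h2
      have h3 := kink_limit h0 hSt hRel h hh
      calc 1 / 32 * h = h / 32 := by ring
        _ ≤ _ := h3

end Vale.Agent.Lib.P171b
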