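import Vale.Agent.Lib.P171b.KacBounds

open MeasureTheory Set Filter Topology Metric
open scoped ENNReal

namespace Vale.Agent.Lib.P171b

/-- The repulsive core of height `A` on `[0,1)`. -/
noncomputable def corePot (A r : ℝ) : ℝ := if r < 1 then A else 0

/-- The potential with core of height `A` and attractive part `-w`. -/
noncomputable def pot (A : ℝ) (w : ℝ → ℝ) (r : ℝ) : ℝ := corePot A r - w r

/-- Kernel of the potential. -/
noncomputable abbrev KK (A : ℝ) (w : ℝ → ℝ) : E3 → E3 → ℝ := radK (pot A w)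

/-- Control of the attractive energy by the number of pairs in cells of mesh `1/2`. -/
def Adm (w : ℝ → ℝ) (C : ℝ) : Prop :=
  ∀ (n : ℕ) (x : Fin n → E3), pairE (radK w) x ≤ C * (n + 2 * sameE (1 / 2) 0 x)

/-- Admissible attractive parts. -/
structure Good (A : ℝ) (w : ℝ → ℝ) : Prop where
  A_pos : 0 < A
  nonneg : ∀ r, 0 ≤ w r
  meas : Measurable w
  adm : Adm w (A / 4)

lemma measurable_corePot (A : ℝ) : Measurable (corePot A) := by
  unfold corePot
  exact Measurable.ite measurableSet_Iio measurable_const measurable_const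

lemma measurable_pot (A : ℝ) {w : ℝ → ℝ} (hw : Measurable w) : Measurable (pot A w) :=
  (measurable_corePot A).sub hw

lemma pairE_sub (f g : E3 → E3 → ℝ) {n : ℕ} (x : Fin n → E3) :
    pairE (fun p q => f p q - g p q) x = pairE f x - pairE g x := by
  unfold pairE
  simp only [Finset.sum_sub_distrib]

lemma pairE_add (f g : E3 → E3 → ℝ) {n : ℕ} (x : Fin n → E3) :
    pairE (fun p q => f p q + g p q) x = pairE f x + pairE g x := by
  unfold pairE
  simp only [Finset.sum_add_distrib]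

lemma pairE_smul (c : ℝ) (f : E3 → E3 → ℝ) {n : ℕ} (x : Fin n → E3) :
    pairE (fun p q => c * f p q) x = c * pairE f x := by
  unfold pairE
  simp only [Finset.mul_sum]

lemma pairE_KK (A : ℝ) (w : ℝ → ℝ) {n : ℕ} (x : Fin n → E3) :
    pairE (KK A w) x = pairE (radK (corePot A)) x - pairE (radK w) x := by
  have : KK A w = fun p q => radK (corePot A) p q - radK w p q := rfl
  rw [this, pairE_sub]

lemma sameE_nonneg (ℓ τ : ℝ) {n : ℕ} (x : Fin n → E3) : 0 ≤ sameE ℓ τ x := by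
  unfold sameE pairE cellK
  refine Finset.sum_nonneg (fun i _ => Finset.sum_nonneg (fun j _ => ?_))
  split_ifs <;> norm_num

lemma core_ge {A : ℝ} (hA : 0 ≤ A) {n : ℕ} (x : Fin n → E3) :
    A * sameE (1 / 2) 0 x ≤ pairE (radK (corePot A)) x := by
  have key : ∀ p q : E3, A * cellK (cellMap (1 / 2) 0) (fun _ _ => (1 : ℝ)) p q ≤
      radK (corePot A) p q := by
    intro p q
    unfold cellK radK corePot
    by_cases h1 : cellMap (1 / 2) 0 p = cellMap (1 / 2) 0 q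
    · rw [if_pos h1, if_pos (same_halfcell_norm_lt h1), mul_one]
    · rw [if_neg h1, mul_zero]
      split_ifs
      · exact hA
      · exact le_rfl
  unfold sameE
  rw [← pairE_smul]
  unfold pairE
  exact Finset.sum_le_sum (fun i _ => Finset.sum_le_sum (fun j _ => key _ _))

lemma core_nonneg {A : ℝ} (hA : 0 ≤ A) {n : ℕ} (x : Fin n → E3) :
    0 ≤ pairE (radK (corePot A)) x := by
  unfold pairE radK corePot
  refine Finset.sum_nonneg (fun i _ => Finset.sum_nonneg (fun j _ => ?_))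
  split_ifs
  · exact hA
  · exact le_rfl

/-- Stability estimate. -/
lemma energy_ge {A : ℝ} {w : ℝ → ℝ} (h : Good A w) {n : ℕ} (x : Fin n → E3) :
    A / 2 * sameE (1 / 2) 0 x - A / 4 * n ≤ pairE (KK A w) x := by
  rw [pairE_KK]
  have h1 := core_ge h.A_pos.le x
  have h2 := h.adm n x
  nlinarith

lemma KMeas_KK {A : ℝ} {w : ℝ → ℝ} (hw : Measurable w) : KMeas (KK A w) :=
  KMeas_radK (measurable_pot A hw)

lemma KK_symm (A : ℝ) (w : ℝ → ℝ) (p q : E3) : KK A w p q = KK A w q p := radK_symm _ p q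

lemma radK_transl (φ : ℝ → ℝ) (v p q : E3) : radK φ (p + v) (q + v) = radK φ p q := by
  simp [radK]

lemma KK_neg {A : ℝ} {w : ℝ → ℝ} (h0 : ∀ r, 0 ≤ w r) (p q : E3) (hpq : 1 ≤ ‖p - q‖) :
    KK A w p q ≤ 0 := by
  change pot A w ‖p - q‖ ≤ 0
  unfold pot corePot
  rw [if_neg (not_lt.mpr hpq)]
  linarith [h0 ‖p - q‖]

/-- The one-cell partition function appearing in the stability bound. -/
noncomputable def Yv (A μ : ℝ) : ℝ≥0∞ := ZZ (cube (1 / 2)) (μ + A / 4) (fun _ _ => A / 2)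

lemma cellK_const (ℓ τ c : ℝ) {n : ℕ} (x : Fin n → E3) :
    pairE (cellK (cellMap ℓ τ) (fun _ _ => c)) x = c * sameE ℓ τ x := by
  unfold sameE
  rw [← pairE_smul]
  unfold pairE cellK
  refine Finset.sum_congr rfl (fun i _ => Finset.sum_congr rfl (fun j _ => ?_))
  by_cases h : cellMap ℓ τ (x i) = cellMap ℓ τ (x j) <;> simp [h]

/-- The stability bound for the grand partition function. -/
theorem ZZ_KK_le {A : ℝ} {w : ℝ → ℝ} (h : Good A w) {L : ℝ} (hL : 0 ≤ L) (μ : ℝ) :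
    ZZ (cube L) μ (KK A w) ≤ Yv A μ ^ ((⌊L / (1 / 2)⌋₊ + 2) ^ 3) := by
  have h1 : ZZ (cube L) μ (KK A w) ≤
      ZZ (cube L) (μ + A / 4) (cellK (cellMap (1 / 2) 0) (fun _ _ => A / 2)) := by
    refine ZZ_le_of_forall (measurableSet_cube L) (fun n x _ => ?_)
    rw [cellK_const]
    have := energy_ge h x
    nlinarith
  refine le_trans h1 ?_
  refine ZZ_cell_le (by norm_num) le_rfl (by norm_num) hL (f := fun _ _ => A / 2)
    (by unfold KMeas; exact measurable_const) (fun _ _ => rfl) (fun _ _ _ => rfl) _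

lemma pairE_const (c : ℝ) {n : ℕ} (x : Fin n → E3) :
    pairE (fun _ _ => c) x = c * ((n : ℝ) * ((n : ℝ) - 1) / 2) := by
  have h := double_sum_eq (f := fun _ _ => c) (fun _ _ => rfl) x
  simp only [Finset.sum_const, Finset.card_univ, Fintype.card_fin, nsmul_eq_mul] at h
  linarith

lemma lintegral_pw_const (S : Set E3) (n : ℕ) (C : ℝ≥0∞) :
    ∫⁻ _, C ∂(pw (volume.restrict S) n) = C * volume S ^ n := by
  rw [lintegral_const]
  congr 1
  rw [pw, Measure.pi_univ]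
  simp

/-- Explicit form of the one-cell partition function. -/
lemma Yv_eq (A μ : ℝ) : Yv A μ = ∑' n : ℕ, (n.factorial : ℝ≥0∞)⁻¹ *
    (ENNReal.ofReal (Real.exp ((μ + A / 4) * n - A / 2 * ((n : ℝ) * ((n : ℝ) - 1) / 2))) *
      ENNReal.ofReal (1 / 8) ^ n) := by
  unfold Yv ZZ GrL
  refine tsum_congr (fun n => ?_)
  congr 1
  have : ∀ x : Fin n → E3, HB (μ + A / 4) (fun _ _ => A / 2) (List.ofFn x) =
      ENNReal.ofReal (Real.exp ((μ + A / 4) * n - A / 2 * ((n : ℝ) * ((n : ℝ) - 1) / 2))) := by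
    intro x
    rw [HB_ofFn, pairE_const]
  simp only [this]
  rw [lintegral_pw_const, volume_cube (by norm_num)]
  norm_num

lemma factorial_inv_le_one (n : ℕ) : (n.factorial : ℝ≥0∞)⁻¹ ≤ 1 := by
  rw [ENNReal.inv_le_one]
  exact_mod_cast Nat.factorial_pos n

/-- Gaussian-type bound for the one-cell partition function. -/
lemma Yv_le {A : ℝ} (hA : 0 < A) (μ : ℝ) :
    Yv A μ ≤ ENNReal.ofReal (Real.exp ((μ + A / 2 + 1) ^ 2 / A)) * 2 := by
  rw [Yv_eq]
  have hgeo : ∑' n : ℕ, ((1 / 2 : ℝ≥0∞)) ^ n = 2 := by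
    rw [ENNReal.tsum_geometric, one_div, ENNReal.one_sub_inv_two, inv_inv]
  rw [← hgeo, ← ENNReal.tsum_mul_left]
  refine ENNReal.tsum_le_tsum (fun n => ?_)
  have h1 : (μ + A / 4) * n - A / 2 * ((n : ℝ) * ((n : ℝ) - 1) / 2) ≤
      (μ + A / 2 + 1) ^ 2 / A + (- n : ℝ) := by
    have hsq : 0 ≤ ((μ + A / 2 + 1) - A * n / 2) ^ 2 / A := by positivity
    have hexp : ((μ + A / 2 + 1) - A * n / 2) ^ 2 / A =
        (μ + A / 2 + 1) ^ 2 / A - (μ + A / 2 + 1) * n + A * n ^ 2 / 4 := by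
      field_simp
      ring
    rw [hexp] at hsq
    nlinarith
  have h2 : ENNReal.ofReal (Real.exp (- n : ℝ)) ≤ (1 / 2 : ℝ≥0∞) ^ n := by
    have h3 : Real.exp (- n : ℝ) ≤ (1 / 2 : ℝ) ^ n := by
      have : Real.exp (- n : ℝ) = Real.exp (-1) ^ n := by
        rw [← Real.exp_nat_mul]; congr 1; ring
      rw [this]
      refine pow_le_pow_left₀ (Real.exp_pos _).le ?_ n
      rw [Real.exp_neg, inv_eq_one_div]
      apply one_div_le_one_div_of_le (by norm_num)
      linarith [Real.add_one_le_exp (1 : ℝ)]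
    calc ENNReal.ofReal (Real.exp (- n : ℝ)) ≤ ENNReal.ofReal ((1 / 2 : ℝ) ^ n) :=
          ENNReal.ofReal_le_ofReal h3
      _ = _ := by
          rw [ENNReal.ofReal_pow (by norm_num)]
          congr 1
          rw [ENNReal.ofReal_div_of_pos (by norm_num)]
          simp
  have h4 : ENNReal.ofReal (1 / 8 : ℝ) ≤ 1 := by
    rw [ENNReal.ofReal_le_one]; norm_num
  calc (n.factorial : ℝ≥0∞)⁻¹ * (ENNReal.ofReal (Real.exp ((μ + A / 4) * n - A / 2 * ((n : ℝ) * ((n : ℝ) - 1) / 2))) *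
        ENNReal.ofReal (1 / 8) ^ n)
      ≤ 1 * (ENNReal.ofReal (Real.exp ((μ + A / 2 + 1) ^ 2 / A + (- n : ℝ))) * 1) := by
        refine mul_le_mul' (factorial_inv_le_one n) (mul_le_mul' ?_ (pow_le_one' h4 n))
        exact ENNReal.ofReal_le_ofReal (Real.exp_le_exp.mpr h1)
    _ = ENNReal.ofReal (Real.exp ((μ + A / 2 + 1) ^ 2 / A)) * ENNReal.ofReal (Real.exp (- n : ℝ)) := by
        rw [Real.exp_add, ENNReal.ofReal_mul (Real.exp_pos _).le]
        ring
    _ ≤ _ := mul_le_mul' le_rfl h2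

/-- Small-activity bound for the one-cell partition function. -/
lemma Yv_le_small {A μ : ℝ} (hA : 0 < A) (hμ : μ + A / 4 ≤ 0) :
    Yv A μ ≤ 1 + ENNReal.ofReal (Real.exp (μ + A / 4)) := by
  rw [Yv_eq, tsum_eq_zero_add' ENNReal.summable]
  refine add_le_add ?_ ?_
  · simp
  · have hgeo : ∑' n : ℕ, ((1 / 2 : ℝ≥0∞)) ^ n = 2 := by
      rw [ENNReal.tsum_geometric, one_div, ENNReal.one_sub_inv_two, inv_inv]
    have h18 : ENNReal.ofReal (1 / 8 : ℝ) = (1 / 2 : ℝ≥0∞) * (1 / 4 : ℝ≥0∞) := by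
      rw [show (1 / 8 : ℝ) = (1 / 2) * (1 / 4) by norm_num, ENNReal.ofReal_mul (by norm_num),
        ENNReal.ofReal_div_of_pos (by norm_num), ENNReal.ofReal_div_of_pos (by norm_num)]
      simp
    have hle : ∀ n : ℕ, (((n + 1).factorial : ℕ) : ℝ≥0∞)⁻¹ *
        (ENNReal.ofReal (Real.exp ((μ + A / 4) * ((n + 1 : ℕ) : ℝ) - A / 2 *
          (((n + 1 : ℕ) : ℝ) * (((n + 1 : ℕ) : ℝ) - 1) / 2))) * ENNReal.ofReal (1 / 8) ^ (n + 1)) ≤
        ENNReal.ofReal (Real.exp (μ + A / 4)) * ((1 / 2 : ℝ≥0∞) * (1 / 2 : ℝ≥0∞) ^ n) := by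
      intro n
      have h1 : (μ + A / 4) * ((n + 1 : ℕ) : ℝ) - A / 2 *
          (((n + 1 : ℕ) : ℝ) * (((n + 1 : ℕ) : ℝ) - 1) / 2) ≤ μ + A / 4 := by
        push_cast
        have hn : (0 : ℝ) ≤ n := Nat.cast_nonneg n
        nlinarith [mul_nonneg hn hn, mul_nonneg hA.le (mul_nonneg hn hn), mul_nonneg hA.le hn,
          mul_nonneg (neg_nonneg.mpr hμ) hn]
      have h2 : ENNReal.ofReal (1 / 8) ^ (n + 1) ≤ (1 / 2 : ℝ≥0∞) * (1 / 2 : ℝ≥0∞) ^ n := by
        have h3 : ENNReal.ofReal (1 / 8) ≤ (1 / 2 : ℝ≥0∞) := by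
          rw [h18]
          calc (1 / 2 : ℝ≥0∞) * (1 / 4 : ℝ≥0∞) ≤ (1 / 2 : ℝ≥0∞) * 1 :=
                mul_le_mul' le_rfl (by
                  rw [ENNReal.div_le_iff (by norm_num) (by norm_num)]; norm_num)
            _ = _ := mul_one _
        calc _ ≤ (1 / 2 : ℝ≥0∞) ^ (n + 1) := pow_le_pow_left' h3 _
          _ = _ := by rw [pow_succ']
      calc _ ≤ 1 * (ENNReal.ofReal (Real.exp (μ + A / 4)) * ((1 / 2 : ℝ≥0∞) * (1 / 2 : ℝ≥0∞) ^ n)) :=
            mul_le_mul' (factorial_inv_le_one _)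
              (mul_le_mul' (ENNReal.ofReal_le_ofReal (Real.exp_le_exp.mpr h1)) h2)
        _ = _ := one_mul _
    calc _ ≤ ∑' n : ℕ, ENNReal.ofReal (Real.exp (μ + A / 4)) * ((1 / 2 : ℝ≥0∞) * (1 / 2 : ℝ≥0∞) ^ n) :=
          ENNReal.tsum_le_tsum (fun n => hle n)
      _ = ENNReal.ofReal (Real.exp (μ + A / 4)) := by
          rw [ENNReal.tsum_mul_left, ENNReal.tsum_mul_left, hgeo]
          have : (1 / 2 : ℝ≥0∞) * 2 = 1 := by
            rw [one_div]; exact ENNReal.inv_mul_cancel (by norm_num) (by norm_num)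
          rw [this, mul_one]

lemma Yv_ne_top {A : ℝ} (hA : 0 < A) (μ : ℝ) : Yv A μ ≠ ⊤ :=
  ne_top_of_le_ne_top (by simp [ENNReal.mul_eq_top]) (Yv_le hA μ)

end Vale.Agent.Lib.P171b
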