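import Vale.Agent.Lib.P171b.Xi
import Vale.Agent.Lib.P171b.Convex1D

open MeasureTheory Set Filter Topology
open scoped ENNReal

namespace Vale.Agent.Lib.P171b

/-- The constant in the quadratic bound for the pressure. -/
noncomputable def aQ (A : ℝ) : ℝ := 8 * (Real.log 2 + 2 * (A / 2 + 1) ^ 2 / A)

lemma aQ_nonneg {A : ℝ} (hA : 0 < A) : 0 ≤ aQ A := by
  unfold aQ
  have := Real.log_nonneg (by norm_num : (1 : ℝ) ≤ 2)
  positivity

lemma PP_quad {A : ℝ} {w : ℝ → ℝ} (h : Good A w) (μ : ℝ) : PP A w μ ≤ aQ A + 16 / A * μ ^ 2 := by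
  have hA := h.A_pos
  refine (PP_le_quad h μ).trans ?_
  unfold aQ
  have h1 : (μ + A / 2 + 1) ^ 2 ≤ 2 * μ ^ 2 + 2 * (A / 2 + 1) ^ 2 := by
    nlinarith [sq_nonneg (μ - (A / 2 + 1))]
  have h2 : (μ + A / 2 + 1) ^ 2 / A ≤ (2 * μ ^ 2 + 2 * (A / 2 + 1) ^ 2) / A :=
    div_le_div_of_nonneg_right h1 hA.le
  have h3 : (2 * μ ^ 2 + 2 * (A / 2 + 1) ^ 2) / A = 2 * (A / 2 + 1) ^ 2 / A + 2 * μ ^ 2 / A := by
    field_simp
    ring
  have h4 : 16 / A * μ ^ 2 = 8 * (2 * μ ^ 2 / A) := by ring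
  rw [h4]
  linarith

/-- The pressure belongs to the class `CF`. -/
lemma CF_PP {A : ℝ} {w : ℝ → ℝ} (h : Good A w) : CF (PP A w) (aQ A) (16 / A) :=
  ⟨PP_convexOn h, fun _ _ hxy => PP_mono_mu h hxy, PP_nonneg h, PP_quad h,
    div_nonneg (by norm_num) h.A_pos.le⟩

/-! ### The lower bound -/

lemma lZ_lower {A c R L μ t : ℝ} {w : ℝ → ℝ} (hG' : Good A (fun r => w r + c * kacP R r))
    (hc : 0 < c) (hR : 0 < R) (hL : 0 ≤ L) (ht : 0 ≤ t) :
    lZ L (μ + c * t - c / (2 * VR R)) (KK A w) ≤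
      c / 2 * t ^ 2 * (L + 2 * R) ^ 3 + lZ L μ (KK A (fun r => w r + c * kacP R r)) := by
  have h1 : ZZ (cube L) (μ + c * t - c / (2 * VR R)) (KK A w) ≤
      ENNReal.ofReal (Real.exp (c / 2 * t ^ 2 * (L + 2 * R) ^ 3)) *
        ZZ (cube L) μ (KK A (fun r => w r + c * kacP R r)) := by
    refine ZZ_le_of_forall_const (measurableSet_cube L) (fun n x hx => ?_)
    have h2 := kac_lower hR hL ht x hx
    have h3 : pairE (KK A (fun r => w r + c * kacP R r)) x =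
        pairE (KK A w) x - c * pairE (radK (kacP R)) x := by
      rw [pairE_KK, pairE_KK, ← pairE_smul, sub_sub, ← pairE_add]
      rfl
    rw [h3]
    have hV := VR_pos hR
    have h4 := mul_le_mul_of_nonneg_left h2 (by positivity : 0 ≤ c / 2)
    have h5 : c / 2 * (2 * pairE (radK (kacP R)) x + n / VR R) =
        c * pairE (radK (kacP R)) x + c / (2 * VR R) * n := by
      field_simp
    rw [h5] at h4
    have h6 : c / 2 * (2 * t * n - t ^ 2 * (L + 2 * R) ^ 3) =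
        c * t * n - c / 2 * t ^ 2 * (L + 2 * R) ^ 3 := by ring
    rw [h6] at h4
    have h7 : (μ + c * t - c / (2 * VR R)) * n = μ * n + c * t * n - c / (2 * VR R) * n := by ring
    rw [h7]
    linarith
  have hne := hG'.ne_top hL μ
  have hmulne : ENNReal.ofReal (Real.exp (c / 2 * t ^ 2 * (L + 2 * R) ^ 3)) *
      ZZ (cube L) μ (KK A (fun r => w r + c * kacP R r)) ≠ ⊤ :=
    ENNReal.mul_ne_top ENNReal.ofReal_ne_top hne
  have h2 := ENNReal.toReal_mono hmulne h1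
  rw [ENNReal.toReal_mul, ENNReal.toReal_ofReal (Real.exp_pos _).le] at h2
  have h1ne : ZZ (cube L) (μ + c * t - c / (2 * VR R)) (KK A w) ≠ ⊤ := ne_top_of_le_ne_top hmulne h1
  have hpos := lt_of_lt_of_le one_pos (toReal_ZZ_ge_one h1ne)
  have hpos2 := lt_of_lt_of_le one_pos (toReal_ZZ_ge_one hne)
  have h3 := Real.log_le_log hpos h2
  rw [Real.log_mul (Real.exp_pos _).ne' hpos2.ne', Real.log_exp] at h3
  exact h3

theorem PP_lower {A c R μ t : ℝ} {w : ℝ → ℝ} (hG : Good A w)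
    (hG' : Good A (fun r => w r + c * kacP R r)) (hc : 0 < c) (hR : 0 < R) (ht : 0 ≤ t) :
    PP A w (μ + c * t - c / (2 * VR R)) - c / 2 * t ^ 2 ≤
      PP A (fun r => w r + c * kacP R r) μ := by
  have hlim1 := tendsto_PP hG (μ + c * t - c / (2 * VR R))
  have hlim2 := tendsto_PP hG' μ
  have hlim3 : Tendsto (fun L : ℝ => c / 2 * t ^ 2 * (1 + 2 * R * L⁻¹) ^ 3) atTop
      (𝓝 (c / 2 * t ^ 2 * (1 + 2 * R * 0) ^ 3)) := by
    refine Tendsto.const_mul _ (Tendsto.pow ?_ 3)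
    exact tendsto_const_nhds.add (tendsto_inv_atTop_zero.const_mul _)
  have hval : c / 2 * t ^ 2 * (1 + 2 * R * 0) ^ 3 = c / 2 * t ^ 2 := by
    rw [mul_zero, add_zero, one_pow, mul_one]
  rw [hval] at hlim3
  have hle : PP A w (μ + c * t - c / (2 * VR R)) ≤
      c / 2 * t ^ 2 + PP A (fun r => w r + c * kacP R r) μ := by
    refine le_of_tendsto_of_tendsto hlim1 (hlim3.add hlim2) ?_
    filter_upwards [eventually_gt_atTop 0] with L hL
    have h1 := lZ_lower (μ := μ) hG' hc hR hL.le ht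
    have hL3 : 0 < (L ^ 3)⁻¹ := by positivity
    have h2 := mul_le_mul_of_nonneg_left h1 hL3.le
    refine h2.trans (le_of_eq ?_)
    field_simp
  linarith

/-- The lower bound in terms of the sup-convolution. -/
theorem TT_le_PP {A c R μ : ℝ} {w : ℝ → ℝ} (hG : Good A w)
    (hG' : Good A (fun r => w r + c * kacP R r)) (hc : 0 < c) (hR : 0 < R) :
    TT c (PP A w) (μ - c / (2 * VR R)) ≤ PP A (fun r => w r + c * kacP R r) μ := by
  refine ciSup_le (fun y => ?_)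
  have key : ∀ y, 0 ≤ y → PP A w (μ - c / (2 * VR R) + y) - y ^ 2 / (2 * c) ≤
      PP A (fun r => w r + c * kacP R r) μ := by
    intro y hy
    have h1 := PP_lower (μ := μ) (t := y / c) hG hG' hc hR (by positivity)
    have h2 : μ + c * (y / c) - c / (2 * VR R) = μ - c / (2 * VR R) + y := by
      field_simp
      ring
    have h3 : c / 2 * (y / c) ^ 2 = y ^ 2 / (2 * c) := by
      field_simp
    rw [h2, h3] at h1
    exact h1
  rcases le_total 0 y with hy | hy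
  · exact key y hy
  · have h1 := key 0 le_rfl
    have h2 : PP A w (μ - c / (2 * VR R) + y) ≤ PP A w (μ - c / (2 * VR R) + 0) :=
      PP_mono_mu hG (by linarith)
    have h3 : 0 ≤ y ^ 2 / (2 * c) := by positivity
    have h4 : (0 : ℝ) ^ 2 / (2 * c) = 0 := by simp
    rw [h4] at h1
    linarith

lemma tendsto_VR : Tendsto VR atTop atTop := by
  have h1 : ∀ᶠ R in atTop, R ^ 3 * VR 1 = VR R := by
    filter_upwards [eventually_ge_atTop 1] with R hR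
    have h2 := VR_scale (R := 1) (a := R - 1) one_pos (by linarith)
    have h3 : (1 : ℝ) + (R - 1) = R := by ring
    have h4 : 1 + (R - 1) / 1 = R := by ring
    rw [h3, h4] at h2
    exact h2.symm
  refine Tendsto.congr' h1 ?_
  exact (tendsto_pow_atTop (by norm_num : (3 : ℕ) ≠ 0)).atTop_mul_const (VR_pos one_pos)

/-! ### The upper bound -/

/-- Upper bound at fixed values of the parameters. -/
theorem PP_upper_param {A ρ c R μ ε Gs : ℝ} {m : ℕ} (hm : 3 < m) (hρ : 0 < ρ) (hc : 0 < c)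
    (hR : 0 < R) (hε : 0 < ε) {w : ℝ → ℝ} (hG' : Good A (fun r => w r + c * kacP R r))
    (hθ : Good A (fun r => w r + 3 / ((m : ℝ) - 3) * w r))
    (h0 : ∀ r, 0 ≤ w r) (hrange : ∀ r, ρ ≤ r → w r = 0) (hw : Measurable w)
    (hG : ∀ y, 0 ≤ y → ((m * ρ + 1) / (m * ρ)) ^ 3 *
        PP A (fun r => w r + 3 / ((m : ℝ) - 3) * w r) (μ + y) -
        y ^ 2 / (2 * (c * (1 + 2 * (m * ρ) / R) ^ 3 * (1 + ε))) ≤ Gs) :
    PP A (fun r => w r + c * kacP R r) μ ≤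
      ((m * ρ) ^ 3)⁻¹ * Real.log (1 + 1 / ((c * (1 + 2 * (m * ρ) / R) ^ 3 / (m * ρ) ^ 3) * ε / 2)) +
        Gs := by
  have hm0 : (0 : ℝ) < m := by
    have : 0 < m := by omega
    exact_mod_cast this
  have hℓ : 0 < (m : ℝ) * ρ := by positivity
  set ℓ := (m : ℝ) * ρ with hℓdef
  set wθ : ℝ → ℝ := fun r => w r + 3 / ((m : ℝ) - 3) * w r with hwθ
  set κ := (1 + 2 * ℓ / R) ^ 3 with hκ
  have hκpos : 0 < κ := by positivity
  set e := c * κ / ℓ ^ 3 with he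
  have hepos : 0 < e := by positivity
  have hA := hG'.A_pos
  have hGs0 : 0 ≤ Gs := by
    have h1 := hG 0 le_rfl
    have h2 := PP_nonneg hθ (μ + 0)
    have h3 : (0 : ℝ) ^ 2 / (2 * (c * κ * (1 + ε))) = 0 := by simp
    rw [h3] at h1
    have h4 : 0 ≤ ((ℓ + 1) / ℓ) ^ 3 * PP A wθ (μ + 0) := by positivity
    linarith
  set θ₀ := e * ε / 2 with hθ₀
  have hθ₀pos : 0 < θ₀ := by positivity
  set Gl := ℓ ^ 3 * Gs with hGl
  have hGlnn : 0 ≤ Gl := by positivity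
  set X := (1 + 1 / θ₀) * Real.exp Gl with hX
  have hX1 : 1 ≤ X := by
    have h1 : 1 ≤ 1 + 1 / θ₀ := by
      have : 0 < 1 / θ₀ := by positivity
      linarith
    have h2 : 1 ≤ Real.exp Gl := Real.one_le_exp hGlnn
    rw [hX]
    nlinarith
  have hXi := Xi_le hθ (ℓ := ℓ) (e := e) (ε := ε) (Gl := Gl) (μ := μ) hℓ hepos hε (by
    intro y hy
    have h1 := hG y hy
    have h2 := mul_le_mul_of_nonneg_left h1 (by positivity : 0 ≤ ℓ ^ 3)
    have h3 : ℓ ^ 3 * (((ℓ + 1) / ℓ) ^ 3 * PP A wθ (μ + y) - y ^ 2 / (2 * (c * κ * (1 + ε)))) =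
        (ℓ + 1) ^ 3 * PP A wθ (μ + y) - y ^ 2 / (2 * (e * (1 + ε))) := by
      rw [he]
      field_simp
    rw [h3] at h2
    exact h2)
  have hofX : ENNReal.ofReal (1 + 1 / θ₀) * ENNReal.ofReal (Real.exp Gl) = ENNReal.ofReal X := by
    rw [hX, ENNReal.ofReal_mul (by positivity)]
  rw [hofX] at hXi
  have hb : ∀ L, 0 < L → ZZ (cube L) μ (KK A (fun r => w r + c * kacP R r)) ≤
      ENNReal.ofReal (m : ℝ) * ENNReal.ofReal X ^ ((⌊L / ℓ⌋₊ + 2) ^ 3) := by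
    intro L hL
    have h1 := ZZ_grid_le hA.le hρ hm hc hR h0 hrange hw μ hL.le
    refine h1.trans ?_
    have h2 : ((m : ℝ≥0∞)) = ENNReal.ofReal (m : ℝ) := (ENNReal.ofReal_natCast m).symm
    rw [h2]
    refine mul_le_mul_right (pow_le_pow_left₀ _root_.zero_le hXi _) _
  have hfin := PP_le_of_cell hG' hℓ hm0 hX1 hb
  refine hfin.trans (le_of_eq ?_)
  rw [hX, Real.log_mul (by positivity) (Real.exp_pos _).ne', Real.log_exp, hGl, mul_add]
  congr 1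
  field_simp

lemma tendsto_log_aux {K : ℝ} (hK : 0 < K) :
    Tendsto (fun X : ℝ => X⁻¹ * Real.log (1 + K * X)) atTop (𝓝 0) := by
  have h1 : Tendsto (fun u : ℝ => Real.log u / u) atTop (𝓝 0) :=
    Real.isLittleO_log_id_atTop.tendsto_div_nhds_zero
  have h2 : Tendsto (fun X : ℝ => 1 + K * X) atTop atTop :=
    tendsto_atTop_add_const_left _ _ (tendsto_id.const_mul_atTop hK)
  have h3 := h1.comp h2
  have h4 : Tendsto (fun X : ℝ => X⁻¹ + K) atTop (𝓝 (0 + K)) :=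
    tendsto_inv_atTop_zero.add tendsto_const_nhds
  have h5 := h3.mul h4
  rw [zero_mul] at h5
  refine h5.congr' ?_
  filter_upwards [eventually_gt_atTop 0] with X hX
  have hu : 0 < 1 + K * X := by positivity
  simp only [Function.comp]
  field_simp

lemma exists_m {ρ η K δ : ℝ} (hρ : 0 < ρ) (hη : 0 < η) (hK : 0 < K) (hδ : 0 < δ) :
    ∃ m : ℕ, 6 ≤ m ∧ (((m : ℝ) * ρ + 1) / (m * ρ)) ^ 3 * (1 + 3 / ((m : ℝ) - 3)) - 1 ≤ η ∧
      (((m : ℝ) * ρ) ^ 3)⁻¹ * Real.log (1 + K * ((m : ℝ) * ρ) ^ 3) ≤ δ := by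
  have t0 : Tendsto (fun m : ℕ => (m : ℝ) * ρ) atTop atTop :=
    tendsto_natCast_atTop_atTop.atTop_mul_const hρ
  have t1 : Tendsto (fun m : ℕ => ((m : ℝ) * ρ)⁻¹) atTop (𝓝 0) :=
    tendsto_inv_atTop_zero.comp t0
  have t2 : Tendsto (fun m : ℕ => 3 / ((m : ℝ) - 3)) atTop (𝓝 0) :=
    Tendsto.const_div_atTop (tendsto_atTop_add_const_right _ _ tendsto_natCast_atTop_atTop) _
  have t3 : Tendsto (fun m : ℕ => (1 + ((m : ℝ) * ρ)⁻¹) ^ 3 * (1 + 3 / ((m : ℝ) - 3)) - 1) atTop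
      (𝓝 ((1 + 0) ^ 3 * (1 + 0) - 1)) :=
    (((tendsto_const_nhds.add t1).pow 3).mul (tendsto_const_nhds.add t2)).sub tendsto_const_nhds
  have hv : ((1 : ℝ) + 0) ^ 3 * (1 + 0) - 1 = 0 := by norm_num
  rw [hv] at t3
  have t4 : Tendsto (fun m : ℕ => ((m : ℝ) * ρ) ^ 3) atTop atTop :=
    (tendsto_pow_atTop (by norm_num : (3 : ℕ) ≠ 0)).comp t0
  have t5 := (tendsto_log_aux hK).comp t4
  have e1 := t3.eventually (gt_mem_nhds hη)
  have e2 := t5.eventually (gt_mem_nhds hδ)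
  obtain ⟨m, hm⟩ := (e1.and (e2.and ((eventually_ge_atTop 6)))).exists
  obtain ⟨h1, h2, h3⟩ := hm
  refine ⟨m, h3, ?_, h2.le⟩
  have hm0 : (0 : ℝ) < m := by
    have : 0 < m := by omega
    exact_mod_cast this
  have e3 : ((m : ℝ) * ρ + 1) / (m * ρ) = 1 + ((m : ℝ) * ρ)⁻¹ := by
    field_simp
  rw [e3]
  exact h1.le

/-- Comparison of the perturbed variational problem with the one defining `TT`. -/
lemma term_le {F G d η η₀ T₀ M yy : ℝ} (hη : 0 ≤ η) (hη₀ : 0 < η₀) (hle : η ≤ η₀)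
    (hT0 : 0 ≤ T₀) (h1 : F - d * yy ≤ T₀) (h2 : F + η₀ * G - (d - η₀) * yy ≤ M) :
    F + η * G - (d - η) * yy ≤ T₀ + η / η₀ * M := by
  set lam := η / η₀ with hlam
  have hlam0 : 0 ≤ lam := by positivity
  have hlam1 : lam ≤ 1 := by
    rw [hlam, div_le_one hη₀]
    exact hle
  have hlam2 : η = lam * η₀ := by
    rw [hlam]
    field_simp
  have e : F + η * G - (d - η) * yy =
      (1 - lam) * (F - d * yy) + lam * (F + η₀ * G - (d - η₀) * yy) := by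
    rw [hlam2]
    ring
  rw [e]
  have h3 := mul_le_mul_of_nonneg_left h1 (by linarith : 0 ≤ 1 - lam)
  have h4 := mul_le_mul_of_nonneg_left h2 hlam0
  nlinarith

lemma real_step1 {F G P s q η : ℝ} (hF : 0 ≤ F) (hG : 0 ≤ G) (hFG : F ≤ G) (hs0 : 0 ≤ s)
    (hP : P ≤ (1 - s) * F + s * G) (hq : 1 ≤ q) (hm : q * (1 + s) - 1 ≤ η) :
    q * P ≤ F + η * G := by
  have h2 : P ≤ F + s * G := by
    have : 0 ≤ s * F := by positivity
    linarith
  have h3 := mul_le_mul_of_nonneg_left h2 (by linarith : 0 ≤ q)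
  have h4 : (q - 1) * F ≤ (q - 1) * G := mul_le_mul_of_nonneg_left hFG (by linarith)
  have h5 : (q * (1 + s) - 1) * G ≤ η * G := mul_le_mul_of_nonneg_right hm hG
  have e1 : q * (F + s * G) = F + (q - 1) * F + q * s * G := by ring
  have e2 : (q * (1 + s) - 1) * G = (q - 1) * G + q * s * G := by ring
  linarith

lemma real_step2 {c κ ε η y : ℝ} (hc : 0 < c) (hε : 0 < ε) (hκ : κ ≤ 1 + ε) (hκ1 : 1 ≤ κ)
    (hεη : ε ≤ η * c) : (1 / (2 * c) - η) * y ^ 2 ≤ y ^ 2 / (2 * (c * κ * (1 + ε))) := by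
  have hκpos : 0 < κ := by linarith
  have h2 : c * κ * (1 + ε) ≤ c * (1 + ε) ^ 2 := by
    have : c * κ * (1 + ε) ≤ c * (1 + ε) * (1 + ε) := by
      apply mul_le_mul_of_nonneg_right _ (by linarith)
      apply mul_le_mul_of_nonneg_left hκ hc.le
    calc _ ≤ _ := this
      _ = _ := by ring
  have h3 : y ^ 2 / (2 * (c * (1 + ε) ^ 2)) ≤ y ^ 2 / (2 * (c * κ * (1 + ε))) := by
    apply div_le_div_of_nonneg_left (sq_nonneg y) (by positivity)
    linarith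
  refine le_trans ?_ h3
  rw [le_div_iff₀ (by positivity)]
  have h4 : (1 / (2 * c) - η) * (2 * (c * (1 + ε) ^ 2)) ≤ 1 := by
    have h5 : (1 / (2 * c) - η) * (2 * (c * (1 + ε) ^ 2)) =
        (1 + ε) ^ 2 * (1 - 2 * η * c) := by
      field_simp
    rw [h5]
    have h6 : 1 - 2 * η * c ≤ 1 - 2 * ε := by linarith
    have h7 : (1 + ε) ^ 2 * (1 - 2 * ε) ≤ 1 := by nlinarith [sq_nonneg ε, pow_pos hε 3]
    have h8 : (1 + ε) ^ 2 * (1 - 2 * η * c) ≤ (1 + ε) ^ 2 * (1 - 2 * ε) :=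
      mul_le_mul_of_nonneg_left h6 (by positivity)
    linarith
  have h9 := mul_le_mul_of_nonneg_left h4 (sq_nonneg y)
  calc _ = y ^ 2 * ((1 / (2 * c) - η) * (2 * (c * (1 + ε) ^ 2))) := by ring
    _ ≤ _ := h9
    _ = _ := by ring

lemma real_Mbound {F G a b d η₀ μ y : ℝ} (hFG : F ≤ G) (hG : G ≤ a + b * (μ + y) ^ 2)
    (hb : 0 ≤ b) (hη₀ : 0 < η₀) (hcoef : (1 + η₀) * (2 * b) + η₀ ≤ d) :
    F + η₀ * G - (d - η₀) * y ^ 2 ≤ (1 + η₀) * (a + 2 * b * μ ^ 2) := by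
  have h3 : (μ + y) ^ 2 ≤ 2 * μ ^ 2 + 2 * y ^ 2 := by nlinarith [sq_nonneg (μ - y)]
  have h4 : b * (μ + y) ^ 2 ≤ b * (2 * μ ^ 2 + 2 * y ^ 2) := mul_le_mul_of_nonneg_left h3 hb
  have h5 : F + η₀ * G ≤ (1 + η₀) * G := by linarith
  have h6 : (1 + η₀) * G ≤ (1 + η₀) * (a + b * (2 * μ ^ 2 + 2 * y ^ 2)) :=
    mul_le_mul_of_nonneg_left (by linarith) (by linarith)
  have h7 : 0 ≤ (d - ((1 + η₀) * (2 * b) + η₀)) * y ^ 2 :=
    mul_nonneg (by linarith) (sq_nonneg y)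
  have e1 : (1 + η₀) * (a + b * (2 * μ ^ 2 + 2 * y ^ 2)) =
      (1 + η₀) * (a + 2 * b * μ ^ 2) + (1 + η₀) * (2 * b) * y ^ 2 := by ring
  have e2 : (d - ((1 + η₀) * (2 * b) + η₀)) * y ^ 2 =
      (d - η₀) * y ^ 2 - (1 + η₀) * (2 * b) * y ^ 2 := by ring
  linarith

lemma real_choice {M η₀ ε' : ℝ} (hM : 0 ≤ M) (hη₀ : 0 < η₀) (hε' : 0 < ε') :
    ∃ η, 0 < η ∧ η ≤ η₀ ∧ η / η₀ * M ≤ ε' / 2 := by
  refine ⟨min η₀ (ε' * η₀ / (2 * (M + 1))), lt_min hη₀ (by positivity), min_le_left _ _, ?_⟩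
  set η := min η₀ (ε' * η₀ / (2 * (M + 1))) with hη
  have h1 : η ≤ ε' * η₀ / (2 * (M + 1)) := min_le_right _ _
  have h2 : η / η₀ ≤ ε' / (2 * (M + 1)) := by
    rw [div_le_iff₀ hη₀]
    calc η ≤ _ := h1
      _ = _ := by field_simp
  have h3 : ε' / (2 * (M + 1)) * M ≤ ε' / 2 := by
    rw [div_mul_eq_mul_div, div_le_iff₀ (by positivity)]
    nlinarith
  exact (mul_le_mul_of_nonneg_right h2 hM).trans h3

lemma real_log_choice {c κ ε ℓ : ℝ} (hc : 0 < c) (hκ1 : 1 ≤ κ) (hε : 0 < ε) (hℓ : 0 < ℓ) :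
    (ℓ ^ 3)⁻¹ * Real.log (1 + 1 / (c * κ / ℓ ^ 3 * ε / 2)) ≤
      (ℓ ^ 3)⁻¹ * Real.log (1 + 2 / (c * ε) * ℓ ^ 3) := by
  have hκpos : 0 < κ := by linarith
  apply mul_le_mul_of_nonneg_left _ (by positivity)
  apply Real.log_le_log (by positivity)
  have h3 : 1 / (c * κ / ℓ ^ 3 * ε / 2) ≤ 2 / (c * ε) * ℓ ^ 3 := by
    have e1 : 1 / (c * κ / ℓ ^ 3 * ε / 2) = 2 / (c * ε) * ℓ ^ 3 / κ := by
      field_simp
    rw [e1]
    apply div_le_self (by positivity) hκ1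
  linarith

lemma eventually_kappa {ℓ ε : ℝ} (hε : 0 < ε) : ∀ᶠ R in atTop, (1 + 2 * ℓ / R) ^ 3 ≤ 1 + ε := by
  have h1 : Tendsto (fun R : ℝ => (1 + 2 * ℓ * R⁻¹) ^ 3) atTop (𝓝 ((1 + 2 * ℓ * 0) ^ 3)) :=
    (tendsto_const_nhds.add (tendsto_inv_atTop_zero.const_mul _)).pow 3
  have h2 : ((1 : ℝ) + 2 * ℓ * 0) ^ 3 < 1 + ε := by
    rw [mul_zero, add_zero, one_pow]
    linarith
  filter_upwards [h1.eventually (gt_mem_nhds h2)] with R hR
  rw [div_eq_mul_inv]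
  exact hR.le

/-- The upper bound for the fixed choice of parameters. -/
lemma PP_upper_aux {A c ρ η₀ η ε μ ε' M R : ℝ} {m : ℕ} {w : ℝ → ℝ} (hG : Good A w)
    (hG2 : Good A (fun r => w r + w r)) (hc : 0 < c) (hρ : 0 < ρ) (hrange : ∀ r, ρ ≤ r → w r = 0)
    (hη₀ : 0 < η₀) (hcf : 2 * c * (16 / A) < 1)
    (hMbound : ∀ y, PP A w (μ + y) + η₀ * PP A (fun r => w r + w r) (μ + y) -
      (1 / (2 * c) - η₀) * y ^ 2 ≤ M)
    (hηpos : 0 < η) (hηle : η ≤ η₀) (hηM : η / η₀ * M ≤ ε' / 2) (hεpos : 0 < ε)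
    (hεηc : ε ≤ η * c) (hm6 : 6 ≤ m)
    (hm1 : (((m : ℝ) * ρ + 1) / (m * ρ)) ^ 3 * (1 + 3 / ((m : ℝ) - 3)) - 1 ≤ η)
    (hm2 : (((m : ℝ) * ρ) ^ 3)⁻¹ * Real.log (1 + 2 / (c * ε) * ((m : ℝ) * ρ) ^ 3) ≤ ε' / 2)
    (hgoodR : Good A (fun r => w r + c * kacP R r)) (hR : 0 < R)
    (hκ : (1 + 2 * ((m : ℝ) * ρ) / R) ^ 3 ≤ 1 + ε) :
    PP A (fun r => w r + c * kacP R r) μ ≤ TT c (PP A w) μ + ε' := by
  have hCF := CF_PP hG
  have hT0 : 0 ≤ TT c (PP A w) μ := (hCF.nonneg μ).trans (hCF.le_TT hc hcf μ)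
  have hfg : ∀ ν, PP A w ν ≤ PP A (fun r => w r + w r) ν :=
    PP_mono_w hG hG2 (fun r => by linarith [hG.nonneg r])
  have hm0 : (0 : ℝ) < m := by
    have : 0 < m := by omega
    exact_mod_cast this
  have hm3 : (3 : ℝ) ≤ (m : ℝ) - 3 := by
    have : (6 : ℝ) ≤ m := by exact_mod_cast hm6
    linarith
  have hℓ : 0 < (m : ℝ) * ρ := by positivity
  have hs0 : 0 ≤ 3 / ((m : ℝ) - 3) := by positivity
  have hs1 : 3 / ((m : ℝ) - 3) ≤ 1 := by
    rw [div_le_one (by linarith)]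
    exact hm3
  have hθ : Good A (fun r => w r + 3 / ((m : ℝ) - 3) * w r) :=
    hG.combo hG2 hG.nonneg hG.meas hs0 hs1
  have hκ1 : 1 ≤ (1 + 2 * ((m : ℝ) * ρ) / R) ^ 3 := by
    apply one_le_pow₀
    have : 0 < 2 * ((m : ℝ) * ρ) / R := by positivity
    linarith
  have hq1 : 1 ≤ (((m : ℝ) * ρ + 1) / ((m : ℝ) * ρ)) ^ 3 := by
    apply one_le_pow₀
    rw [one_le_div hℓ]
    linarith
  have hfin := PP_upper_param (μ := μ) (ε := ε) (Gs := TT c (PP A w) μ + ε' / 2) (m := m)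
    (by omega) hρ hc hR hεpos hgoodR hθ hG.nonneg hrange hG.meas (by
      intro y _
      have hP := PP_convex_coupling hG hG2 hG.nonneg hG.meas hs0 hs1 (μ + y)
      have h1 := real_step1 (PP_nonneg hG (μ + y)) (PP_nonneg hG2 (μ + y)) (hfg (μ + y)) hs0 hP
        hq1 hm1
      have hc2 := real_step2 (y := y) hc hεpos hκ hκ1 hεηc
      have hT := hCF.psi_le_TT hc hcf μ (μ + y)
      unfold psi at hT
      have e1 : (μ + y - μ) ^ 2 / (2 * c) = 1 / (2 * c) * y ^ 2 := by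
        have : μ + y - μ = y := by ring
        rw [this]
        ring
      rw [e1] at hT
      have hter := term_le (F := PP A w (μ + y)) (G := PP A (fun r => w r + w r) (μ + y))
        (d := 1 / (2 * c)) (yy := y ^ 2) hηpos.le hη₀ hηle hT0 hT (hMbound y)
      linarith)
  refine hfin.trans ?_
  have hlog := real_log_choice hc hκ1 hεpos hℓ
  linarith

/-- The upper bound: as `R → ∞` the pressure with a long range attraction is bounded by the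
Maxwell construction. -/
theorem PP_upper {A c ρ η₀ : ℝ} {w : ℝ → ℝ} (hG : Good A w) (hG2 : Good A (fun r => w r + w r))
    (hc : 0 < c) (hρ : 0 < ρ) (hrange : ∀ r, ρ ≤ r → w r = 0)
    (hgood : ∀ᶠ R in atTop, Good A (fun r => w r + c * kacP R r))
    (hη₀ : 0 < η₀) (hcoef : (1 + η₀) * (2 * (16 / A)) + η₀ ≤ 1 / (2 * c))
    (hcf : 2 * c * (16 / A) < 1) (μ : ℝ) {ε' : ℝ} (hε' : 0 < ε') :
    ∀ᶠ R in atTop, PP A (fun r => w r + c * kacP R r) μ ≤ TT c (PP A w) μ + ε' := by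
  have hA := hG.A_pos
  have hfg : ∀ ν, PP A w ν ≤ PP A (fun r => w r + w r) ν :=
    PP_mono_w hG hG2 (fun r => by linarith [hG.nonneg r])
  have hb0 : 0 ≤ 16 / A := by positivity
  have ha0 : 0 ≤ aQ A := aQ_nonneg hA
  have hM : 0 ≤ (1 + η₀) * (aQ A + 2 * (16 / A) * μ ^ 2) := by positivity
  have hMbound : ∀ y, PP A w (μ + y) + η₀ * PP A (fun r => w r + w r) (μ + y) -
      (1 / (2 * c) - η₀) * y ^ 2 ≤ (1 + η₀) * (aQ A + 2 * (16 / A) * μ ^ 2) := fun y =>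
    real_Mbound (hfg (μ + y)) (PP_quad hG2 (μ + y)) hb0 hη₀ hcoef
  obtain ⟨η, hηpos, hηle, hηM⟩ := real_choice hM hη₀ hε'
  have hεpos : 0 < min 1 (η * c) := lt_min one_pos (by positivity)
  have hεηc : min 1 (η * c) ≤ η * c := min_le_right _ _
  obtain ⟨m, hm6, hm1, hm2⟩ := exists_m (K := 2 / (c * min 1 (η * c))) (δ := ε' / 2) hρ hηpos
    (by positivity) (by positivity)
  filter_upwards [hgood, eventually_gt_atTop 0, eventually_kappa (ℓ := (m : ℝ) * ρ) hεpos] with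
    R hgoodR hR hκ
  exact PP_upper_aux hG hG2 hc hρ hrange hη₀ hcf hMbound hηpos hηle hηM hεpos hεηc hm6 hm1 hm2
    hgoodR hR hκ

/-- The step of the iteration. -/
theorem stage_step {A c ρ η₀ : ℝ} {w : ℝ → ℝ} (hG : Good A w) (hG2 : Good A (fun r => w r + w r))
    (hc : 0 < c) (hρ : 0 < ρ) (hrange : ∀ r, ρ ≤ r → w r = 0)
    (hgood : ∀ᶠ R in atTop, Good A (fun r => w r + c * kacP R r))
    (hη₀ : 0 < η₀) (hcoef : (1 + η₀) * (2 * (16 / A)) + η₀ ≤ 1 / (2 * c))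
    (hcf : 2 * c * (16 / A) < 1) {ν h δ δ' : ℝ} (hh : 0 < h) (hδ : δ * h ≤ D2 (PP A w) ν h)
    (hcδ : 8 * h < c * δ) (hδ' : δ' < δ) :
    ∃ R t, 4 ≤ R ∧ Good A (fun r => w r + c * kacP R r) ∧ t ≤ ν - h ∧
      δ' * (h / 2) ≤ D2 (PP A (fun r => w r + c * kacP R r)) t (h / 2) := by
  have hCF := CF_PP hG
  obtain ⟨t, htν, hkink⟩ := hCF.kink hc hcf hh hδ hcδ
  have hTcont := hCF.TT_continuous hc hcf
  set T := TT c (PP A w) with hT
  set ε' := (δ - δ') * (h / 2) / 4 with hε'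
  have hε'pos : 0 < ε' := by
    have : 0 < δ - δ' := by linarith
    positivity
  have hUp := PP_upper hG hG2 hc hρ hrange hgood hη₀ hcoef hcf t hε'pos
  have hshift : Tendsto (fun R : ℝ => c / (2 * VR R)) atTop (𝓝 0) := by
    refine Tendsto.const_div_atTop ?_ c
    exact tendsto_VR.const_mul_atTop (by norm_num)
  have hlow : ∀ u : ℝ, ∀ᶠ R in atTop, T u - ε' < T (u - c / (2 * VR R)) := by
    intro u
    have h1 : Tendsto (fun R : ℝ => T (u - c / (2 * VR R))) atTop (𝓝 (T (u - 0))) :=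
      hTcont.continuousAt.tendsto.comp (tendsto_const_nhds.sub hshift)
    rw [sub_zero] at h1
    exact h1.eventually (lt_mem_nhds (by linarith))
  obtain ⟨R, hR⟩ := (hgood.and (hUp.and ((hlow (t + h / 2)).and ((hlow (t - h / 2)).and
    (eventually_ge_atTop 4))))).exists
  obtain ⟨hgR, hup, hl1, hl2, hR4⟩ := hR
  have hRpos : 0 < R := by linarith
  refine ⟨R, t, hR4, hgR, htν, ?_⟩
  have h1 := TT_le_PP (μ := t + h / 2) hG hgR hc hRpos
  have h2 := TT_le_PP (μ := t - h / 2) hG hgR hc hRpos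
  have h3 := hkink (h / 2) (by positivity)
  unfold D2 at h3 ⊢
  have e : δ' * (h / 2) = δ * (h / 2) - 4 * ε' := by
    rw [hε']
    ring
  rw [e]
  linarith

end Vale.Agent.Lib.P171b
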