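import Vale.Agent.Lib.P171b.Pressure

open MeasureTheory Set Filter Topology Metric
open scoped ENNReal

namespace Vale.Agent.Lib.P171b

/-- The logarithm of the grand partition function in the cube of side `L`. -/
noncomputable def lZ (L μ : ℝ) (f : E3 → E3 → ℝ) : ℝ := Real.log (ZZ (cube L) μ f).toReal

lemma toReal_ZZ_ge_one {L μ : ℝ} {f : E3 → E3 → ℝ} (h : ZZ (cube L) μ f ≠ ⊤) :
    1 ≤ (ZZ (cube L) μ f).toReal := by
  have := ENNReal.toReal_mono h (one_le_ZZ (cube L) μ f)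
  simpa using this

lemma lZ_nonneg {L μ : ℝ} {f : E3 → E3 → ℝ} (h : ZZ (cube L) μ f ≠ ⊤) : 0 ≤ lZ L μ f :=
  Real.log_nonneg (toReal_ZZ_ge_one h)

lemma lZ_mono {L L' μ μ' : ℝ} {f f' : E3 → E3 → ℝ} (h : ZZ (cube L') μ' f' ≠ ⊤)
    (hle : ZZ (cube L) μ f ≤ ZZ (cube L') μ' f') : lZ L μ f ≤ lZ L' μ' f' := by
  have h1 : ZZ (cube L) μ f ≠ ⊤ := ne_top_of_le_ne_top h hle
  exact Real.log_le_log (lt_of_lt_of_le one_pos (toReal_ZZ_ge_one h1)) (ENNReal.toReal_mono h hle)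

lemma Good.ne_top {A : ℝ} {w : ℝ → ℝ} (h : Good A w) {L : ℝ} (hL : 0 ≤ L) (μ : ℝ) :
    ZZ (cube L) μ (KK A w) ≠ ⊤ :=
  ne_top_of_le_ne_top (ENNReal.pow_ne_top (Yv_ne_top h.A_pos μ)) (ZZ_KK_le h hL μ)

/-- Logarithm of the one-cell partition function. -/
noncomputable def LY (A μ : ℝ) : ℝ := Real.log (Yv A μ).toReal

lemma LY_nonneg {A : ℝ} (hA : 0 < A) (μ : ℝ) : 0 ≤ LY A μ := by
  apply Real.log_nonneg
  have := ENNReal.toReal_mono (Yv_ne_top hA μ) (one_le_ZZ (cube (1 / 2)) (μ + A / 4) (fun _ _ => A / 2))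
  simpa using this

lemma Yv_toReal_pos {A : ℝ} (hA : 0 < A) (μ : ℝ) : 0 < (Yv A μ).toReal := by
  have := ENNReal.toReal_mono (Yv_ne_top hA μ) (one_le_ZZ (cube (1 / 2)) (μ + A / 4) (fun _ _ => A / 2))
  have h1 : (1 : ℝ) ≤ (Yv A μ).toReal := by simpa using this
  linarith

lemma lZ_le_LY {A : ℝ} {w : ℝ → ℝ} (h : Good A w) {L : ℝ} (hL : 0 < L) (μ : ℝ) :
    lZ L μ (KK A w) ≤ 8 * (L + 1) ^ 3 * LY A μ := by
  have hA := h.A_pos
  have h1 := ZZ_KK_le h hL.le μ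
  have h2 := ENNReal.toReal_mono (ENNReal.pow_ne_top (Yv_ne_top hA μ)) h1
  rw [ENNReal.toReal_pow] at h2
  have h3 : lZ L μ (KK A w) ≤ ((⌊L / (1 / 2)⌋₊ + 2) ^ 3 : ℕ) * LY A μ := by
    unfold lZ LY
    rw [← Real.log_pow]
    exact Real.log_le_log (lt_of_lt_of_le one_pos (toReal_ZZ_ge_one (h.ne_top hL.le μ))) h2
  refine le_trans h3 ?_
  refine mul_le_mul_of_nonneg_right ?_ (LY_nonneg hA μ)
  push_cast
  have h4 : (⌊L / (1 / 2)⌋₊ : ℝ) ≤ L / (1 / 2) := Nat.floor_le (by positivity)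
  have h5 : ((⌊L / (1 / 2)⌋₊ : ℝ) + 2) ≤ 2 * (L + 1) := by
    have : L / (1 / 2) = 2 * L := by ring
    linarith
  calc ((⌊L / (1 / 2)⌋₊ : ℝ) + 2) ^ 3 ≤ (2 * (L + 1)) ^ 3 :=
        pow_le_pow_left₀ (by positivity) h5 3
    _ = _ := by ring

/-- The pressure, defined as a supremum over cubes separated by corridors. -/
noncomputable def PP (A : ℝ) (w : ℝ → ℝ) (μ : ℝ) : ℝ :=
  ⨆ L : {L : ℝ // 0 < L}, ((L.1 + 1) ^ 3)⁻¹ * lZ L.1 μ (KK A w)

lemma PP_bdd {A : ℝ} {w : ℝ → ℝ} (h : Good A w) (μ : ℝ) :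
    BddAbove (range (fun L : {L : ℝ // 0 < L} => ((L.1 + 1) ^ 3)⁻¹ * lZ L.1 μ (KK A w))) := by
  refine ⟨8 * LY A μ, ?_⟩
  rintro _ ⟨L, rfl⟩
  have hL := L.2
  have h1 := lZ_le_LY h hL μ
  have hp : 0 < (L.1 + 1) ^ 3 := by positivity
  rw [inv_mul_le_iff₀ hp]
  linarith

lemma lZ_le_PP {A : ℝ} {w : ℝ → ℝ} (h : Good A w) {L : ℝ} (hL : 0 < L) (μ : ℝ) :
    lZ L μ (KK A w) ≤ (L + 1) ^ 3 * PP A w μ := by
  have h1 := le_ciSup (PP_bdd h μ) ⟨L, hL⟩
  have hp : 0 < (L + 1) ^ 3 := by positivity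
  rw [← inv_mul_le_iff₀ hp]
  exact h1

lemma PP_le_LY {A : ℝ} {w : ℝ → ℝ} (h : Good A w) (μ : ℝ) : PP A w μ ≤ 8 * LY A μ := by
  refine ciSup_le (fun L => ?_)
  have hL := L.2
  have h1 := lZ_le_LY h hL μ
  have hp : 0 < (L.1 + 1) ^ 3 := by positivity
  rw [inv_mul_le_iff₀ hp]
  linarith

lemma PP_nonneg {A : ℝ} {w : ℝ → ℝ} (h : Good A w) (μ : ℝ) : 0 ≤ PP A w μ := by
  have h1 := lZ_le_PP h one_pos μ
  have h2 := lZ_nonneg (h.ne_top (L := 1) zero_le_one μ)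
  have hp : (0 : ℝ) < (1 + 1) ^ 3 := by positivity
  by_contra hneg
  push Not at hneg
  nlinarith

/-- Superadditivity in logarithmic form. -/
lemma lZ_superadd {A : ℝ} {w : ℝ → ℝ} (h : Good A w) {ℓ : ℝ} (hℓ : 0 < ℓ) (k : ℕ) (μ : ℝ) :
    (k : ℝ) ^ 3 * lZ ℓ μ (KK A w) ≤ lZ (k * (ℓ + 1)) μ (KK A w) := by
  have h1 := ZZ_superadd hℓ k (KMeas_KK (A := A) h.meas) (KK_symm A w)
    (fun v p q => radK_transl _ v p q) (KK_neg h.nonneg) μ
  have hk : (0 : ℝ) ≤ k * (ℓ + 1) := by positivity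
  have h2 := ENNReal.toReal_mono (h.ne_top hk μ) h1
  rw [ENNReal.toReal_pow] at h2
  unfold lZ
  have h3 := Real.log_le_log (pow_pos (lt_of_lt_of_le one_pos (toReal_ZZ_ge_one (h.ne_top hℓ.le μ))) _) h2
  rw [Real.log_pow] at h3
  push_cast at h3
  exact h3

lemma lZ_mono_L {A : ℝ} {w : ℝ → ℝ} (h : Good A w) {L L' : ℝ} (hL' : 0 ≤ L') (hLL : L ≤ L') (μ : ℝ) :
    lZ L μ (KK A w) ≤ lZ L' μ (KK A w) := by
  refine lZ_mono (h.ne_top hL' μ) (ZZ_mono ?_ μ _)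
  intro p hp i
  exact ⟨(hp i).1, (hp i).2.trans hLL⟩

/-- The thermodynamic limit exists and equals `PP`. -/
theorem tendsto_PP {A : ℝ} {w : ℝ → ℝ} (h : Good A w) (μ : ℝ) :
    Tendsto (fun L : ℝ => (L ^ 3)⁻¹ * lZ L μ (KK A w)) atTop (𝓝 (PP A w μ)) := by
  rw [tendsto_order]
  constructor
  · intro a ha
    -- find a finite cube beating `a`
    obtain ⟨L₀, hL₀⟩ := exists_lt_of_lt_ciSup ha
    set ℓ : ℝ := L₀.1 with hℓdef
    have hℓ : 0 < ℓ := L₀.2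
    have hlim : Tendsto (fun L : ℝ => (1 / (ℓ + 1) - 1 / L) ^ 3 * lZ ℓ μ (KK A w)) atTop
        (𝓝 ((1 / (ℓ + 1) - 0) ^ 3 * lZ ℓ μ (KK A w))) := by
      refine Tendsto.mul_const _ (Tendsto.pow (Tendsto.sub tendsto_const_nhds ?_) 3)
      exact tendsto_const_nhds.div_atTop tendsto_id
    have hval : (1 / (ℓ + 1) - 0) ^ 3 * lZ ℓ μ (KK A w) = ((ℓ + 1) ^ 3)⁻¹ * lZ ℓ μ (KK A w) := by
      rw [sub_zero, one_div, inv_pow]
    rw [hval] at hlim
    have hev := hlim.eventually (lt_mem_nhds hL₀)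
    filter_upwards [hev, eventually_ge_atTop (ℓ + 1)] with L hL1 hL2
    refine lt_of_lt_of_le hL1 ?_
    have hLpos : 0 < L := by linarith
    set k : ℕ := ⌊L / (ℓ + 1)⌋₊ with hk
    have hk1 : L / (ℓ + 1) - 1 ≤ (k : ℝ) := by
      have := Nat.lt_floor_add_one (L / (ℓ + 1))
      rw [← hk] at this
      linarith
    have hk2 : (k : ℝ) * (ℓ + 1) ≤ L := by
      have := Nat.floor_le (by positivity : 0 ≤ L / (ℓ + 1))
      rw [← hk] at this
      rwa [le_div_iff₀ (by linarith)] at this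
    have h1 := lZ_superadd h hℓ k μ
    have h2 := lZ_mono_L h hLpos.le hk2 μ
    have hl0 : 0 ≤ lZ ℓ μ (KK A w) := lZ_nonneg (h.ne_top hℓ.le μ)
    have hpos : 0 ≤ 1 / (ℓ + 1) - 1 / L := by
      rw [sub_nonneg]
      exact one_div_le_one_div_of_le (by linarith) (by linarith)
    have hkL : 1 / (ℓ + 1) - 1 / L ≤ (k : ℝ) / L := by
      have : (1 / (ℓ + 1) - 1 / L) = (L / (ℓ + 1) - 1) / L := by
        field_simp
      rw [this]
      exact div_le_div_of_nonneg_right hk1 hLpos.le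
    have hpow : (1 / (ℓ + 1) - 1 / L) ^ 3 ≤ ((k : ℝ) / L) ^ 3 := pow_le_pow_left₀ hpos hkL 3
    calc (1 / (ℓ + 1) - 1 / L) ^ 3 * lZ ℓ μ (KK A w)
        ≤ ((k : ℝ) / L) ^ 3 * lZ ℓ μ (KK A w) := mul_le_mul_of_nonneg_right hpow hl0
      _ = (L ^ 3)⁻¹ * ((k : ℝ) ^ 3 * lZ ℓ μ (KK A w)) := by
          rw [div_pow]; field_simp
      _ ≤ (L ^ 3)⁻¹ * lZ L μ (KK A w) :=
          mul_le_mul_of_nonneg_left (h1.trans h2) (by positivity)
  · intro a ha
    have hlim : Tendsto (fun L : ℝ => (1 + 1 / L) ^ 3 * PP A w μ) atTop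
        (𝓝 ((1 + 0) ^ 3 * PP A w μ)) := by
      refine Tendsto.mul_const _ (Tendsto.pow (Tendsto.add tendsto_const_nhds ?_) 3)
      exact tendsto_const_nhds.div_atTop tendsto_id
    have hval : (1 + (0 : ℝ)) ^ 3 * PP A w μ = PP A w μ := by simp
    rw [hval] at hlim
    have hev := hlim.eventually (gt_mem_nhds ha)
    filter_upwards [hev, eventually_gt_atTop 0] with L hL1 hL2
    refine lt_of_le_of_lt ?_ hL1
    have h1 := lZ_le_PP h hL2 μ
    calc (L ^ 3)⁻¹ * lZ L μ (KK A w) ≤ (L ^ 3)⁻¹ * ((L + 1) ^ 3 * PP A w μ) :=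
          mul_le_mul_of_nonneg_left h1 (by positivity)
      _ = _ := by
          have : (1 + 1 / L) = (L + 1) / L := by field_simp
          rw [this, div_pow]
          field_simp


/-- Monotonicity in the chemical potential. -/
lemma ZZ_mono_mu {f : E3 → E3 → ℝ} (L : ℝ) {μ μ' : ℝ} (hμ : μ ≤ μ') :
    ZZ (cube L) μ f ≤ ZZ (cube L) μ' f := by
  refine ZZ_le_of_forall (measurableSet_cube L) (fun n x _ => ?_)
  have : (0 : ℝ) ≤ n := Nat.cast_nonneg n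
  nlinarith

lemma PP_mono_mu {A : ℝ} {w : ℝ → ℝ} (h : Good A w) {μ μ' : ℝ} (hμ : μ ≤ μ') :
    PP A w μ ≤ PP A w μ' := by
  refine ciSup_mono (PP_bdd h μ') (fun L => ?_)
  have hL := L.2
  refine mul_le_mul_of_nonneg_left ?_ (by positivity)
  exact lZ_mono (h.ne_top hL.le μ') (ZZ_mono_mu _ hμ)

/-- Monotonicity in the attractive part. -/
lemma PP_mono_w {A : ℝ} {w w' : ℝ → ℝ} (h : Good A w) (h' : Good A w') (hw : ∀ r, w r ≤ w' r)
    (μ : ℝ) : PP A w μ ≤ PP A w' μ := by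
  refine ciSup_mono (PP_bdd h' μ) (fun L => ?_)
  have hL := L.2
  refine mul_le_mul_of_nonneg_left ?_ (by positivity)
  refine lZ_mono (h'.ne_top hL.le μ) ?_
  refine ZZ_le_of_forall (measurableSet_cube _) (fun n x _ => ?_)
  have : pairE (KK A w') x ≤ pairE (KK A w) x := by
    unfold pairE
    refine Finset.sum_le_sum (fun i _ => Finset.sum_le_sum (fun j _ => ?_))
    change pot A w' _ ≤ pot A w _
    unfold pot
    linarith [hw ‖x i - x j‖]
  linarith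

/-- Log-convexity at finite volume, for a convex combination of kernels. -/
lemma lZ_convex {L : ℝ} {f₁ f₂ f : E3 → E3 → ℝ} (h₁ : KMeas f₁) (h₂ : KMeas f₂)
    {μ₁ μ₂ μ : ℝ} {θ : ℝ} (h0 : 0 < θ) (h1 : θ < 1)
    (hμ : μ = θ * μ₁ + (1 - θ) * μ₂)
    (hf : ∀ p q, f p q = θ * f₁ p q + (1 - θ) * f₂ p q)
    (hT₁ : ZZ (cube L) μ₁ f₁ ≠ ⊤) (hT₂ : ZZ (cube L) μ₂ f₂ ≠ ⊤) :
    lZ L μ f ≤ θ * lZ L μ₁ f₁ + (1 - θ) * lZ L μ₂ f₂ := by
  have hff : f = fun p q => θ * f₁ p q + (1 - θ) * f₂ p q := by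
    funext p q; exact hf p q
  have h := ZZ_holder (cube L) h₁ h₂ μ₁ μ₂ h0 h1
  rw [← hμ, ← hff] at h
  have hθ' : 0 ≤ 1 - θ := by linarith
  have hR : ZZ (cube L) μ₁ f₁ ^ θ * ZZ (cube L) μ₂ f₂ ^ (1 - θ) ≠ ⊤ :=
    ENNReal.mul_ne_top (ENNReal.rpow_ne_top_of_nonneg h0.le hT₁)
      (ENNReal.rpow_ne_top_of_nonneg hθ' hT₂)
  have h2 := ENNReal.toReal_mono hR h
  rw [ENNReal.toReal_mul, ← ENNReal.toReal_rpow, ← ENNReal.toReal_rpow] at h2
  have hp₁ : 0 < (ZZ (cube L) μ₁ f₁).toReal := lt_of_lt_of_le one_pos (toReal_ZZ_ge_one hT₁)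
  have hp₂ : 0 < (ZZ (cube L) μ₂ f₂).toReal := lt_of_lt_of_le one_pos (toReal_ZZ_ge_one hT₂)
  have hp : 0 < (ZZ (cube L) μ f).toReal :=
    lt_of_lt_of_le one_pos (toReal_ZZ_ge_one (ne_top_of_le_ne_top hR h))
  have h3 := Real.log_le_log hp h2
  rw [Real.log_mul (by positivity) (by positivity), Real.log_rpow hp₁, Real.log_rpow hp₂] at h3
  exact h3

/-- Convexity of the pressure in the chemical potential. -/
lemma PP_convex_mu {A : ℝ} {w : ℝ → ℝ} (h : Good A w) (μ₁ μ₂ : ℝ) {θ : ℝ} (h0 : 0 ≤ θ)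
    (h1 : θ ≤ 1) : PP A w (θ * μ₁ + (1 - θ) * μ₂) ≤ θ * PP A w μ₁ + (1 - θ) * PP A w μ₂ := by
  rcases h0.eq_or_lt with rfl | h0'
  · simp
  rcases h1.eq_or_lt with rfl | h1'
  · simp
  have hlim1 := tendsto_PP h (θ * μ₁ + (1 - θ) * μ₂)
  have hlim2 := ((tendsto_PP h μ₁).const_mul θ).add ((tendsto_PP h μ₂).const_mul (1 - θ))
  refine le_of_tendsto_of_tendsto hlim1 hlim2 ?_
  filter_upwards [eventually_gt_atTop 0] with L hL
  have hm := KMeas_KK (A := A) h.meas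
  have := lZ_convex (L := L) (f := KK A w) hm hm h0' h1' rfl
    (fun p q => by ring) (h.ne_top hL.le μ₁) (h.ne_top hL.le μ₂)
  have hp : 0 ≤ (L ^ 3)⁻¹ := by positivity
  calc (L ^ 3)⁻¹ * lZ L (θ * μ₁ + (1 - θ) * μ₂) (KK A w)
      ≤ (L ^ 3)⁻¹ * (θ * lZ L μ₁ (KK A w) + (1 - θ) * lZ L μ₂ (KK A w)) :=
        mul_le_mul_of_nonneg_left this hp
    _ = _ := by ring

lemma PP_convexOn {A : ℝ} {w : ℝ → ℝ} (h : Good A w) : ConvexOn ℝ univ (PP A w) := by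
  refine ⟨convex_univ, fun x _ y _ a b ha hb hab => ?_⟩
  have hb' : b = 1 - a := by linarith
  subst hb'
  have := PP_convex_mu h x y ha (by linarith)
  simpa [smul_eq_mul] using this

/-- The straight-line combination of an admissible attractive part with a perturbation. -/
lemma Good.combo {A : ℝ} {w u : ℝ → ℝ} (h : Good A w) (h' : Good A (fun r => w r + u r))
    (hu0 : ∀ r, 0 ≤ u r) (hum : Measurable u) {lam : ℝ} (h0 : 0 ≤ lam) (h1 : lam ≤ 1) :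
    Good A (fun r => w r + lam * u r) := by
  refine ⟨h.A_pos, fun r => ?_, h.meas.add (hum.const_mul lam), fun n x => ?_⟩
  · have := h.nonneg r
    have := hu0 r
    positivity
  · have e1 : radK (fun r => w r + lam * u r) = fun p q =>
        (1 - lam) * radK w p q + lam * radK (fun r => w r + u r) p q := by
      funext p q
      simp only [radK]
      ring
    rw [e1, pairE_add, pairE_smul, pairE_smul]
    have h2 := h.adm n x
    have h3 := h'.adm n x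
    have : (1 - lam) * pairE (radK w) x + lam * pairE (radK (fun r => w r + u r)) x ≤
        (1 - lam) * (A / 4 * (n + 2 * sameE (1 / 2) 0 x)) + lam * (A / 4 * (n + 2 * sameE (1 / 2) 0 x)) :=
      add_le_add (mul_le_mul_of_nonneg_left h2 (by linarith)) (mul_le_mul_of_nonneg_left h3 h0)
    linarith

/-- Convexity of the pressure in the coupling. -/
lemma PP_convex_coupling {A : ℝ} {w u : ℝ → ℝ} (h : Good A w) (h' : Good A (fun r => w r + u r))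
    (hu0 : ∀ r, 0 ≤ u r) (hum : Measurable u) {lam : ℝ} (h0 : 0 ≤ lam) (h1 : lam ≤ 1) (μ : ℝ) :
    PP A (fun r => w r + lam * u r) μ ≤ (1 - lam) * PP A w μ + lam * PP A (fun r => w r + u r) μ := by
  rcases h0.eq_or_lt with rfl | h0'
  · simp
  rcases h1.eq_or_lt with rfl | h1'
  · simp
  have hg := h.combo h' hu0 hum h0 h1
  have hlim1 := tendsto_PP hg μ
  have hlim2 := ((tendsto_PP h μ).const_mul (1 - lam)).add ((tendsto_PP h' μ).const_mul lam)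
  refine le_of_tendsto_of_tendsto hlim1 hlim2 ?_
  filter_upwards [eventually_gt_atTop 0] with L hL
  have hm := KMeas_KK (A := A) h.meas
  have hm' := KMeas_KK (A := A) h'.meas
  have := lZ_convex (L := L) (f := KK A (fun r => w r + lam * u r)) (θ := 1 - lam) (μ₁ := μ) (μ₂ := μ) (μ := μ)
    hm hm' (by linarith) (by linarith) (by ring)
    (fun p q => by
      simp only [radK, pot]
      ring) (h.ne_top hL.le μ) (h'.ne_top hL.le μ)
  have hp : 0 ≤ (L ^ 3)⁻¹ := by positivity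
  have e : (1 : ℝ) - (1 - lam) = lam := by ring
  rw [e] at this
  calc (L ^ 3)⁻¹ * lZ L μ (KK A (fun r => w r + lam * u r))
      ≤ (L ^ 3)⁻¹ * ((1 - lam) * lZ L μ (KK A w) + lam * lZ L μ (KK A (fun r => w r + u r))) :=
        mul_le_mul_of_nonneg_left this hp
    _ = _ := by ring

/-- Quantitative upper bound for the pressure. -/
lemma PP_le_quad {A : ℝ} {w : ℝ → ℝ} (h : Good A w) (μ : ℝ) :
    PP A w μ ≤ 8 * (Real.log 2 + (μ + A / 2 + 1) ^ 2 / A) := by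
  have hA := h.A_pos
  refine (PP_le_LY h μ).trans ?_
  refine mul_le_mul_of_nonneg_left ?_ (by norm_num)
  unfold LY
  have h1 := Yv_le hA μ
  have h2 := ENNReal.toReal_mono (by simp [ENNReal.mul_eq_top]) h1
  rw [ENNReal.toReal_mul, ENNReal.toReal_ofReal (Real.exp_pos _).le] at h2
  have h3 := Real.log_le_log (Yv_toReal_pos hA μ) h2
  rw [Real.log_mul (Real.exp_pos _).ne' (by simp), Real.log_exp] at h3
  simp only [ENNReal.toReal_ofNat] at h3
  linarith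

lemma PP_le_small {A : ℝ} {w : ℝ → ℝ} (h : Good A w) {μ : ℝ} (hμ : μ + A / 4 ≤ 0) :
    PP A w μ ≤ 8 * Real.exp (μ + A / 4) := by
  have hA := h.A_pos
  refine (PP_le_LY h μ).trans ?_
  refine mul_le_mul_of_nonneg_left ?_ (by norm_num)
  unfold LY
  have h1 := Yv_le_small hA hμ
  have h2 := ENNReal.toReal_mono (by simp) h1
  rw [ENNReal.toReal_add (by simp) (by simp), ENNReal.toReal_ofReal (Real.exp_pos _).le] at h2
  simp only [ENNReal.toReal_one] at h2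
  have h3 := Real.log_le_log (Yv_toReal_pos hA μ) h2
  refine h3.trans ?_
  have := Real.log_le_sub_one_of_pos (by positivity : 0 < 1 + Real.exp (μ + A / 4))
  linarith

end Vale.Agent.Lib.P171b
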