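import Vale.Agent.Lib.P171b.Cut

open MeasureTheory Set Filter Topology
open scoped ENNReal

namespace Vale.Agent.Lib.P171b

lemma pairE_hatK (A : ℝ) (w : ℝ → ℝ) (e : ℝ) {n : ℕ} (x : Fin n → E3) :
    pairE (hatK A w e) x = pairE (KK A w) x - e * ((n : ℝ) * ((n : ℝ) - 1) / 2) := by
  have : hatK A w e = fun p q => KK A w p q - (fun _ _ => e) p q := rfl
  rw [this, pairE_sub, pairE_const]

/-- The terms of the cell partition function. -/
lemma hatK_term (S : Set E3) (A : ℝ) (w : ℝ → ℝ) (e μ : ℝ) (n : ℕ) :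
    ENNReal.ofReal (Real.exp ((μ + e / 2) * n)) * Zn S (hatK A w e) n =
      ENNReal.ofReal (Real.exp (μ * n + e / 2 * (n : ℝ) ^ 2)) * Zn S (KK A w) n := by
  unfold Zn
  rw [mul_left_comm, mul_left_comm (ENNReal.ofReal (Real.exp (μ * n + e / 2 * (n : ℝ) ^ 2)))]
  congr 1
  rw [← lintegral_const_mul' _ _ ENNReal.ofReal_ne_top,
    ← lintegral_const_mul' _ _ ENNReal.ofReal_ne_top]
  refine lintegral_congr (fun x => ?_)
  rw [← ENNReal.ofReal_mul (Real.exp_pos _).le, ← ENNReal.ofReal_mul (Real.exp_pos _).le,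
    ← Real.exp_add, ← Real.exp_add, pairE_hatK]
  congr 2
  ring

lemma exp_neg_sum_le {θ : ℝ} (hθ : 0 < θ) :
    ∑' n : ℕ, ENNReal.ofReal (Real.exp (-θ * (n : ℝ) ^ 2)) ≤ ENNReal.ofReal (1 + 1 / θ) := by
  have hq : Real.exp (-θ) < 1 := by
    rw [Real.exp_lt_one_iff]
    linarith
  have hq0 := Real.exp_pos (-θ)
  have h1 : ∀ n : ℕ, ENNReal.ofReal (Real.exp (-θ * (n : ℝ) ^ 2)) ≤
      (ENNReal.ofReal (Real.exp (-θ))) ^ n := by
    intro n
    rw [← ENNReal.ofReal_pow hq0.le, ← Real.exp_nat_mul]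
    apply ENNReal.ofReal_le_ofReal
    apply Real.exp_le_exp.mpr
    have hn : (n : ℝ) ≤ (n : ℝ) ^ 2 := by
      rcases Nat.eq_zero_or_pos n with rfl | hn
      · simp
      · have : (1 : ℝ) ≤ n := by exact_mod_cast hn
        nlinarith
    nlinarith
  refine (ENNReal.tsum_le_tsum h1).trans ?_
  rw [ENNReal.tsum_geometric]
  have hsub : 1 - ENNReal.ofReal (Real.exp (-θ)) = ENNReal.ofReal (1 - Real.exp (-θ)) := by
    rw [ENNReal.ofReal_sub _ hq0.le, ENNReal.ofReal_one]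
  have hpos : 0 < 1 - Real.exp (-θ) := by linarith
  rw [hsub, ← ENNReal.ofReal_inv_of_pos hpos]
  apply ENNReal.ofReal_le_ofReal
  have h2 : 1 + θ ≤ Real.exp θ := by
    have := Real.add_one_le_exp θ
    linarith
  have h3 : Real.exp (-θ) * Real.exp θ = 1 := by
    rw [← Real.exp_add]; simp
  have h4 : θ / (1 + θ) ≤ 1 - Real.exp (-θ) := by
    rw [div_le_iff₀ (by linarith)]
    have h5 := Real.exp_pos θ
    nlinarith
  have h6 : (1 - Real.exp (-θ))⁻¹ ≤ (θ / (1 + θ))⁻¹ :=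
    inv_anti₀ (by positivity) h4
  have h7 : (θ / (1 + θ))⁻¹ = 1 + 1 / θ := by
    field_simp
    ring
  rw [h7] at h6
  exact h6

/-- `ZZ` as the exponential of `lZ`. -/
lemma ZZ_le_exp_PP {A : ℝ} {w : ℝ → ℝ} (h : Good A w) {ℓ : ℝ} (hℓ : 0 < ℓ) (μ : ℝ) :
    ZZ (cube ℓ) μ (KK A w) ≤ ENNReal.ofReal (Real.exp ((ℓ + 1) ^ 3 * PP A w μ)) := by
  have hne := h.ne_top hℓ.le μ
  have h1 := lZ_le_PP h hℓ μ
  have hpos : 0 < (ZZ (cube ℓ) μ (KK A w)).toReal := lt_of_lt_of_le one_pos (toReal_ZZ_ge_one hne)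
  rw [← ENNReal.ofReal_toReal hne]
  apply ENNReal.ofReal_le_ofReal
  rw [← Real.exp_log hpos]
  exact Real.exp_le_exp.mpr h1

/-- Bound for the partition function of a cell with the additional constant attraction. -/
theorem Xi_le {A : ℝ} {w : ℝ → ℝ} (h : Good A w) {ℓ e ε Gl μ : ℝ} (hℓ : 0 < ℓ) (he : 0 < e)
    (hε : 0 < ε)
    (hG : ∀ y, 0 ≤ y → (ℓ + 1) ^ 3 * PP A w (μ + y) - y ^ 2 / (2 * (e * (1 + ε))) ≤ Gl) :
    ZZ (cube ℓ) (μ + e / 2) (hatK A w e) ≤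
      ENNReal.ofReal (1 + 1 / (e * ε / 2)) * ENNReal.ofReal (Real.exp Gl) := by
  have hθ : 0 < e * ε / 2 := by positivity
  rw [ZZ_eq_tsum]
  refine le_trans ?_ (mul_le_mul_left (exp_neg_sum_le hθ) _)
  rw [← ENNReal.tsum_mul_right]
  refine ENNReal.tsum_le_tsum (fun n => ?_)
  rw [hatK_term]
  set e2 := e * (1 + ε) with he2
  have he2pos : 0 < e2 := by positivity
  set y : ℝ := e2 * n with hy
  have hy0 : 0 ≤ y := by positivity
  have hsplit : μ * n + e / 2 * (n : ℝ) ^ 2 =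
      (-(e * ε / 2) * (n : ℝ) ^ 2 + -(y ^ 2 / (2 * e2))) + (μ + y) * n := by
    rw [hy]
    field_simp
    rw [he2]
    ring
  rw [hsplit, Real.exp_add, ENNReal.ofReal_mul (Real.exp_pos _).le, mul_assoc]
  have h1 := Zn_le (cube ℓ) (μ + y) (KK A w) n
  have h2 := ZZ_le_exp_PP h hℓ (μ + y)
  have h3 := hG y hy0
  rw [Real.exp_add, ENNReal.ofReal_mul (Real.exp_pos _).le, mul_assoc]
  refine mul_le_mul_right ?_ _
  calc ENNReal.ofReal (Real.exp (-(y ^ 2 / (2 * e2)))) *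
        (ENNReal.ofReal (Real.exp ((μ + y) * n)) * Zn (cube ℓ) (KK A w) n)
      ≤ ENNReal.ofReal (Real.exp (-(y ^ 2 / (2 * e2)))) *
          ENNReal.ofReal (Real.exp ((ℓ + 1) ^ 3 * PP A w (μ + y))) :=
        mul_le_mul_right (h1.trans h2) _
    _ = ENNReal.ofReal (Real.exp (-(y ^ 2 / (2 * e2)) + (ℓ + 1) ^ 3 * PP A w (μ + y))) := by
        rw [Real.exp_add, ENNReal.ofReal_mul (Real.exp_pos _).le]
    _ ≤ _ := by
        apply ENNReal.ofReal_le_ofReal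
        apply Real.exp_le_exp.mpr
        linarith

/-- From a bound on cells to a bound on the pressure. -/
theorem PP_le_of_cell {A : ℝ} {w : ℝ → ℝ} (h : Good A w) {ℓ : ℝ} (hℓ : 0 < ℓ) {M : ℝ}
    (hM : 0 < M) {X : ℝ} (hX : 1 ≤ X) {μ : ℝ}
    (hb : ∀ L, 0 < L → ZZ (cube L) μ (KK A w) ≤
      ENNReal.ofReal M * ENNReal.ofReal X ^ ((⌊L / ℓ⌋₊ + 2) ^ 3)) :
    PP A w μ ≤ (ℓ ^ 3)⁻¹ * Real.log X := by
  have hlimit := tendsto_PP h μ
  have hlog : 0 ≤ Real.log X := Real.log_nonneg hX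
  have hXpos : 0 < X := by linarith
  have hlim2 : Tendsto (fun L : ℝ => (L ^ 3)⁻¹ * Real.log M +
      (1 / ℓ + 2 * L⁻¹) ^ 3 * Real.log X) atTop (𝓝 (0 * Real.log M +
        (1 / ℓ + 2 * 0) ^ 3 * Real.log X)) := by
    have h1 : Tendsto (fun L : ℝ => L⁻¹) atTop (𝓝 0) := tendsto_inv_atTop_zero
    have h2 : Tendsto (fun L : ℝ => (L ^ 3)⁻¹) atTop (𝓝 0) := by
      have := (tendsto_pow_atTop (α := ℝ) (by norm_num : (3 : ℕ) ≠ 0))
      exact tendsto_inv_atTop_zero.comp this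
    refine (h2.mul_const _).add (Tendsto.mul_const _ ?_)
    exact ((tendsto_const_nhds.add (h1.const_mul 2))).pow 3
  have hval : (0 * Real.log M + (1 / ℓ + 2 * 0) ^ 3 * Real.log X) = (ℓ ^ 3)⁻¹ * Real.log X := by
    rw [zero_mul, zero_add, mul_zero, add_zero, one_div, inv_pow]
  rw [hval] at hlim2
  refine le_of_tendsto_of_tendsto hlimit hlim2 ?_
  filter_upwards [eventually_gt_atTop 0] with L hL
  have hL3 : 0 < L ^ 3 := by positivity
  rw [mul_comm (L ^ 3)⁻¹ (lZ L μ (KK A w)), ← div_eq_mul_inv, div_le_iff₀ hL3]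
  have hb1 := hb L hL
  have hne : ENNReal.ofReal M * ENNReal.ofReal X ^ ((⌊L / ℓ⌋₊ + 2) ^ 3) ≠ ⊤ :=
    ENNReal.mul_ne_top ENNReal.ofReal_ne_top (ENNReal.pow_ne_top ENNReal.ofReal_ne_top)
  have h2 := ENNReal.toReal_mono hne hb1
  rw [ENNReal.toReal_mul, ENNReal.toReal_pow, ENNReal.toReal_ofReal hM.le,
    ENNReal.toReal_ofReal hXpos.le] at h2
  have h1ne : ZZ (cube L) μ (KK A w) ≠ ⊤ := h.ne_top hL.le μ
  have hpos : 0 < (ZZ (cube L) μ (KK A w)).toReal := lt_of_lt_of_le one_pos (toReal_ZZ_ge_one h1ne)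
  have h3 : lZ L μ (KK A w) ≤ Real.log M + ((⌊L / ℓ⌋₊ + 2) ^ 3 : ℕ) * Real.log X := by
    unfold lZ
    rw [← Real.log_pow, ← Real.log_mul hM.ne' (pow_pos hXpos _).ne']
    exact Real.log_le_log hpos h2
  have h4 : (((⌊L / ℓ⌋₊ + 2) ^ 3 : ℕ) : ℝ) ≤ (L / ℓ + 2) ^ 3 := by
    push_cast
    apply pow_le_pow_left₀ (by positivity)
    have := Nat.floor_le (by positivity : 0 ≤ L / ℓ)
    linarith
  have h5 : ((L ^ 3)⁻¹ * Real.log M + (1 / ℓ + 2 * L⁻¹) ^ 3 * Real.log X) * L ^ 3 =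
      Real.log M + (L / ℓ + 2) ^ 3 * Real.log X := by
    field_simp
  rw [h5]
  have h6 := mul_le_mul_of_nonneg_right h4 hlog
  linarith

end Vale.Agent.Lib.P171b
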